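import Mathlib

/-! Alive sets of labels along a path of bags. -/

namespace Vale.Agent.P235

open Finset

set_option linter.unusedSectionVars false

section Dist
variable {V I : Type*} [PseudoMetricSpace V] [Fintype I] [Nonempty I]

/-- Distance to a finite family of points. -/
noncomputable def dB (e : I → V) (x : V) : ℝ := ⨅ i, dist x (e i)

theorem dB_le (e : I → V) (x : V) (i : I) : dB e x ≤ dist x (e i) :=
  ciInf_le (Set.finite_range fun i => dist x (e i)).bddBelow i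

theorem dB_le' {e : I → V} (x : V) {q : V} (hq : q ∈ Set.range e) : dB e x ≤ dist x q := by
  obtain ⟨i, rfl⟩ := hq; exact dB_le e x i

theorem exists_dB (e : I → V) (x : V) : ∃ i, dist x (e i) = dB e x :=
  exists_eq_ciInf_of_finite

theorem dB_nonneg (e : I → V) (x : V) : 0 ≤ dB e x := by
  obtain ⟨i, hi⟩ := exists_dB e x; rw [← hi]; exact dist_nonneg

theorem dB_tri (e : I → V) (x y : V) : dB e x ≤ dist x y + dB e y := by
  obtain ⟨i, hi⟩ := exists_dB e y
  rw [← hi]; exact (dB_le e x i).trans (dist_triangle _ _ _)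

theorem dB_lip (e : I → V) (x y : V) : |dB e x - dB e y| ≤ dist x y := by
  have h1 := dB_tri e x y
  have h2 := dB_tri e y x
  rw [dist_comm] at h2
  rw [abs_le]; constructor <;> linarith

theorem dB_zero {e : I → V} {q : V} (hq : q ∈ Set.range e) : dB e q = 0 :=
  le_antisymm ((dB_le' q hq).trans_eq (dist_self q)) (dB_nonneg _ _)

/-- The functions attached to a label: the distance to the parent bag, possibly truncated. -/
noncomputable def lf (P B : I → V) (A : Option (I × I)) (x : V) : ℝ :=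
  match A with
  | none => dB P x
  | some a => min (dB P x) (max (dist (B a.1) (B a.2) / 2 - dist x (B a.1)) 0)

theorem lf_zero {P : I → V} (B : I → V) (A : Option (I × I)) {q : V} (hq : q ∈ Set.range P) :
    lf P B A q = 0 := by
  cases A with
  | none => exact dB_zero hq
  | some a => simp only [lf, dB_zero hq]; exact min_eq_left (le_max_right _ _)

theorem lf_lip (P B : I → V) (A : Option (I × I)) (x y : V) :
    |lf P B A x - lf P B A y| ≤ dist x y := by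
  cases A with
  | none => exact dB_lip P x y
  | some a =>
    refine (abs_min_sub_min_le_max _ _ _ _).trans (max_le (dB_lip P x y) ?_)
    refine (abs_max_sub_max_le_abs _ _ _).trans ?_
    rw [sub_sub_sub_cancel_left, abs_sub_comm]
    exact abs_dist_sub_le _ _ _

/-- The position of the value `v` among the scales seen from a point of a bag. -/
noncomputable def cellN (J : ℕ) (d v : ℝ) : Fin (2 * J + 2) :=
  ⟨((range (2 * J + 1)).filter fun j => d * 2 ^ j / 2 ^ J ≤ v).card,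
    Nat.lt_succ_of_le ((card_filter_le _ _).trans_eq (card_range _))⟩

theorem cellN_mono (J : ℕ) (d : ℝ) {v v' : ℝ} (h : v ≤ v') : cellN J d v ≤ cellN J d v' := by
  rw [Fin.le_def]
  simp only [cellN]
  refine card_le_card fun j hj => ?_
  rw [mem_filter] at hj ⊢; exact ⟨hj.1, hj.2.trans h⟩

theorem cellN_gap {J : ℕ} {d v v' : ℝ} (h : 2 * v < v') (hv : 0 ≤ v)
    (he : cellN J d v = cellN J d v') : d ≤ v / 2 ^ J ∨ 2 ^ J * v' ≤ d := by
  by_contra hc
  push Not at hc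
  have hZ : (0 : ℝ) < 2 ^ J := by positivity
  have hsub : ((range (2 * J + 1)).filter fun j => d * 2 ^ j / 2 ^ J ≤ v)
      ⊆ (range (2 * J + 1)).filter fun j => d * 2 ^ j / 2 ^ J ≤ v' := fun j hj => by
    rw [mem_filter] at hj ⊢; exact ⟨hj.1, by linarith [hj.2]⟩
  have heq := eq_of_subset_of_card_le hsub (le_of_eq (congrArg Fin.val he).symm)
  have k0 : ∀ j ≤ 2 * J, d * 2 ^ j / 2 ^ J ≤ v' → d * 2 ^ j / 2 ^ J ≤ v := fun j hj h1 => by
    have : j ∈ (range (2 * J + 1)).filter fun j => d * 2 ^ j / 2 ^ J ≤ v := by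
      rw [heq]; exact mem_filter.2 ⟨mem_range.2 (by omega), h1⟩
    exact (mem_filter.1 this).2
  have key : ∀ j ≤ 2 * J, d * 2 ^ j / 2 ^ J ≤ v := fun j hj => by
    induction j with
    | zero =>
      refine k0 0 hj ?_
      rw [pow_zero, mul_one, div_le_iff₀ hZ]; linarith [hc.2]
    | succ j ih =>
      refine k0 _ hj ?_
      have h1 := ih (by omega)
      have : d * 2 ^ (j + 1) / 2 ^ J = 2 * (d * 2 ^ j / 2 ^ J) := by ring
      linarith
  have h1 := key (2 * J) le_rfl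
  have h2 := hc.1
  rw [div_lt_iff₀ hZ] at h2
  rw [two_mul, pow_add, ← mul_assoc, mul_div_assoc, div_self hZ.ne', mul_one] at h1
  linarith

/-- The cell vector of a label at a bag. -/
noncomputable def cellv (J : ℕ) (B P : I → V) : I → I → Fin (2 * J + 2) :=
  fun i i' => cellN J (dist (B i) (B i')) (dB P (B i))

end Dist

open Classical in
/-- Keep the oldest and the youngest label of every class. -/
noncomputable def prune {C : Type*} (c : ℕ → C) (A : Finset ℕ) : Finset ℕ :=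
  A.filter fun l => ¬ ((∃ a ∈ A, a < l ∧ c a = c l) ∧ ∃ b ∈ A, l < b ∧ c b = c l)

theorem prune_subset {C : Type*} (c : ℕ → C) (A : Finset ℕ) : prune c A ⊆ A := by
  classical exact filter_subset _ _

theorem mem_prune {C : Type*} {c : ℕ → C} {A : Finset ℕ} {l : ℕ} : l ∈ prune c A ↔
    l ∈ A ∧ ¬ ((∃ a ∈ A, a < l ∧ c a = c l) ∧ ∃ b ∈ A, l < b ∧ c b = c l) := by
  classical exact mem_filter

theorem card_prune {C : Type*} [Fintype C] (c : ℕ → C) (A : Finset ℕ) :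
    (prune c A).card ≤ 2 * Fintype.card C := by
  classical
  have : (prune c A).card ≤ (univ : Finset (Bool × C)).card := by
    refine card_le_card_of_injOn (fun l => (decide (∃ a ∈ A, a < l ∧ c a = c l), c l))
      (fun _ _ => mem_coe.2 (mem_univ _)) fun a ha b hb h => ?_
    have ha := mem_prune.1 (mem_coe.1 ha)
    have hb := mem_prune.1 (mem_coe.1 hb)
    simp only [Prod.mk.injEq, decide_eq_decide] at h
    rcases lt_trichotomy a b with h1 | h1 | h1
    · have h2 : ∃ x ∈ A, x < b ∧ c x = c b := ⟨a, ha.1, h1, h.2⟩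
      exact absurd ⟨h.1.2 h2, b, hb.1, h1, h.2.symm⟩ ha.2
    · exact h1
    · have h2 : ∃ x ∈ A, x < a ∧ c x = c a := ⟨b, hb.1, h1, h.2.symm⟩
      exact absurd ⟨h.1.1 h2, a, ha.1, h1, h.2⟩ hb.2
  simpa using this

theorem exists_kept {C : Type*} {c : ℕ → C} {A : Finset ℕ} {l : ℕ} (hl : l ∈ A)
    (h : l ∉ prune c A) : ∃ a ∈ prune c A, ∃ b ∈ prune c A, a < l ∧ l < b ∧ c a = c b := by
  classical
  have h1 : (∃ a ∈ A, a < l ∧ c a = c l) ∧ ∃ b ∈ A, l < b ∧ c b = c l := by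
    by_contra h2; exact h (mem_prune.2 ⟨hl, h2⟩)
  have hne : (A.filter fun x => c x = c l).Nonempty := ⟨l, mem_filter.2 ⟨hl, rfl⟩⟩
  obtain ⟨a, ha, ha'⟩ := exists_min_image _ id hne
  obtain ⟨b, hb, hb'⟩ := exists_max_image _ id hne
  rw [mem_filter] at ha hb
  obtain ⟨⟨a', a1, a2, a3⟩, b', b1, b2, b3⟩ := h1
  refine ⟨a, mem_prune.2 ⟨ha.1, ?_⟩, b, mem_prune.2 ⟨hb.1, ?_⟩, ?_, ?_, ha.2.trans hb.2.symm⟩
  · rintro ⟨⟨x, x1, x2, x3⟩, _⟩
    exact absurd (ha' x (mem_filter.2 ⟨x1, x3.trans ha.2⟩)) (not_le.2 x2)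
  · rintro ⟨_, x, x1, x2, x3⟩
    exact absurd (hb' x (mem_filter.2 ⟨x1, x3.trans hb.2⟩)) (not_le.2 x2)
  · exact lt_of_le_of_lt (ha' a' (mem_filter.2 ⟨a1, a3⟩)) a2
  · exact lt_of_lt_of_le b2 (hb' b' (mem_filter.2 ⟨b1, b3⟩))

/-- A path of bags with its alive sets. -/
structure PathD (V I : Type*) [PseudoMetricSpace V] [Fintype I] [Nonempty I] (J : ℕ) where
  E : ℕ → I → V
  L : ℕ
  A : ℕ → Finset ℕ
  A_zero : A 0 = ∅
  A_succ : ∀ i < L, A (i + 1) = prune (fun l => cellv J (E (i + 1)) (E l)) (insert i (A i))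
  const : ∀ i i', E 0 i = E 0 i'
  sep : ∀ j i i', j ≤ i → i < i' → i' ≤ L → ∀ x ∈ Set.range (E i'), ∀ y ∈ Set.range (E j),
    ∃ q ∈ Set.range (E (i + 1)), q ∈ Set.range (E i) ∧ dist x q + dist q y ≤ dist x y

namespace PathD

variable {V I : Type*} [PseudoMetricSpace V] [Fintype I] [Nonempty I] {J : ℕ} (p : PathD V I J)

theorem through {l i i' : ℕ} (h1 : l < i) (h2 : i ≤ i') (h3 : i' ≤ p.L) {x : V}
    (hx : x ∈ Set.range (p.E i')) :
    ∃ q ∈ Set.range (p.E i), dist x q + dB (p.E l) q ≤ dB (p.E l) x := by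
  obtain ⟨i, rfl⟩ : ∃ k, i = k + 1 := ⟨i - 1, by omega⟩
  obtain ⟨y, hy⟩ := exists_dB (p.E l) x
  obtain ⟨q, q1, _, q3⟩ := p.sep l i i' (by omega) h2 h3 x hx _ ⟨y, rfl⟩
  exact ⟨q, q1, by linarith [dB_le (p.E l) q y]⟩

theorem mono {l l' i : ℕ} (h1 : l ≤ l') (h2 : l' ≤ i) (h3 : i ≤ p.L) {x : V}
    (hx : x ∈ Set.range (p.E i)) : dB (p.E l') x ≤ dB (p.E l) x := by
  rcases h1.eq_or_lt with rfl | h1
  · rfl
  obtain ⟨q, q1, q2⟩ := p.through h1 h2 h3 hx
  linarith [dB_le' x q1, dB_nonneg (p.E l) q]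

theorem lt_of_mem {i l : ℕ} (hi : i ≤ p.L) (h : l ∈ p.A i) : l < i := by
  induction i with
  | zero => simp [p.A_zero] at h
  | succ i ih =>
    rw [p.A_succ i hi] at h
    rcases mem_insert.1 (prune_subset _ _ h) with rfl | h
    · omega
    · have := ih (by omega) h; omega

theorem mem_pred {i l : ℕ} (hi : i < p.L) (h : l ∈ p.A (i + 1)) (hl : l < i) : l ∈ p.A i := by
  rw [p.A_succ i hi] at h
  rcases mem_insert.1 (prune_subset _ _ h) with rfl | h
  · omega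
  · exact h

theorem mem_of_le {i i' l : ℕ} (h1 : i ≤ i') (hi : i' ≤ p.L) (h : l ∈ p.A i') (hl : l < i) :
    l ∈ p.A i := by
  induction i', h1 using Nat.le_induction with
  | base => exact h
  | succ k hk ih => exact ih (by omega) (p.mem_pred hi h (by omega))

theorem self_mem {i : ℕ} (hi : i < p.L) : i ∈ p.A (i + 1) := by
  rw [p.A_succ i hi, mem_prune]
  refine ⟨mem_insert_self _ _, ?_⟩
  rintro ⟨_, b, hb, h, _⟩
  rcases mem_insert.1 hb with rfl | hb
  · omega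
  · have := p.lt_of_mem hi.le hb; omega

theorem zero_mem {i : ℕ} (h0 : 0 < i) (hi : i ≤ p.L) : 0 ∈ p.A i := by
  induction i, h0 using Nat.le_induction with
  | base => exact p.self_mem hi
  | succ k hk ih =>
    rw [p.A_succ k hi, mem_prune]
    refine ⟨mem_insert_of_mem (ih (by omega)), ?_⟩
    rintro ⟨⟨a, _, h, _⟩, _⟩
    omega

theorem card_le [DecidableEq I] {i : ℕ} (hi : i ≤ p.L) :
    (p.A i).card ≤ 2 * Fintype.card (I → I → Fin (2 * J + 2)) := by
  cases i with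
  | zero => simp [p.A_zero]
  | succ i => rw [p.A_succ i hi]; exact card_prune _ _

/-- The youngest alive label not younger than `l`. -/
def IsO (l j O : ℕ) : Prop := O ∈ p.A j ∧ O ≤ l ∧ ∀ a ∈ p.A j, a ≤ l → a ≤ O

/-- The oldest alive label not older than `l`. -/
def IsY (l j Y : ℕ) : Prop := Y ∈ p.A j ∧ l ≤ Y ∧ ∀ a ∈ p.A j, l ≤ a → Y ≤ a

theorem exists_O {l j : ℕ} (h : l < j) (hj : j ≤ p.L) : ∃ O, p.IsO l j O := by
  obtain ⟨O, h1, h2⟩ := exists_max_image ((p.A j).filter (· ≤ l)) id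
    ⟨0, mem_filter.2 ⟨p.zero_mem (by omega) hj, Nat.zero_le _⟩⟩
  rw [mem_filter] at h1
  exact ⟨O, h1.1, h1.2, fun a a1 a2 => h2 a (mem_filter.2 ⟨a1, a2⟩)⟩

theorem exists_Y {l j : ℕ} (h : l < j) (hj : j ≤ p.L) : ∃ Y, p.IsY l j Y := by
  obtain ⟨j, rfl⟩ : ∃ k, j = k + 1 := ⟨j - 1, by omega⟩
  obtain ⟨Y, h1, h2⟩ := exists_min_image ((p.A (j + 1)).filter (l ≤ ·)) id
    ⟨j, mem_filter.2 ⟨p.self_mem hj, by omega⟩⟩
  rw [mem_filter] at h1
  exact ⟨Y, h1.1, h1.2, fun a a1 a2 => h2 a (mem_filter.2 ⟨a1, a2⟩)⟩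

theorem IsY.stay {p : PathD V I J} {l j Y : ℕ} (h : p.IsY l j Y) (hj : j < p.L)
    (hY : Y ∈ p.A (j + 1)) : p.IsY l (j + 1) Y :=
  ⟨hY, h.2.1, fun a a1 a2 => by
    by_cases ha : a < j
    · exact h.2.2 a (p.mem_pred hj a1 ha) a2
    · have := p.lt_of_mem hj.le h.1; omega⟩

theorem IsO.stay {p : PathD V I J} {l j j' O : ℕ} (h : p.IsO l j O) (hl : l < j) (h1 : j ≤ j')
    (hj : j' ≤ p.L) (hO : O ∈ p.A j') : p.IsO l j' O :=
  ⟨hO, h.2.1, fun a a1 a2 => h.2.2 a (p.mem_of_le h1 hj a1 (by omega)) a2⟩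

/-- Two labels see the bag `j` at comparable distances, up to a clean gap of scales. -/
def Gap (j O Y : ℕ) : Prop :=
  ∀ q ∈ Set.range (p.E j), dB (p.E O) q ≤ 2 * dB (p.E Y) q ∨ ∀ q' ∈ Set.range (p.E j),
    dist q q' ≤ dB (p.E Y) q / 2 ^ J ∨ 2 ^ J * dB (p.E O) q ≤ dist q q'

theorem change {l j O Y O' Y' : ℕ} (hl : l < j) (hj : j < p.L) (hO : p.IsO l j O)
    (hY : p.IsY l j Y) (hO' : p.IsO l (j + 1) O') (hY' : p.IsY l (j + 1) Y')
    (h : O ∉ p.A (j + 1) ∨ Y ∉ p.A (j + 1)) : p.Gap (j + 1) O' Y' := by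
  obtain ⟨a, ha, b, hb, h1, h2, h3⟩ : ∃ a ∈ p.A (j + 1), ∃ b ∈ p.A (j + 1), a ≤ l ∧ l ≤ b ∧
      cellv J (p.E (j + 1)) (p.E a) = cellv J (p.E (j + 1)) (p.E b) := by
    rw [p.A_succ j hj] at h ⊢
    rcases h with h | h
    · obtain ⟨a, ha, b, hb, h1, h2, h3⟩ := exists_kept (mem_insert_of_mem hO.1) h
      refine ⟨a, ha, b, hb, by have := hO.2.1; omega, ?_, h3⟩
      by_contra h4
      rcases mem_insert.1 (prune_subset _ _ hb) with rfl | h5
      · omega
      · have := hO.2.2 b h5 (by omega); omega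
    · obtain ⟨a, ha, b, hb, h1, h2, h3⟩ := exists_kept (mem_insert_of_mem hY.1) h
      refine ⟨a, ha, b, hb, ?_, by have := hY.2.1; omega, h3⟩
      by_contra h4
      have := p.lt_of_mem hj.le hY.1
      rcases mem_insert.1 (prune_subset _ _ ha) with rfl | h5
      · omega
      · have := hY.2.2 a h5 (by omega); omega
  have e1 := hO'.2.2 a ha h1
  have e2 := hY'.2.2 b hb h2
  have e3 := p.lt_of_mem hj hb
  have e4 := hO'.2.1
  have e5 := hY'.2.1
  rintro _ ⟨i, rfl⟩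
  by_cases h4 : dB (p.E O') (p.E (j + 1) i) ≤ 2 * dB (p.E Y') (p.E (j + 1) i)
  · exact Or.inl h4
  right
  rintro _ ⟨i', rfl⟩
  refine cellN_gap (not_le.1 h4) (dB_nonneg _ _) (le_antisymm
    (cellN_mono _ _ (p.mono (by omega) (by omega) hj ⟨i, rfl⟩)) ?_)
  refine (cellN_mono _ _ (p.mono e1 (by omega) hj ⟨i, rfl⟩)).trans ?_
  refine (congrFun (congrFun h3 i) i').trans_le ?_
  exact cellN_mono _ _ (p.mono e2 (by omega) hj ⟨i, rfl⟩)

theorem inv_Y {l j : ℕ} (h : l < j) (hj : j ≤ p.L) :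
    ∃ Y, p.IsY l j Y ∧ ∃ j' O, Y < j' ∧ j' ≤ j ∧ O ≤ l ∧ p.Gap j' O Y := by
  induction j, h using Nat.le_induction with
  | base =>
    exact ⟨l, ⟨p.self_mem hj, le_rfl, fun _ _ h => h⟩, l + 1, l, by omega, le_rfl, le_rfl,
      fun q _ => Or.inl (by linarith [dB_nonneg (p.E l) q])⟩
  | succ j hl ih =>
    obtain ⟨Y, hY, j', O, h1, h2, h3, h4⟩ := ih (by omega)
    by_cases hs : Y ∈ p.A (j + 1)
    · exact ⟨Y, hY.stay hj hs, j', O, h1, by omega, h3, h4⟩
    · obtain ⟨O₀, hO₀⟩ := p.exists_O hl (by omega)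
      obtain ⟨O', hO'⟩ := p.exists_O (by omega : l < j + 1) hj
      obtain ⟨Y', hY'⟩ := p.exists_Y (by omega : l < j + 1) hj
      exact ⟨Y', hY', j + 1, O', p.lt_of_mem hj hY'.1, le_rfl, hO'.2.1,
        p.change hl hj hO₀ hY hO' hY' (Or.inr hs)⟩

theorem inbag_aux (hJ : 8 ≤ J) {i l : ℕ} (hi : i ≤ p.L) (hl : l < i) {a z : V}
    (ha : a ∈ Set.range (p.E i)) (hz : z ∈ Set.range (p.E i)) (hd : 0 < dist a z)
    (h1 : dist a z / 5 ≤ dB (p.E l) a) (h2 : dB (p.E (l + 1)) a < dist a z / 5)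
    (h3 : dB (p.E (l + 1)) z < dist a z / 5) : ∃ Y ∈ p.A i, ∃ A,
      dist a z / 10 ≤ |lf (p.E Y) (p.E (Y + 1)) A a - lf (p.E Y) (p.E (Y + 1)) A z| := by
  obtain ⟨Y, hY, j, O, y1, y2, y3, y4⟩ := p.inv_Y hl hi
  have y5 := hY.2.1
  have hZ : (256 : ℝ) ≤ 2 ^ J := by
    have := pow_le_pow_right₀ (by norm_num : (1 : ℝ) ≤ 2) hJ
    norm_num at this ⊢; exact this
  have k : dist a z / 10 ≤ dB (p.E Y) a := by
    by_contra hc
    push Not at hc
    obtain ⟨q, q1, q2⟩ := p.through y1 y2 hi ha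
    have q3 := dB_tri (p.E O) a q
    have q4 := p.mono y3 hl.le hi ha
    have q5 := dist_nonneg (x := a) (y := q)
    have q6 := dB_nonneg (p.E Y) q
    rcases y4 q q1 with h | h
    · linarith
    obtain ⟨i', hi'⟩ := exists_dB (p.E j) z
    have q7 := p.mono (by omega : l + 1 ≤ j) y2 hi hz
    have q8 := dist_triangle4 a q (p.E j i') z
    have q9 := dist_triangle4 q a z (p.E j i')
    rw [dist_comm (p.E j i')] at q8
    rw [dist_comm q a] at q9
    rcases h _ ⟨i', rfl⟩ with h | h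
    · have : dB (p.E Y) q / 2 ^ J ≤ dB (p.E Y) q := div_le_self q6 (by linarith)
      linarith
    · nlinarith
  obtain ⟨ia, hia⟩ := exists_dB (p.E (Y + 1)) a
  obtain ⟨iz, hiz⟩ := exists_dB (p.E (Y + 1)) z
  have m1 := p.mono (by omega : l + 1 ≤ Y + 1) (by omega) hi ha
  have m2 := p.mono (by omega : l + 1 ≤ Y + 1) (by omega) hi hz
  have t1 := dist_triangle4 a (p.E (Y + 1) ia) (p.E (Y + 1) iz) z
  have t2 := dist_triangle4 (p.E (Y + 1) ia) a z (p.E (Y + 1) iz)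
  have t3 := dist_triangle a (p.E (Y + 1) ia) z
  rw [dist_comm (p.E (Y + 1) iz)] at t1
  rw [dist_comm _ a] at t2
  rw [dist_comm (p.E (Y + 1) ia) z] at t3
  refine ⟨Y, hY.1, some (ia, iz), ?_⟩
  have z0 : lf (p.E Y) (p.E (Y + 1)) (some (ia, iz)) z = 0 := by
    simp only [lf]
    rw [max_eq_right (by linarith)]
    exact min_eq_right (dB_nonneg _ _)
  rw [z0, sub_zero]
  exact le_trans (le_min k (le_max_of_le_left (by linarith))) (le_abs_self _)

theorem inbag (hJ : 8 ≤ J) {i : ℕ} (hi : i ≤ p.L) {a z : V} (ha : a ∈ Set.range (p.E i))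
    (hz : z ∈ Set.range (p.E i)) (hd : 0 < dist a z) : ∃ Y ∈ p.A i, ∃ A,
      dist a z / 10 ≤ |lf (p.E Y) (p.E (Y + 1)) A a - lf (p.E Y) (p.E (Y + 1)) A z| := by
  classical
  have hi0 : 0 < i := by
    rcases Nat.eq_zero_or_pos i with rfl | h
    · obtain ⟨x, rfl⟩ := ha
      obtain ⟨y, rfl⟩ := hz
      rw [p.const x y, dist_self] at hd
      exact absurd hd (lt_irrefl _)
    · exact h
  obtain ⟨l, hl, hmax⟩ := exists_max_image ((range i).filter fun l =>
      dist a z / 5 ≤ dB (p.E l) a ∨ dist a z / 5 ≤ dB (p.E l) z) id ⟨0, mem_filter.2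
    ⟨mem_range.2 hi0, by
      obtain ⟨x, hx⟩ := exists_dB (p.E 0) a
      obtain ⟨y, hy⟩ := exists_dB (p.E 0) z
      rw [p.const y x] at hy
      have := dist_triangle_right a z (p.E 0 x)
      by_contra h
      push Not at h
      linarith [h.1, h.2]⟩⟩
  rw [mem_filter, mem_range] at hl
  have h2 : dB (p.E (l + 1)) a < dist a z / 5 ∧ dB (p.E (l + 1)) z < dist a z / 5 := by
    by_cases h : l + 1 < i
    · by_contra h3
      have := hmax (l + 1) (mem_filter.2 ⟨mem_range.2 h, by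
        by_contra h4; push Not at h4; exact h3 h4⟩)
      simp at this
    · have : l + 1 = i := by omega
      rw [this, dB_zero ha, dB_zero hz]
      constructor <;> linarith
  rcases hl.2 with h | h
  · exact p.inbag_aux hJ hi hl.1 ha hz hd h h2.1 h2.2
  · rw [dist_comm] at h h2 hd ⊢
    obtain ⟨Y, hY, A, hA⟩ := p.inbag_aux hJ hi hl.1 hz ha hd h h2.2 h2.1
    exact ⟨Y, hY, A, by rwa [abs_sub_comm]⟩

end PathD

end Vale.Agent.P235
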