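import Vale.Agent.P235.Escape

/-! Averaging over the schedules: a cut measure with bounded distortion. -/

namespace Vale.Agent.P235

open Finset

set_option linter.unusedSectionVars false

theorem exists_J (A : ℝ) (m : ℕ) : ∃ J : ℕ, 8 ≤ J ∧ A * (2 * J + 2) ^ m ≤ 2 ^ J := by
  have h := (tendsto_pow_const_div_const_pow_of_one_lt m (by norm_num : (1 : ℝ) < 2)).const_mul
    (|A| * 4 ^ m)
  rw [mul_zero] at h
  obtain ⟨J, h1, h2⟩ := ((h.eventually (gt_mem_nhds one_pos)).and (Filter.eventually_ge_atTop 8)).exists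
  refine ⟨J, h2, ?_⟩
  have h3 : (8 : ℝ) ≤ J := by exact_mod_cast h2
  rw [← mul_div_assoc, div_lt_one (by positivity), mul_assoc, ← mul_pow] at h1
  refine le_trans ?_ h1.le
  exact mul_le_mul (le_abs_self A) (pow_le_pow_left₀ (by positivity) (by linarith) m)
    (by positivity) (abs_nonneg A)

theorem exists_par (I : Type*) [Fintype I] [DecidableEq I] :
    ∃ (J R : ℕ) (p₀ c : ℝ), R ≠ 0 ∧ Par I J R p₀ c := by
  set R := 2000 * Fintype.card I + 1 with hR
  have h1 : (0 : ℝ) < Fintype.card (Option I) := Nat.cast_pos.2 Fintype.card_pos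
  have h2 : (0 : ℝ) < Fintype.card (Key (Option I) (Fin R × Bool) I) :=
    Nat.cast_pos.2 Fintype.card_pos
  set p₀ : ℝ := 1 / (16 * Fintype.card (Option I) * Fintype.card (Key (Option I) (Fin R × Bool) I))
    with hp
  have h3 : 0 < p₀ := by positivity
  set c : ℝ := max 1 (Fintype.card (Option I) * (R : ℝ) * Fintype.card (Option I → Fin R × Bool) / p₀)
  obtain ⟨J, h4, h5⟩ := exists_J (1024 * 2 * Fintype.card I * (2 * c))
    (Fintype.card I * Fintype.card I)
  refine ⟨J, R, p₀, c, by omega, h4, h3, by linarith [le_max_left 1 (Fintype.card (Option I)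
    * (R : ℝ) * Fintype.card (Option I → Fin R × Bool) / p₀)], ?_, ?_, by omega, ?_⟩
  · rw [← div_le_iff₀ h3]; exact le_max_right _ _
  · rw [hp]; apply le_of_eq; field_simp
  · refine le_trans (le_of_eq ?_) h5
    simp only [Fintype.card_fun, Fintype.card_fin]
    push_cast
    rw [pow_mul]; ring

namespace RTD

variable {V ι I : Type*} [PseudoMetricSpace V] [Fintype I] [DecidableEq I] [Nonempty I]
  [Fintype V] [DecidableEq V] [Fintype ι] [DecidableEq ι] (T : RTD V ι I) {J R : ℕ} [NeZero R]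
  {p₀ c : ℝ}

theorem pair (h : Par I J R p₀ c) {M : ℕ} (hM : M = 2 * Fintype.card (I → I → Fin (2 * J + 2)))
    {K : ℝ} (hK : K = 4 * 75 ^ Fintype.card (I → Bool) + 18 * Fintype.card (I → Bool)) (s t : V) :
    ∃ (Tn : Finset ι) (ω₀ : ι → Req I), Tn.card ≤ M * M + M + 1 ∧
      ∀ ω W w, (∀ τ ∈ Tn, ω τ = ω₀ τ) → T.Glued J R p₀ c ω W w →
        dist s t ≤ 400 * (2 * c) * (128 * M) * K * sepw w s t := by
  have hC := h.hc1
  have hM0 : 0 < M := by rw [hM]; exact Nat.mul_pos (by norm_num) Fintype.card_pos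
  have hM1 : (1 : ℝ) ≤ M := by exact_mod_cast hM0
  have hK1 : 1 ≤ K := by
    have : (1 : ℝ) ≤ 75 ^ Fintype.card (I → Bool) := one_le_pow₀ (by norm_num)
    have : (0 : ℝ) ≤ Fintype.card (I → Bool) := Nat.cast_nonneg _
    linarith
  have s0 : ∀ w : (V → Bool) → ℝ, (∀ η, 0 ≤ w η) → ∀ x y, 0 ≤ sepw w x y := fun w hw x y =>
    ex_nonneg hw fun _ => abs_nonneg _
  rcases (dist_nonneg (x := s) (y := t)).eq_or_lt with h0 | h0
  · refine ⟨∅, fun _ _ => none, by simp, fun ω W w _ g => ?_⟩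
    have := s0 w g.nonneg s t
    rw [← h0]; positivity
  have esc : ∀ (s t : V) (σ σ' : ι) (j : ℕ), s ∈ Set.range (T.e σ') → t ∈ Set.range (T.e σ) →
      (j < T.dep σ → ¬ T.Desc (T.anc σ (j + 1)) σ') → 0 < dist s t →
      dist s t ≤ 400 * (2 * c) * dB (T.e (T.anc σ j)) t → ∃ (Tn : Finset ι) (ω₀ : ι → Req I),
      Tn.card ≤ M * M + M + 1 ∧ ∀ ω W w, (∀ τ ∈ Tn, ω τ = ω₀ τ) → T.Glued J R p₀ c ω W w →
        dist s t ≤ 400 * (2 * c) * (128 * M) * K * sepw w s t := by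
    intro s t σ σ' j hs ht hj h0 h1
    have h2 : 0 < dB (T.e (T.anc σ j)) t := by
      by_contra h3
      nlinarith [not_lt.1 h3]
    have h3 : j < T.dep σ := by
      by_contra h4
      rw [T.anc_ge (not_lt.1 h4), dB_zero ht] at h2
      exact lt_irrefl _ h2
    obtain ⟨Tn, ω₀, k1, k2⟩ := T.escape h hM ht h3 rfl h2 (T.notU (T.anc_ne h3) (hj h3) hs)
    refine ⟨Tn, ω₀, k1, fun ω W w a g => h1.trans ?_⟩
    have k3 := k2 ω W w a g
    rw [← hK, div_le_iff₀ (by positivity)] at k3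
    have := mul_le_mul_of_nonneg_left k3 (show 0 ≤ 400 * (2 * c) by positivity)
    linarith
  obtain ⟨σ, hσ⟩ := T.cover t
  obtain ⟨σ', hσ'⟩ := T.cover s
  obtain ⟨j, _, _, j3, j4, j5⟩ := T.exists_lca σ σ'
  by_cases h1 : dist s t ≤ 400 * (2 * c) * dB (T.e (T.anc σ j)) t
  · exact esc s t σ σ' j hσ' hσ j4 h0 h1
  by_cases h2 : dist s t ≤ 400 * (2 * c) * dB (T.e (T.anc σ' j)) s
  · rw [dist_comm] at h0 h2 ⊢
    simp only [sepw_comm _ s t]
    exact esc t s σ' σ j hσ hσ' j5 h0 h2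
  rw [← j3] at h2
  obtain ⟨x, hx⟩ := exists_dB (T.e (T.anc σ j)) s
  obtain ⟨y, hy⟩ := exists_dB (T.e (T.anc σ j)) t
  rw [← hx, not_le] at h2
  rw [← hy, not_le] at h1
  set a := T.e (T.anc σ j) x
  set z := T.e (T.anc σ j) y
  have t1 := dist_triangle4 s a z t
  rw [dist_comm z t] at t1
  have t2 : dist s a ≤ 2 * c * dist s a := le_mul_of_one_le_left dist_nonneg hC
  have t3 : dist t z ≤ 2 * c * dist t z := le_mul_of_one_le_left dist_nonneg hC
  obtain ⟨Tn, ω₀, k1, k2⟩ := T.inbag h (T.anc σ j) (a := a) (z := z) ⟨x, rfl⟩ ⟨y, rfl⟩ (by linarith)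
  refine ⟨Tn, ω₀, by rw [← hM] at k1; omega, fun ω W w b g => ?_⟩
  have k3 := k2 ω W w b g
  have k4 := sepw_tri g.nonneg a s z
  have k5 := sepw_tri g.nonneg s t z
  have k6 := g.sep_le h s a
  have k7 := g.sep_le h t z
  rw [sepw_comm] at k6
  have k8 := s0 w g.nonneg s t
  have k9 : 1 ≤ 2 * c * M * K :=
    one_le_mul_of_one_le_of_one_le (one_le_mul_of_one_le_of_one_le hC hM1) hK1
  nlinarith

end RTD

theorem cut_measure (I : Type*) [Fintype I] [DecidableEq I] [Nonempty I] :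
    ∃ C : ℝ, ∀ (V ι : Type) [PseudoMetricSpace V] [Fintype V] [DecidableEq V] [Finite ι],
      RTD V ι I → ∃ w : (V → Bool) → ℝ, (∀ η, 0 ≤ w η) ∧
        ∀ x y, dist x y ≤ sepw w x y ∧ sepw w x y ≤ C * dist x y := by
  classical
  obtain ⟨J, R, p₀, c, hR, h⟩ := exists_par I
  have : NeZero R := ⟨hR⟩
  set M := 2 * Fintype.card (I → I → Fin (2 * J + 2)) with hM
  set K : ℝ := 4 * 75 ^ Fintype.card (I → Bool) + 18 * Fintype.card (I → Bool) with hK
  set Λ : ℝ := 400 * (2 * c) * (128 * M) * K with hΛ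
  set P : ℝ := Fintype.card (Req I) ^ (M * M + M + 1) with hP
  have hC := h.hc1
  have Λ0 : 0 ≤ Λ := by positivity
  refine ⟨Λ * P * (2 * c), fun V ι _ _ _ _ T => ?_⟩
  have := Fintype.ofFinite ι
  choose W w g using fun ω => T.exists_glued ω h
  have n0 : (0 : ℝ) < Fintype.card (ι → Req I) := Nat.cast_pos.2 Fintype.card_pos
  have e : ∀ x y, sepw (fun η => Λ * P / Fintype.card (ι → Req I) * ∑ ω, w ω η) x y
      = Λ * P / Fintype.card (ι → Req I) * ∑ ω, sepw (w ω) x y := fun x y => by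
    simp only [sepw, ex, mul_sum, sum_mul]
    rw [sum_comm]
    exact sum_congr rfl fun _ _ => sum_congr rfl fun _ _ => by ring
  refine ⟨fun η => Λ * P / Fintype.card (ι → Req I) * ∑ ω, w ω η, fun η =>
    mul_nonneg (by positivity) (sum_nonneg fun ω _ => (g ω).nonneg η), fun x y => ?_⟩
  rw [e, div_mul_eq_mul_div, le_div_iff₀ n0, div_le_iff₀ n0]
  constructor
  · obtain ⟨Tn, ω₀, k1, k2⟩ := T.pair h hM hK x y
    have k3 : (Fintype.card (ι → Req I) : ℝ)
        ≤ P * (univ.filter fun ω : ι → Req I => ∀ τ ∈ Tn, ω τ = ω₀ τ).card := by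
      rw [hP]; exact_mod_cast card_agree Tn ω₀ k1
    have k4 : ((univ.filter fun ω : ι → Req I => ∀ τ ∈ Tn, ω τ = ω₀ τ).card : ℝ) * dist x y
        ≤ Λ * ∑ ω, sepw (w ω) x y := by
      rw [mul_sum, ← nsmul_eq_mul, ← sum_const]
      exact (sum_le_sum fun ω hω => k2 ω _ _ (mem_filter.1 hω).2 (g ω)).trans
        (sum_le_sum_of_subset_of_nonneg (subset_univ _) fun ω _ _ =>
          mul_nonneg Λ0 (ex_nonneg (g ω).nonneg fun _ => abs_nonneg _))
    have k5 := mul_le_mul_of_nonneg_left k3 (dist_nonneg (x := x) (y := y))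
    have k6 := mul_le_mul_of_nonneg_left k4 (show 0 ≤ P by positivity)
    linarith
  · have k1 : ∑ ω, sepw (w ω) x y ≤ ∑ _ω : ι → Req I, 2 * c * dist x y :=
      sum_le_sum fun ω _ => (g ω).sep_le h x y
    rw [sum_const, card_univ, nsmul_eq_mul] at k1
    have k2 := mul_le_mul_of_nonneg_left k1 (show 0 ≤ Λ * P by positivity)
    linarith

open MeasureTheory in
theorem cut_embed {V : Type} [Fintype V] [DecidableEq V] {w : (V → Bool) → ℝ} (hw : ∀ η, 0 ≤ w η) :
    ∃ f : V → Lp ℝ 1 (Measure.count : Measure (V → Bool)), ∀ x y, ‖f x - f y‖ = sepw w x y := by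
  have hm : ∀ x, MemLp (fun η => w η * xv x η) 1 (Measure.count : Measure (V → Bool)) :=
    fun x => MemLp.of_discrete
  refine ⟨fun x => (hm x).toLp _, fun x y => ?_⟩
  rw [← MemLp.toLp_sub, L1.norm_eq_integral_norm, integral_congr_ae
    (g := fun η => w η * |xv x η - xv y η|), integral_count]
  · rfl
  · filter_upwards [((hm x).sub (hm y)).coeFn_toLp] with η h
    rw [h, Pi.sub_apply, ← mul_sub, Real.norm_eq_abs, abs_mul, abs_of_nonneg (hw η)]

end Vale.Agent.P235
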