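import Vale.Agent.P235.Band0

/-! The flow carried by the sign of a label inside a band of thresholds. -/

namespace Vale.Agent.P235

open Finset

set_option linter.unusedSectionVars false

/-- Values of the labels. -/
noncomputable def valR (R : ℕ) (y : Fin R × Bool) : ℝ :=
  2 * (y.1 : ℝ) + (if y.2 = true then 1 else 0) - (2 * R - 1) / 2

theorem valR_sum (R : ℕ) : ∑ y, valR R y = 0 := by
  rw [Fintype.sum_prod_type]
  have e : ∀ r : Fin R, ∑ b, valR R (r, b) = 4 * ((r : ℕ) : ℝ) + 2 - 2 * R := fun r => by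
    simp [valR]; ring
  simp only [e]
  rw [Fin.sum_univ_eq_sum_range (fun r : ℕ => 4 * (r : ℝ) + 2 - 2 * R) R]
  have : ∀ n : ℕ, ∑ r ∈ range n, (4 * (r : ℝ) + 2 - 2 * R) = 2 * n * (n - R) := fun n => by
    induction n with
    | zero => simp
    | succ n ih => rw [sum_range_succ, ih]; push_cast; ring
  rw [this]; simp

theorem valR_abs (R : ℕ) (y : Fin R × Bool) : |valR R y| ≤ R := by
  have h1 : ((y.1 : ℕ) : ℝ) + 1 ≤ R := by exact_mod_cast y.1.2
  have h0 : (0 : ℝ) ≤ (y.1 : ℕ) := Nat.cast_nonneg _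
  unfold valR
  rw [abs_le]
  split_ifs <;> constructor <;> linarith

variable {V S I : Type*} [Fintype S] [DecidableEq S] [Fintype I] [DecidableEq I] {R : ℕ}

/-- Fix the sign of the label in slot `j`. -/
def sg (j : S) (b : Bool) (σ : Key S (Fin R × Bool) I × (S → Fin R × Bool)) :
    Key S (Fin R × Bool) I × (S → Fin R × Bool) :=
  (σ.1, Function.update σ.2 j ((σ.2 j).1, b))

namespace St

variable {st : St V S (Fin R × Bool) I}

theorem sum_sg (j : S) (ψ : Key S (Fin R × Bool) I × (S → Fin R × Bool) → ℝ) :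
    ∑ σ, st.pw σ * (ψ (sg j true σ) + ψ (sg j false σ)) = 2 * ∑ σ, st.pw σ * ψ σ := by
  let fl : Key S (Fin R × Bool) I × (S → Fin R × Bool) →
      Key S (Fin R × Bool) I × (S → Fin R × Bool) :=
    fun σ => (σ.1, Function.update σ.2 j ((σ.2 j).1, !(σ.2 j).2))
  have h : Function.Involutive fl := fun σ => Prod.ext rfl (by simp [fl])
  have h1 := h.bijective.sum_comp fun σ => st.pw σ * ψ σ
  rw [two_mul]
  nth_rewrite 2 [← h1]
  rw [← sum_add_distrib]
  refine sum_congr rfl fun σ _ => ?_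
  have e0 : st.pw (fl σ) = st.pw σ := rfl
  rw [e0, ← mul_add]
  congr 1
  have e : ∀ b, (σ.2 j).2 = b → sg j b σ = σ := fun b hb => by
    subst hb; exact Prod.ext rfl (by simp [sg])
  cases hb : (σ.2 j).2
  · rw [e false hb, add_comm]; congr 2; simp [fl, sg, hb]
  · rw [e true hb]; congr 2; simp [fl, sg, hb]

theorem G_update (x : Key S (Fin R × Bool) I) (u : S → Fin R × Bool) (j : S) (y : Fin R × Bool)
    (v : V) : st.G (valR R) (x, Function.update u j y) v
      = st.G (valR R) (x, u) v + st.a x j * (valR R y - valR R (u j)) * st.g j v := by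
  unfold G
  rw [← add_sum_erase _ _ (mem_univ j), ← add_sum_erase _ _ (mem_univ j)]
  have : ∑ i ∈ univ.erase j, st.a x i * valR R (Function.update u j y i) * st.g i v
      = ∑ i ∈ univ.erase j, st.a x i * valR R (u i) * st.g i v :=
    sum_congr rfl fun i hi => by rw [Function.update_of_ne (ne_of_mem_erase hi)]
  simp only [this, Function.update_self]
  ring

theorem G_sg (j : S) (σ : Key S (Fin R × Bool) I × (S → Fin R × Bool)) (v : V) :
    st.G (valR R) (sg j true σ) v - st.G (valR R) (sg j false σ) v = st.a σ.1 j * st.g j v := by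
  simp only [sg, G_update, valR]
  simp only [if_true, Bool.false_eq_true, if_false]
  ring

variable [PseudoMetricSpace V] [NeZero R] {p₀ c : ℝ}

theorem Inv.sep_ge (h : st.Inv (valR R) p₀ c) (j : S) (y z : V) :
    (∑ x, st.P x * st.a x j) * |st.g j y - st.g j z|
      ≤ 2 * ∑ σ, st.pw σ * |st.G (valR R) σ y - st.G (valR R) σ z| := by
  rw [← sum_sg j, ← sum_pw (st := st) fun x => st.a x j, sum_mul]
  refine sum_le_sum fun σ _ => ?_
  rw [mul_assoc]
  refine mul_le_mul_of_nonneg_left ?_ (pw_nonneg h.P_nonneg σ)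
  have h1 := G_sg (st := st) j σ y
  have h2 := G_sg (st := st) j σ z
  rw [← abs_of_nonneg (h.a_mem σ.1 j).1, ← abs_mul, mul_sub, ← h1, ← h2]
  refine le_trans (le_of_eq ?_) (abs_sub _ _)
  congr 1; ring

theorem anti (j₀ j : S) (x : Key S (Fin R × Bool) I) (ha : 1 / 2 ≤ st.a x j) {y z : V}
    {κ₀ T : ℝ} (h0 : 0 < κ₀) (hκ : κ₀ ≤ |st.g j y - st.g j z|) (hT : 0 ≤ T) :
    (∑ u, if |st.G (valR R) (sg j₀ true (x, u)) y - st.G (valR R) (sg j₀ true (x, u)) z| ≤ T
      then (1 : ℝ) else 0) ≤ Fintype.card (S → Fin R × Bool) * ((2 * T / κ₀ + 1) / R) := by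
  have hR : (0 : ℝ) < R := Nat.cast_pos.2 (NeZero.pos R)
  have h1 := sum_update j fun u : S → Fin R × Bool =>
    if |st.G (valR R) (sg j₀ true (x, u)) y - st.G (valR R) (sg j₀ true (x, u)) z| ≤ T
      then (1 : ℝ) else 0
  have h2 : ∀ (u : S → Fin R × Bool) (s : Bool), (∑ r : Fin R,
      if |st.G (valR R) (sg j₀ true (x, Function.update u j (r, s))) y
        - st.G (valR R) (sg j₀ true (x, Function.update u j (r, s))) z| ≤ T then (1 : ℝ) else 0)
      ≤ 2 * T / κ₀ + 1 := fun u s => by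
    obtain ⟨u', s', hu⟩ : ∃ (u' : S → Fin R × Bool) (s' : Bool), ∀ r : Fin R,
        sg j₀ true (x, Function.update u j (r, s)) = (x, Function.update u' j (r, s')) := by
      by_cases hj : j₀ = j
      · subst hj
        exact ⟨u, true, fun r => by simp [sg]⟩
      · exact ⟨Function.update u j₀ ((u j₀).1, true), s, fun r => by
          simp only [sg, Function.update_of_ne hj]
          rw [Function.update_comm hj]⟩
    simp only [hu, G_update]
    refine le_trans (le_of_eq (sum_congr rfl fun r _ => ?_)) (count_le (R := R)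
      (α := st.G (valR R) (x, u') y - st.G (valR R) (x, u') z + st.a x j * ((if s' = true then 1
        else 0) - (2 * R - 1) / 2 - valR R (u' j)) * (st.g j y - st.g j z))
      (κ := 2 * st.a x j * (st.g j y - st.g j z)) h0 ?_ hT)
    · congr 3
      rw [valR]; ring
    · rw [abs_mul, abs_of_nonneg (by linarith : 0 ≤ 2 * st.a x j)]
      nlinarith
  have h3 : ∑ u : S → Fin R × Bool, ∑ y' : Fin R × Bool,
      (if |st.G (valR R) (sg j₀ true (x, Function.update u j y')) y
        - st.G (valR R) (sg j₀ true (x, Function.update u j y')) z| ≤ T then (1 : ℝ) else 0)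
      ≤ ∑ _u : S → Fin R × Bool, ∑ _s : Bool, (2 * T / κ₀ + 1) :=
    sum_le_sum fun u _ => by
      rw [Fintype.sum_prod_type_right]
      exact sum_le_sum fun s _ => h2 u s
  rw [h1] at h3
  simp only [sum_const, card_univ, nsmul_eq_mul, Fintype.card_prod, Fintype.card_fin,
    Fintype.card_bool] at h3
  push_cast at h3
  rw [← mul_div_assoc, le_div_iff₀ hR]
  linarith

/-- A vertex far from the base point and separated from it by some slot. -/
def Far (st : St V S (Fin R × Bool) I) (H : ℝ) (s v : V) : Prop :=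
  H ≤ dist v s ∧ ∃ j, dist v s / 50 ≤ |st.g j v - st.g j s|

open Classical in
theorem Inv.bad_le (h : st.Inv (valR R) p₀ c) (j₀ : S) {H : ℝ} (hH : 0 < H) (s v : V) :
    ∑ σ, st.pw σ * (if st.Far H s v ∧ (∀ j, 1 / 2 ≤ st.a σ.1 j) ∧
      |st.G (valR R) (sg j₀ true σ) v - st.G (valR R) (sg j₀ true σ) s| ≤ 2 * dist v s
      then (1 : ℝ) else 0) ≤ 201 / R := by
  have hR : (0 : ℝ) < R := Nat.cast_pos.2 (NeZero.pos R)
  have hn := card_pos' (S := S) (U := Fin R × Bool)
  by_cases hf : st.Far H s v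
  swap
  · simp only [hf, false_and, if_false, mul_zero, sum_const_zero]; positivity
  obtain ⟨h1, j, h2⟩ := hf
  have hd : 0 < dist v s := hH.trans_le h1
  have e1 : ∑ x, st.P x * (201 / (R : ℝ)) = 201 / R := by rw [← sum_mul, h.P_sum, one_mul]
  rw [Fintype.sum_prod_type]
  refine le_trans (sum_le_sum fun x _ => ?_) e1.le
  simp only [pw]
  rw [← mul_sum, div_mul_eq_mul_div, mul_div_assoc]
  refine mul_le_mul_of_nonneg_left ?_ (h.P_nonneg x)
  rw [div_le_iff₀ hn]
  by_cases ha : ∀ j, 1 / 2 ≤ st.a x j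
  · have h3 := anti (st := st) j₀ j x (ha j) (by positivity : 0 < dist v s / 50) h2
      (by positivity : 0 ≤ 2 * dist v s)
    have e : 2 * (2 * dist v s) / (dist v s / 50) + 1 = 201 := by field_simp; norm_num
    rw [e, mul_comm (Fintype.card (S → Fin R × Bool) : ℝ)] at h3
    refine le_trans (sum_le_sum fun u _ => ?_) h3
    split_ifs with h4 h5
    · rfl
    · exact absurd h4.2.2 h5
    · norm_num
    · rfl
  · refine le_trans (le_of_eq (sum_eq_zero fun u _ => if_neg fun h4 => ha h4.2.1)) ?_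
    positivity

theorem mu_two [Finite V] (j : S) (W : ℝ) (F : (V → Bool) → ℝ) :
    ∑ σ, st.pw σ * (lev (st.G (valR R) (sg j true σ)) (-W) W F
      + lev (st.G (valR R) (sg j false σ)) (-W) W F) = 2 * st.mu (valR R) W F :=
  sum_sg j fun σ => lev (st.G (valR R) σ) (-W) W F

theorem out_of_far (h : st.Inv (valR R) p₀ c) (j : S) {H : ℝ} {s v : V} (hf : H ≤ dist v s)
    (σ : Key S (Fin R × Bool) I × (S → Fin R × Bool))
    (hv : ¬ |st.G (valR R) (sg j true σ) v - st.G (valR R) (sg j true σ) s| ≤ 2 * dist v s) :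
    Out H (st.G (valR R) (sg j true σ) v - st.G (valR R) (sg j true σ) s)
      (st.G (valR R) (sg j false σ) v - st.G (valR R) (sg j false σ) s) := by
  have h1 := G_sg (st := st) j σ v
  have h2 := G_sg (st := st) j σ s
  have h3 : |st.a σ.1 j * (st.g j v - st.g j s)| ≤ dist v s := by
    rw [abs_mul, abs_of_nonneg (h.a_mem _ _).1]
    exact (mul_le_of_le_one_left (abs_nonneg _) (h.a_mem _ _).2).trans (h.g_lip _ _ _)
  rw [mul_sub, abs_le] at h3
  have h4 := dist_nonneg (x := v) (y := s)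
  rcases lt_abs.1 (not_le.1 hv) with h5 | h5
  · left; constructor <;> linarith [h3.1, h3.2]
  · right; constructor <;> linarith [h3.1, h3.2]

open Classical in
theorem band [Finite V] (h : st.Inv (valR R) p₀ c) (j : S) {C W δ w : ℝ} (hC : 1 ≤ C)
    (hlip : ∀ y z, ∑ σ, st.pw σ * |st.G (valR R) σ y - st.G (valR R) σ z| ≤ C * dist y z)
    (hp : 16 * Fintype.card S * (Fintype.card (Key S (Fin R × Bool) I) * p₀) ≤ 1)
    (hR : 2000 * Fintype.card I ≤ R) (hδ : 0 < δ) (hw : 0 ≤ w)
    (hW : ∀ σ v, |st.G (valR R) σ v| + 256 * C * δ ≤ W) {s e : V} (hse : dist e s ≤ 2 * δ)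
    (hΔ : 0 ≤ st.g j e - st.g j s) {fa fb : (V → Bool) → ℝ} {qa qb : I → V}
    (da : Dep fa (Set.range qa)) (db : Dep fb (Set.range qb)) (a01 : ∀ η, fa η = 0 ∨ fa η = 1)
    (b01 : ∀ η, fb η = 0 ∨ fb η = 1)
    (ha : ∀ i, |st.g j (qa i) - st.g j s| ≤ w ∨ st.Far (256 * C * δ) s (qa i))
    (hb : ∀ i, dist (qb i) e ≤ w ∨ st.Far (256 * C * δ) s (qb i))
    (he : st.mu (valR R) W (fun η => |fb η - xv e η|) ≤ 4 * C * δ) :
    (st.g j e - st.g j s) / 16 - 3 * Fintype.card I * C * w
      ≤ st.mu (valR R) W fun η => |fb η - fa η| := by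
  set H := 256 * C * δ with hH
  set Δ := st.g j e - st.g j s with hΔ'
  have H0 : 0 < H := by positivity
  have hR0 : (0 : ℝ) < R := Nat.cast_pos.2 (NeZero.pos R)
  have hΔ2 : Δ ≤ 2 * δ := (le_abs_self _).trans ((h.g_lip j e s).trans hse)
  have h4 : 4 * Δ ≤ H := by nlinarith
  have pw0 : ∀ σ, 0 ≤ st.pw σ := pw_nonneg h.P_nonneg
  let Gt : Bool → Key S (Fin R × Bool) I × (S → Fin R × Bool) → V → ℝ := fun b σ v =>
    st.G (valR R) (sg j b σ) v - st.G (valR R) (sg j b σ) s
  have hGt : ∀ σ v, Gt true σ v - Gt false σ v = st.a σ.1 j * (st.g j v - st.g j s) := fun σ v => by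
    rw [mul_sub, ← G_sg, ← G_sg]; simp only [Gt]; ring
  have win : ∀ b σ (F : (V → Bool) → ℝ), (∀ η, 0 ≤ F η) →
      lev (Gt b σ) (-H) H F ≤ lev (st.G (valR R) (sg j b σ)) (-W) W F := fun b σ F hF =>
    lev_window _ H0.le (hW _ _) hF
  have win2 : ∀ F : (V → Bool) → ℝ, (∀ η, 0 ≤ F η) → ∑ σ, st.pw σ *
      (lev (Gt true σ) (-H) H F + lev (Gt false σ) (-H) H F) ≤ 2 * st.mu (valR R) W F :=
    fun F hF => (sum_le_sum fun σ _ => mul_le_mul_of_nonneg_left
      (add_le_add (win _ _ _ hF) (win _ _ _ hF)) (pw0 σ)).trans_eq (mu_two j W F)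
  have lip2 : ∀ y z, ∑ σ, st.pw σ * (|Gt true σ y - Gt true σ z| + |Gt false σ y - Gt false σ z|)
      ≤ 2 * (C * dist y z) := fun y z => by
    simp only [Gt, sub_sub_sub_cancel_right]
    rw [sum_sg j fun σ => |st.G (valR R) σ y - st.G (valR R) σ z|]
    linarith [hlip y z]
  let bad : V → Key S (Fin R × Bool) I × (S → Fin R × Bool) → ℝ := fun v σ =>
    if st.Far H s v ∧ (∀ j, 1 / 2 ≤ st.a σ.1 j) ∧ |Gt true σ v| ≤ 2 * dist v s then 1 else 0
  have bad0 : ∀ v σ, 0 ≤ bad v σ := fun v σ => by simp only [bad]; split_ifs <;> norm_num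
  let nr : Bool → Key S (Fin R × Bool) I × (S → Fin R × Bool) → ℝ := fun b σ =>
    ∑ i, if dist (qb i) e ≤ w then |Gt b σ (qb i) - Gt b σ e| else 0
  have nr0 : ∀ b σ, 0 ≤ nr b σ := fun b σ => sum_nonneg fun i _ => by split_ifs <;> simp
  let χ : Key S (Fin R × Bool) I × (S → Fin R × Bool) → ℝ := fun σ =>
    1 - ∑ j, 2 * (1 - st.a σ.1 j) - 2 / H * (|Gt true σ e| + |Gt false σ e|)
      - ∑ i, bad (qa i) σ - ∑ i, bad (qb i) σ
  let Φ : (V → Bool) → ℝ := fun η => |fb η - fa η|
  let E : (V → Bool) → ℝ := fun η => |fb η - xv e η|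
  have hHH : -H ≤ H := by linarith
  have pt : ∀ σ, Δ / 2 * χ σ - Fintype.card I * w
      - 4 * Δ / H * (lev (Gt true σ) (-H) H E + lev (Gt false σ) (-H) H E)
      - 2 * (nr true σ + nr false σ) ≤ lev (Gt true σ) (-H) H Φ + lev (Gt false σ) (-H) H Φ := by
    intro σ
    have n1 := lev_nonneg (Gt true σ) hHH (F := Φ) fun _ => abs_nonneg _
    have n2 := lev_nonneg (Gt false σ) hHH (F := Φ) fun _ => abs_nonneg _
    have n3 := lev_nonneg (Gt true σ) hHH (F := E) fun _ => abs_nonneg _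
    have n4 := lev_nonneg (Gt false σ) hHH (F := E) fun _ => abs_nonneg _
    have n5 : 0 ≤ 4 * Δ / H := by positivity
    have n6 : 0 ≤ Fintype.card I * w := by positivity
    have s1 : ∀ j, 0 ≤ 2 * (1 - st.a σ.1 j) := fun j => by linarith [(h.a_mem σ.1 j).2]
    have t1 : 0 ≤ ∑ j, 2 * (1 - st.a σ.1 j) := sum_nonneg fun j _ => s1 j
    have t2 : 0 ≤ 2 / H * (|Gt true σ e| + |Gt false σ e|) := by positivity
    have t3 : 0 ≤ ∑ i, bad (qa i) σ := sum_nonneg fun i _ => bad0 _ _
    have t4 : 0 ≤ ∑ i, bad (qb i) σ := sum_nonneg fun i _ => bad0 _ _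
    by_cases hχ : χ σ ≤ 0
    · have := mul_nonneg n5 (add_nonneg n3 n4)
      have := mul_nonpos_of_nonneg_of_nonpos (show 0 ≤ Δ / 2 by linarith) hχ
      linarith [nr0 true σ, nr0 false σ]
    have hχ' : 0 < χ σ := not_le.1 hχ
    have hχ1 : χ σ ≤ 1 := by simp only [χ]; linarith
    simp only [χ] at hχ'
    have g1 : ∀ j, 1 / 2 ≤ st.a σ.1 j := fun j => by
      have := single_le_sum (f := fun j => 2 * (1 - st.a σ.1 j)) (fun j _ => s1 j) (mem_univ j)
      linarith
    have g2 : |Gt true σ e| + |Gt false σ e| ≤ H / 2 := by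
      have : 2 / H * (|Gt true σ e| + |Gt false σ e|) ≤ 1 := by linarith
      rw [div_mul_eq_mul_div, div_le_one H0] at this
      linarith
    have g3 : ∀ v, bad v σ < 1 → st.Far H s v → Out H (Gt true σ v) (Gt false σ v) :=
      fun v h1 h2 => out_of_far h j h2.1 σ fun h3 => by
        simp only [bad] at h1
        rw [if_pos ⟨h2, g1, h3⟩] at h1
        exact lt_irrefl _ h1
    have b1 := band_start da a01 (Gp := Gt true σ) (Gm := Gt false σ) H0.le hw fun i => by
      rcases ha i with h1 | h1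
      · left
        rw [hGt, abs_mul, abs_of_nonneg (h.a_mem _ _).1]
        exact (mul_le_of_le_one_left (abs_nonneg _) (h.a_mem _ _).2).trans h1
      · right
        refine g3 _ ?_ h1
        have := single_le_sum (f := fun i => bad (qa i) σ) (fun i _ => bad0 _ _) (mem_univ i)
        linarith
    have b2 := band_end db b01 (Gp := Gt true σ) (Gm := Gt false σ) (Δ := Δ) H0
      (fun v => dist v e ≤ w) e (fun i hi => by
        refine g3 _ ?_ ((hb i).resolve_left hi)
        have := single_le_sum (f := fun i => bad (qb i) σ) (fun i _ => bad0 _ _) (mem_univ i)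
        linarith) (by linarith [abs_nonneg (Gt false σ e)]) (by linarith [abs_nonneg (Gt true σ e)])
      (by rw [hGt]; nlinarith [g1 j]) (by rw [hGt]; nlinarith [(h.a_mem σ.1 j).2]) h4
    have m1 : lev (Gt true σ) (-H) H fb - lev (Gt true σ) (-H) H fa
        ≤ lev (Gt true σ) (-H) H Φ := by
      unfold lev
      rw [← intervalIntegral.integral_sub (lev_int _ _ _ _) (lev_int _ _ _ _)]
      exact intervalIntegral.integral_mono_on hHH ((lev_int _ _ _ _).sub (lev_int _ _ _ _))
        (lev_int _ _ _ _) fun t _ => le_abs_self _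
    have m2 : lev (Gt false σ) (-H) H fa - lev (Gt false σ) (-H) H fb
        ≤ lev (Gt false σ) (-H) H Φ := by
      unfold lev
      rw [← intervalIntegral.integral_sub (lev_int _ _ _ _) (lev_int _ _ _ _)]
      exact intervalIntegral.integral_mono_on hHH ((lev_int _ _ _ _).sub (lev_int _ _ _ _))
        (lev_int _ _ _ _) fun t _ => (le_abs_self _).trans_eq (abs_sub_comm _ _)
    have m3 := mul_nonneg n5 n4
    have m4 : Δ / 2 * χ σ ≤ Δ / 2 := mul_le_of_le_one_right (by linarith) hχ1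
    simp only [nr]
    linarith
  have T0 := (sum_le_sum fun σ _ => mul_le_mul_of_nonneg_left (pt σ) (pw0 σ)).trans
    (win2 Φ fun _ => abs_nonneg _)
  have T1 := win2 E fun _ => abs_nonneg _
  have T2 : ∑ σ, st.pw σ * (nr true σ + nr false σ) ≤ Fintype.card I * (2 * (C * w)) := by
    have : (Fintype.card I : ℝ) * (2 * (C * w)) = ∑ _i : I, 2 * (C * w) := by simp
    simp only [this, nr, ← sum_add_distrib, mul_sum]
    rw [sum_comm]
    refine sum_le_sum fun i _ => ?_
    split_ifs with hi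
    · exact (lip2 _ _).trans (by gcongr)
    · simp only [add_zero, mul_zero, sum_const_zero]; positivity
  have T3 : 1 / 2 ≤ ∑ σ, st.pw σ * χ σ := by
    have u1 : ∑ σ, st.pw σ * ∑ j, 2 * (1 - st.a σ.1 j) ≤ 1 / 8 := by
      simp only [mul_sum]
      rw [sum_comm]
      have : ∀ j, ∑ σ : Key S (Fin R × Bool) I × (S → Fin R × Bool),
          st.pw σ * (2 * (1 - st.a σ.1 j)) ≤ 2 * (Fintype.card (Key S (Fin R × Bool) I) * p₀) :=
        fun j => by
          rw [sum_pw fun x => 2 * (1 - st.a x j)]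
          have e1 : ∑ x, st.P x * (2 * (1 - st.a x j))
              = 2 * (∑ x, st.P x - ∑ x, st.P x * st.a x j) := by
            rw [← sum_sub_distrib, mul_sum]; exact sum_congr rfl fun x _ => by ring
          rw [e1, h.P_sum]
          linarith [h.a_sum j]
      refine (sum_le_sum fun j _ => this j).trans ?_
      rw [sum_const, card_univ, nsmul_eq_mul]
      linarith
    have u2 : ∑ σ, st.pw σ * (2 / H * (|Gt true σ e| + |Gt false σ e|)) ≤ 1 / 32 := by
      have := lip2 e s
      simp only [Gt, sub_self, sub_zero] at this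
      have e1 : ∑ σ, st.pw σ * (2 / H * (|Gt true σ e| + |Gt false σ e|))
          = 2 / H * ∑ σ, st.pw σ * (|Gt true σ e| + |Gt false σ e|) := by
        rw [mul_sum]; exact sum_congr rfl fun σ _ => by ring
      rw [e1, div_mul_eq_mul_div, div_le_iff₀ H0]
      have : C * dist e s ≤ C * (2 * δ) := by gcongr
      simp only [Gt]
      linarith
    have u3 : ∀ q : I → V, ∑ σ, st.pw σ * ∑ i, bad (q i) σ ≤ 201 / 2000 := fun q => by
      simp only [mul_sum]
      rw [sum_comm]
      refine (sum_le_sum fun i _ => h.bad_le j H0 s (q i)).trans ?_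
      rw [sum_const, card_univ, nsmul_eq_mul, ← mul_div_assoc, div_le_iff₀ hR0]
      have : (2000 : ℝ) * Fintype.card I ≤ R := by exact_mod_cast hR
      linarith
    have e1 : ∑ σ, st.pw σ * χ σ = ∑ σ, st.pw σ - ∑ σ, st.pw σ * ∑ j, 2 * (1 - st.a σ.1 j)
        - ∑ σ, st.pw σ * (2 / H * (|Gt true σ e| + |Gt false σ e|))
        - ∑ σ, st.pw σ * ∑ i, bad (qa i) σ - ∑ σ, st.pw σ * ∑ i, bad (qb i) σ := by
      simp only [← sum_sub_distrib]
      exact sum_congr rfl fun σ _ => by simp only [χ]; ring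
    rw [e1, h.sum_pw_one]
    linarith [u3 qa, u3 qb]
  have e0 : ∑ σ, st.pw σ * (Δ / 2 * χ σ - Fintype.card I * w
      - 4 * Δ / H * (lev (Gt true σ) (-H) H E + lev (Gt false σ) (-H) H E)
      - 2 * (nr true σ + nr false σ)) = Δ / 2 * ∑ σ, st.pw σ * χ σ
        - Fintype.card I * w * ∑ σ, st.pw σ - 4 * Δ / H * ∑ σ, st.pw σ *
          (lev (Gt true σ) (-H) H E + lev (Gt false σ) (-H) H E)
        - 2 * ∑ σ, st.pw σ * (nr true σ + nr false σ) := by
    simp only [mul_sum, ← sum_sub_distrib]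
    exact sum_congr rfl fun σ _ => by ring
  rw [e0, h.sum_pw_one] at T0
  have T4 := mul_le_mul_of_nonneg_left (T1.trans (by linarith : _ ≤ 8 * C * δ))
    (show 0 ≤ 4 * Δ / H by positivity)
  have T5 : 4 * Δ / H * (8 * C * δ) = Δ / 8 := by rw [hH]; field_simp; ring
  have T6 := mul_le_mul_of_nonneg_left T3 (show 0 ≤ Δ / 2 by linarith)
  have T7 : Fintype.card I * w * 1 ≤ Fintype.card I * w * C := by gcongr
  have T8 : 0 ≤ Fintype.card I * w * C := by positivity
  linarith

end St

end Vale.Agent.P235
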