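import Vale.Agent.P235.Engine

/-! Deterministic estimates for level sets inside a band of thresholds. -/

namespace Vale.Agent.P235

open Finset MeasureTheory

variable {V I : Type*} [Fintype I]

theorem dep_le_sum {f : (V → Bool) → ℝ} {q : I → V} (hf : Dep f (Set.range q))
    (h01 : ∀ η, f η = 0 ∨ f η = 1) (η η' : V → Bool) :
    |f η - f η'| ≤ ∑ i, |xv (q i) η - xv (q i) η'| := by
  by_cases h : ∀ i, η (q i) = η' (q i)
  · rw [hf η η' (by rintro _ ⟨i, rfl⟩; exact h i), sub_self, abs_zero]
    exact sum_nonneg fun _ _ => abs_nonneg _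
  · push Not at h
    obtain ⟨i, hi⟩ := h
    have h1 : |xv (q i) η - xv (q i) η'| = 1 := by
      unfold xv
      cases h : η (q i) <;> cases h' : η' (q i) <;> simp_all
    have h2 : |f η - f η'| ≤ 1 := by
      rcases h01 η with h | h <;> rcases h01 η' with h' | h' <;> simp [h, h']
    rw [← h1] at h2
    exact h2.trans (single_le_sum (f := fun i => |xv (q i) η - xv (q i) η'|)
      (fun _ _ => abs_nonneg _) (mem_univ i))

/-- Both values lie outside the band on the same side. -/
def Out (H α β : ℝ) : Prop := (H ≤ α ∧ H ≤ β) ∨ (α ≤ -H ∧ β ≤ -H)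

theorem Out.stp_eq {H α β t : ℝ} (h : Out H α β) (ht : t ∈ Set.Ioo (-H) H) :
    stp α t = (if 0 < α then 1 else 0) ∧ stp β t = if 0 < α then 1 else 0 := by
  unfold stp
  have h1 := ht.1
  have h2 := ht.2
  rcases h with h | h
  · rw [if_pos (by linarith [h.1]), if_pos (by linarith [h.1]), if_pos (by linarith [h.2])]
    exact ⟨rfl, rfl⟩
  · rw [if_neg (by linarith [h.1]), if_neg (by linarith [h.1]), if_neg (by linarith [h.2])]
    exact ⟨rfl, rfl⟩

theorem band_start [Finite V] {f : (V → Bool) → ℝ} {q : I → V} (hf : Dep f (Set.range q))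
    (h01 : ∀ η, f η = 0 ∨ f η = 1) {Gp Gm : V → ℝ} {H w : ℝ} (hH : 0 ≤ H) (hw : 0 ≤ w)
    (h : ∀ i, |Gp (q i) - Gm (q i)| ≤ w ∨ Out H (Gp (q i)) (Gm (q i))) :
    lev Gp (-H) H f - lev Gm (-H) H f ≤ Fintype.card I * w := by
  have hHH : -H ≤ H := by linarith
  unfold lev
  rw [← intervalIntegral.integral_sub (lev_int _ _ _ _) (lev_int _ _ _ _)]
  have hi : ∀ i ∈ (univ : Finset I), IntervalIntegrable
      (fun t => |stp (Gp (q i)) t - stp (Gm (q i)) t|) volume (-H) H := fun i _ => stp_abs_int _ _ _ _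
  have h1 := intervalIntegral.integral_mono_on hHH ((lev_int Gp f _ _).sub (lev_int Gm f _ _))
    (IntervalIntegrable.sum univ hi) fun t _ => by
      have := (le_abs_self _).trans (dep_le_sum hf h01 (cut Gp t) (cut Gm t))
      simpa only [xv_cut, Finset.sum_apply] using this
  refine h1.trans ?_
  simp only [Finset.sum_apply]
  rw [intervalIntegral.integral_finsetSum hi]
  have : (Fintype.card I : ℝ) * w = ∑ _i : I, w := by simp
  rw [this]
  refine sum_le_sum fun i _ => ?_
  rcases h i with h | h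
  · exact (stp_abs_le hHH _ _).trans h
  · have := intervalIntegral.integral_mono_on_of_le_Ioo hHH (hi i (mem_univ i))
      (intervalIntegrable_const (c := (0 : ℝ))) fun t ht => by
        rw [(h.stp_eq ht).1, (h.stp_eq ht).2, sub_self, abs_zero]
    simpa using this.trans (by simpa using hw)

theorem band_pattern [Finite V] {f : (V → Bool) → ℝ} {q : I → V} (hf : Dep f (Set.range q))
    (h01 : ∀ η, f η = 0 ∨ f η = 1) {G : V → ℝ} {H : ℝ} (hH : 0 ≤ H) (Nr : V → Prop)
    [DecidablePred Nr] (side : V → Bool) (y : ℝ)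
    (h : ∀ i, ¬ Nr (q i) → ∀ t ∈ Set.Ioo (-H) H, stp (G (q i)) t = xv (q i) side) :
    ∫ t in (-H)..H, |f (cut G t) - (f (fun v => if Nr v then false else side v)
      + (f (fun v => if Nr v then true else side v) - f fun v => if Nr v then false else side v)
        * stp y t)| ≤ ∑ i, if Nr (q i) then |G (q i) - y| else 0 := by
  have hHH : -H ≤ H := by linarith
  have hi : ∀ i ∈ (univ : Finset I), IntervalIntegrable
      (fun t => if Nr (q i) then |stp (G (q i)) t - stp y t| else 0) volume (-H) H := fun i _ => by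
    split_ifs
    · exact stp_abs_int _ _ _ _
    · exact intervalIntegrable_const
  have h1 := intervalIntegral.integral_mono_on_of_le_Ioo hHH ((lev_int G f _ _).sub
    ((intervalIntegrable_const (c := f fun v => if Nr v then false else side v)).add
      ((stp_int y _ _).const_mul (f (fun v => if Nr v then true else side v)
        - f fun v => if Nr v then false else side v)))).abs
    (IntervalIntegrable.sum univ hi) fun t ht => by
      have e : f (fun v => if Nr v then false else side v)
          + (f (fun v => if Nr v then true else side v) - f fun v => if Nr v then false else side v)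
            * stp y t = f fun v => if Nr v then decide (t ≤ y) else side v := by
        unfold stp
        by_cases h : t ≤ y <;> simp [h]
      rw [e, Finset.sum_apply]
      refine (dep_le_sum hf h01 _ _).trans (le_of_eq (sum_congr rfl fun i _ => ?_))
      rw [xv_cut]
      split_ifs with hn
      · simp [xv, hn, stp]
      · rw [h i hn t ht]; simp [xv, hn]
  refine h1.trans ?_
  simp only [Finset.sum_apply]
  rw [intervalIntegral.integral_finsetSum hi]
  refine sum_le_sum fun i _ => ?_
  split_ifs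
  · exact stp_abs_le hHH _ _
  · simp

theorem band_end [Finite V] {f : (V → Bool) → ℝ} {q : I → V} (hf : Dep f (Set.range q))
    (h01 : ∀ η, f η = 0 ∨ f η = 1) {Gp Gm : V → ℝ} {H Δ : ℝ} (hH : 0 < H) (Nr : V → Prop)
    [DecidablePred Nr] (e : V) (h : ∀ i, ¬ Nr (q i) → Out H (Gp (q i)) (Gm (q i)))
    (hp : |Gp e| ≤ H / 2) (hm : |Gm e| ≤ H / 2) (h1 : Δ / 2 ≤ Gp e - Gm e) (h2 : Gp e - Gm e ≤ Δ)
    (h3 : 4 * Δ ≤ H) :
    Δ / 2 - 4 * Δ / H * lev Gp (-H) H (fun η => |f η - xv e η|)
      - 2 * (∑ i, if Nr (q i) then |Gp (q i) - Gp e| else 0)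
      - 2 * (∑ i, if Nr (q i) then |Gm (q i) - Gm e| else 0)
      ≤ lev Gp (-H) H f - lev Gm (-H) H f := by
  have hHH : -H ≤ H := by linarith
  have bp := band_pattern hf h01 (G := Gp) hH.le Nr (fun v => decide (0 < Gp v)) (Gp e)
    fun i hi t ht => by rw [((h i hi).stp_eq ht).1]; simp [xv]
  have bm := band_pattern hf h01 (G := Gm) hH.le Nr (fun v => decide (0 < Gp v)) (Gm e)
    fun i hi t ht => by rw [((h i hi).stp_eq ht).2]; simp [xv]
  set f0 := f fun v => if Nr v then false else decide (0 < Gp v)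
  set f1 := f fun v => if Nr v then true else decide (0 < Gp v)
  set np := ∑ i, if Nr (q i) then |Gp (q i) - Gp e| else 0
  set nm := ∑ i, if Nr (q i) then |Gm (q i) - Gm e| else 0
  have np0 : 0 ≤ np := sum_nonneg fun i _ => by split_ifs <;> simp
  have nm0 : 0 ≤ nm := sum_nonneg fun i _ => by split_ifs <;> simp
  have ia : ∀ y a b : ℝ, IntervalIntegrable (fun t => a + b * stp y t) volume (-H) H :=
    fun y a b => intervalIntegrable_const.add ((stp_int y _ _).const_mul b)
  have va : ∀ y a b : ℝ, |y| ≤ H / 2 → ∫ t in (-H)..H, (a + b * stp y t) = 2 * H * a + b * (y + H) :=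
    fun y a b hy => by
      rw [intervalIntegral.integral_add intervalIntegrable_const ((stp_int y _ _).const_mul b),
        intervalIntegral.integral_const_mul, stp_integral (by linarith [(abs_le.1 hy).1])
          (by linarith [(abs_le.1 hy).2]), intervalIntegral.integral_const, smul_eq_mul]
      ring
  have key : ∀ G : V → ℝ, |G e| ≤ H / 2 → |lev G (-H) H f - (2 * H * f0 + (f1 - f0) * (G e + H))|
      ≤ ∫ t in (-H)..H, |f (cut G t) - (f0 + (f1 - f0) * stp (G e) t)| := fun G hG => by
    rw [← va _ _ _ hG, lev, ← intervalIntegral.integral_sub (lev_int _ _ _ _) (ia _ _ _)]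
    exact intervalIntegral.abs_integral_le_integral_abs hHH
  have kp := abs_le.1 ((key Gp hp).trans bp)
  have km := abs_le.1 ((key Gm hm).trans bm)
  have h0 : f0 = 0 ∨ f0 = 1 := h01 _
  have h1' : f1 = 0 ∨ f1 = 1 := h01 _
  have kj : 2 * H * f0 + (1 - f1 - f0) * (Gp e + H) - np
      ≤ lev Gp (-H) H fun η => |f η - xv e η| := by
    have := intervalIntegral.integral_mono_on hHH ((ia (Gp e) f0 (1 - f1 - f0)).sub
      ((lev_int Gp f _ _).sub (ia (Gp e) f0 (f1 - f0))).abs)
      (lev_int Gp (fun η => |f η - xv e η|) _ _) fun t _ => by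
        rw [xv_cut]
        rcases h0 with a | a <;> rcases h1' with b | b <;> rcases stp_01 (Gp e) t with c | c <;>
          rcases h01 (cut Gp t) with d | d <;> rw [a, b, c, d] <;> norm_num
    rw [intervalIntegral.integral_sub (ia _ _ _) ((lev_int Gp f _ _).sub (ia _ _ _)).abs,
      va _ _ _ hp] at this
    unfold lev
    linarith
  set J := lev Gp (-H) H fun η => |f η - xv e η|
  have J0 : 0 ≤ J := lev_nonneg _ hHH fun _ => abs_nonneg _
  have hΔ : 0 ≤ Δ := by linarith
  have r0 : 0 ≤ 4 * Δ / H := by positivity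
  have r1 : 4 * Δ / H ≤ 1 := div_le_one_of_le₀ h3 hH.le
  have r2 : 4 * Δ / H * (H / 2) = 2 * Δ := by field_simp; ring
  have hp' := abs_le.1 hp
  by_cases hg : f0 = 0 ∧ f1 = 1
  · rw [hg.1, hg.2] at kp km
    nlinarith [mul_nonneg r0 J0, kp.1, km.2]
  · have : H / 2 ≤ J + np := by
      rcases h0 with a | a <;> rcases h1' with b | b
      · rw [a, b] at kj; linarith [hp'.1]
      · exact absurd ⟨a, b⟩ hg
      · rw [a, b] at kj; linarith
      · rw [a, b] at kj; linarith [hp'.2]
    have r3 := mul_le_mul_of_nonneg_left this r0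
    have r4 := mul_le_mul_of_nonneg_right r1 np0
    have r5 : -Δ ≤ (f1 - f0) * (Gp e - Gm e) := by
      rcases h0 with a | a <;> rcases h1' with b | b <;> rw [a, b] <;> linarith
    nlinarith [kp.1, km.2]

theorem count_le {R : ℕ} {α κ κ₀ T : ℝ} (h0 : 0 < κ₀) (hκ : κ₀ ≤ |κ|) (hT : 0 ≤ T) :
    (∑ r : Fin R, if |α + κ * r| ≤ T then (1 : ℝ) else 0) ≤ 2 * T / κ₀ + 1 := by
  rw [sum_boole]
  set A := univ.filter fun r : Fin R => |α + κ * r| ≤ T
  rcases A.eq_empty_or_nonempty with h | h
  · rw [h]; simp; positivity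
  obtain ⟨r₀, hr₀, hmin⟩ := A.exists_min_image (fun r => (r : ℕ)) h
  have : A.card ≤ (Icc (r₀ : ℕ) (r₀ + ⌊2 * T / κ₀⌋₊)).card := by
    refine card_le_card_of_injOn (fun r => (r : ℕ)) (fun r hr => ?_) fun a _ b _ h => Fin.ext h
    have h1 := hmin r hr
    have h2 := (mem_filter.1 hr₀).2
    have h3 := (mem_filter.1 hr).2
    obtain ⟨k, hk⟩ := Nat.exists_eq_add_of_le h1
    have h4 : |κ| * k ≤ 2 * T := by
      have : κ * k = (α + κ * r) - (α + κ * r₀) := by
        have : ((r : ℕ) : ℝ) = r₀ + k := by rw [hk]; push_cast; rfl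
        rw [this]; ring
      rw [← Nat.abs_cast k, ← abs_mul, this]
      exact (abs_sub _ _).trans (by linarith)
    have h5 : k ≤ ⌊2 * T / κ₀⌋₊ := Nat.le_floor (by
      rw [le_div_iff₀ h0]
      nlinarith [Nat.cast_nonneg (α := ℝ) k])
    simp only [coe_Icc, Set.mem_Icc]
    omega
  rw [Nat.card_Icc] at this
  have h6 : (A.card : ℝ) ≤ ⌊2 * T / κ₀⌋₊ + 1 := by exact_mod_cast (by omega)
  linarith [Nat.floor_le (show 0 ≤ 2 * T / κ₀ by positivity)]

end Vale.Agent.P235
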