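import Vale.Agent.P235.Level

/-! Rounding a bounded martingale with few values at each step by thresholds. -/

namespace Vale.Agent.P235

open Finset

/-- Threshold indicator. -/
noncomputable def gtI (θ y : ℝ) : ℝ := if θ < y then 1 else 0

/-- Interval indicator. -/
noncomputable def inI (p q y : ℝ) : ℝ := if p ≤ y ∧ y ≤ q then 1 else 0

/-- A bump supported on `[p, q]`. -/
noncomputable def bump (p q y : ℝ) : ℝ := min ((max (y - p) 0) ^ 2) ((max (q - y) 0) ^ 2)

theorem gtI_01 (θ y : ℝ) : gtI θ y = 0 ∨ gtI θ y = 1 := by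
  unfold gtI; split_ifs <;> simp

theorem inI_nonneg (p q y : ℝ) : 0 ≤ inI p q y := by
  unfold inI; split_ifs <;> simp

theorem sqpos_le (a b : ℝ) :
    (max b 0) ^ 2 ≤ (max a 0) ^ 2 + 2 * max a 0 * (b - a) + (b - a) ^ 2 := by
  rcases le_total a 0 with ha | ha <;> rcases le_total b 0 with hb | hb <;>
    simp only [max_eq_left, max_eq_right, ha, hb] <;> nlinarith

theorem bump_semi (p q : ℝ) : ∃ s : ℝ → ℝ, ∀ a b,
    bump p q b ≤ bump p q a + s a * (b - a) + 1 * (b - a) ^ 2 := by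
  refine ⟨fun a => if (max (a - p) 0) ^ 2 ≤ (max (q - a) 0) ^ 2 then 2 * max (a - p) 0
    else -(2 * max (q - a) 0), fun a b => ?_⟩
  unfold bump
  have h1 := sqpos_le (a - p) (b - p)
  have h2 := sqpos_le (q - a) (q - b)
  dsimp only
  split_ifs with h
  · rw [min_eq_left h]
    refine (min_le_left _ _).trans (h1.trans_eq ?_); ring
  · rw [min_eq_right (le_of_not_ge h)]
    refine (min_le_right _ _).trans (h2.trans_eq ?_); ring

theorem bump_nonneg (p q y : ℝ) : 0 ≤ bump p q y := le_min (sq_nonneg _) (sq_nonneg _)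

theorem bump_ge {p u y : ℝ} (hu : 0 < u) :
    u ^ 2 * inI (p + u) (p + 2 * u) y ≤ bump p (p + 3 * u) y := by
  unfold inI
  split_ifs with h
  · rw [mul_one]
    refine le_min ?_ ?_
    · exact pow_le_pow_left₀ hu.le (le_max_of_le_left (by linarith [h.1])) 2
    · exact pow_le_pow_left₀ hu.le (le_max_of_le_left (by linarith [h.2])) 2
  · rw [mul_zero]; exact bump_nonneg _ _ _

theorem bump_zero {p q y : ℝ} (h : y ≤ p ∨ q ≤ y) : bump p q y = 0 := by
  refine le_antisymm ?_ (bump_nonneg _ _ _)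
  rcases h with h | h
  · refine (min_le_left _ _).trans ?_
    rw [max_eq_right (by linarith)]; simp
  · refine (min_le_right _ _).trans ?_
    rw [max_eq_right (by linarith)]; simp

theorem bump_le {p u y p' q' : ℝ} (hu : 0 < u) (h1 : p' ≤ p) (h2 : p + 3 * u ≤ q') :
    bump p (p + 3 * u) y ≤ 3 * u ^ 2 * inI p' q' y := by
  by_cases h : y ≤ p ∨ p + 3 * u ≤ y
  · rw [bump_zero h]; have := inI_nonneg p' q' y; positivity
  push Not at h
  have : inI p' q' y = 1 := if_pos ⟨by linarith [h.1], by linarith [h.2]⟩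
  rw [this, mul_one]
  unfold bump
  rw [max_eq_left (by linarith [h.1]), max_eq_left (by linarith [h.2])]
  rcases le_total (y - p) (3 * u / 2) with h3 | h3
  · refine (min_le_left _ _).trans ?_; nlinarith [h.1]
  · refine (min_le_right _ _).trans ?_; nlinarith [h.2]

theorem trans_pt {p u c θ θ' y y' : ℝ} (hu : 0 < u) (a1 : p + u ≤ θ ∧ θ ≤ p + 4 * u)
    (a2 : p + u ≤ θ' ∧ θ' ≤ p + 4 * u)
    (a3 : p ≤ y' ∧ y' ≤ p + 5 * u → c + u ≤ y' ∧ y' ≤ c + 2 * u) :
    u ^ 2 * |gtI θ' y' - gtI θ y| ≤ u ^ 2 * inI (c + u) (c + 2 * u) y' + (y' - y) ^ 2 := by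
  have a4 := inI_nonneg (c + u) (c + 2 * u) y'
  by_cases hin : p ≤ y' ∧ y' ≤ p + 5 * u
  · have : inI (c + u) (c + 2 * u) y' = 1 := if_pos (a3 hin)
    rw [this]
    have : |gtI θ' y' - gtI θ y| ≤ 1 := by
      rcases gtI_01 θ' y' with h | h <;> rcases gtI_01 θ y with h' | h' <;> simp [h, h']
    nlinarith [sq_nonneg (y' - y), sq_nonneg u]
  · have hin' : y' < p ∨ p + 5 * u < y' := by
      by_contra h; push Not at h; exact hin h
    have : u ^ 2 * |gtI θ' y' - gtI θ y| ≤ (y' - y) ^ 2 := by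
      unfold gtI
      split_ifs <;> simp only [sub_self, abs_zero, mul_zero, sub_zero, zero_sub, abs_neg,
        abs_one, mul_one]
      · positivity
      · rcases hin' with h | h <;> nlinarith [a1.1, a1.2, a2.1, a2.2]
      · rcases hin' with h | h <;> nlinarith [a1.1, a1.2, a2.1, a2.2]
      · positivity
    nlinarith [sq_nonneg u]

/-- The data of a martingale seen through a chain of weights. -/
structure Mart (X : Type*) [Fintype X] (n : ℕ) where
  w : ℕ → X → ℝ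
  Ψ : ℕ → X → ℝ
  S : ℕ → Finset ℝ
  w_nonneg : ∀ i η, 0 ≤ w i η
  mem : ∀ i η, Ψ i η ∈ S i
  cons : ∀ i < n, ∀ φ : ℝ → ℝ, ex (w (i + 1)) (fun η => φ (Ψ i η)) = ex (w i) fun η => φ (Ψ i η)
  mart : ∀ i < n, ∀ φ : ℝ → ℝ,
    ex (w (i + 1)) (fun η => φ (Ψ i η) * (Ψ (i + 1) η - Ψ i η)) = 0

namespace Mart

variable {X : Type*} [Fintype X] {n : ℕ} (M : Mart X n)

noncomputable def var (i : ℕ) : ℝ := ex (M.w (i + 1)) fun η => (M.Ψ (i + 1) η - M.Ψ i η) ^ 2

noncomputable def Var (a b : ℕ) : ℝ := ∑ i ∈ Ico a b, M.var i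

noncomputable def cst (θ : ℕ → ℝ) (i : ℕ) : ℝ :=
  ex (M.w (i + 1)) fun η => |gtI (θ (i + 1)) (M.Ψ (i + 1) η) - gtI (θ i) (M.Ψ i η)|

noncomputable def cost (θ : ℕ → ℝ) (a b : ℕ) : ℝ := ∑ i ∈ Ico a b, M.cst θ i

noncomputable def mass (i : ℕ) (p q : ℝ) : ℝ := ex (M.w i) fun η => inI p q (M.Ψ i η)

noncomputable def cnt (i : ℕ) (p q : ℝ) : ℕ := ((M.S i).filter fun y => p ≤ y ∧ y ≤ q).card

theorem var_nonneg (i : ℕ) : 0 ≤ M.var i := ex_nonneg (M.w_nonneg _) fun _ => sq_nonneg _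

theorem Var_nonneg (a b : ℕ) : 0 ≤ M.Var a b := sum_nonneg fun i _ => M.var_nonneg i

theorem mass_nonneg (i : ℕ) (p q : ℝ) : 0 ≤ M.mass i p q :=
  ex_nonneg (M.w_nonneg _) fun _ => inI_nonneg _ _ _

theorem semi {β s : ℝ → ℝ} {κ : ℝ} (h : ∀ a b, β b ≤ β a + s a * (b - a) + κ * (b - a) ^ 2)
    {a b : ℕ} (hab : a ≤ b) (hb : b ≤ n) :
    ex (M.w b) (fun η => β (M.Ψ b η)) ≤ ex (M.w a) (fun η => β (M.Ψ a η)) + κ * M.Var a b := by
  induction b, hab using Nat.le_induction with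
  | base => simp [Var]
  | succ b hab ih =>
    have h1 := ih (by omega)
    have h2 := ex_mono (M.w_nonneg (b + 1)) fun η => h (M.Ψ b η) (M.Ψ (b + 1) η)
    rw [ex_add, ex_add, ex_cmul, M.cons b (by omega), M.mart b (by omega)] at h2
    unfold Var at h1 ⊢
    rw [sum_Ico_succ_top hab]
    unfold var at h1 ⊢
    linarith

theorem full {i m : ℕ} {p q p' q' : ℝ} (h1 : p ≤ p') (h2 : q' ≤ q) (hc : M.cnt i p q ≤ m + 1)
    (hc' : ¬ M.cnt i p' q' ≤ m) (y : ℝ) (hy : y ∈ M.S i) (h : p ≤ y ∧ y ≤ q) :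
    p' ≤ y ∧ y ≤ q' := by
  have hsub : (M.S i).filter (fun y => p' ≤ y ∧ y ≤ q') ⊆ (M.S i).filter fun y => p ≤ y ∧ y ≤ q :=
    fun z hz => by
      rw [mem_filter] at hz ⊢
      exact ⟨hz.1, by linarith [hz.2.1], by linarith [hz.2.2]⟩
  have := eq_of_subset_of_card_le hsub (by unfold cnt at hc hc'; omega)
  have h3 : y ∈ (M.S i).filter fun y => p' ≤ y ∧ y ≤ q' := by
    rw [this]; exact mem_filter.2 ⟨hy, h⟩
  exact (mem_filter.1 h3).2

/-- The statement proved by induction on the number of values inside an interval. -/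
def Good (m : ℕ) : Prop :=
  ∀ (p l : ℝ) (a b : ℕ), 0 < l → a ≤ b → b ≤ n → (∀ i, a ≤ i → i ≤ b → M.cnt i p (p + l) ≤ m) →
    ∃ θ : ℕ → ℝ, (∀ i, p ≤ θ i ∧ θ i ≤ p + l) ∧
      l ^ 2 * M.cost θ a b ≤ 75 ^ m * M.Var a b + 3 * m * l ^ 2 * M.mass a p (p + l)

theorem good_zero : M.Good 0 := by
  intro p l a b hl _ _ hc
  refine ⟨fun _ => p, fun _ => ⟨le_rfl, by linarith⟩, ?_⟩
  have hout : ∀ i, a ≤ i → i ≤ b → ∀ η, M.Ψ i η < p ∨ p + l < M.Ψ i η := fun i h1 h2 η => by
    by_contra h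
    push Not at h
    have : 0 < M.cnt i p (p + l) := card_pos.2 ⟨_, mem_filter.2 ⟨M.mem i η, h⟩⟩
    have := hc i h1 h2
    omega
  simp only [pow_zero, one_mul, Nat.cast_zero, mul_zero, zero_mul, add_zero, cost, Var, mul_sum]
  refine sum_le_sum fun i hi => ?_
  rw [mem_Ico] at hi
  unfold cst var
  rw [← ex_cmul]
  refine ex_mono (M.w_nonneg _) fun η => ?_
  have h1 := hout i hi.1 hi.2.le η
  have h2 := hout (i + 1) (by omega) hi.2 η
  unfold gtI
  split_ifs <;> simp only [sub_self, abs_zero, mul_zero, sub_zero, zero_sub, abs_neg, abs_one,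
    mul_one]
  · positivity
  · rcases h1 with h1 | h1 <;> rcases h2 with h2 | h2 <;> nlinarith
  · rcases h1 with h1 | h1 <;> rcases h2 with h2 | h2 <;> nlinarith
  · positivity

theorem cost_congr {θ θ' : ℕ → ℝ} {a b : ℕ} (h : ∀ i, a ≤ i → i ≤ b → θ i = θ' i) :
    M.cost θ a b = M.cost θ' a b :=
  sum_congr rfl fun i hi => by
    rw [mem_Ico] at hi
    unfold cst
    rw [h i hi.1 hi.2.le, h (i + 1) (by omega) hi.2]

theorem phase {m : ℕ} (ih : M.Good m) {p u : ℝ} (hu : 0 < u) {b : ℕ} (hb : b ≤ n) (k : ℕ) :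
    ∀ (a : ℕ) (c : ℝ), b - a ≤ k → a ≤ b → (c = p ∨ c = p + 2 * u) →
      (∀ i, a ≤ i → i ≤ b → M.cnt i p (p + 5 * u) ≤ m + 1) → M.cnt a (c + u) (c + 2 * u) ≤ m →
      ∃ θ : ℕ → ℝ, (∀ i, p + u ≤ θ i ∧ θ i ≤ p + 4 * u) ∧
        u ^ 2 * M.cost θ a b ≤ (75 ^ m + 2) * M.Var a b
          + 3 * m * u ^ 2 * M.mass a (c + u) (c + 2 * u)
          + ex (M.w a) fun η => bump c (c + 3 * u) (M.Ψ a η) := by
  induction k with
  | zero =>
    intro a c hk hab _ _ _
    have : a = b := by omega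
    subst this
    refine ⟨fun _ => p + u, fun _ => ⟨le_rfl, by linarith⟩, ?_⟩
    have h1 := M.mass_nonneg a (c + u) (c + 2 * u)
    have h2 := ex_nonneg (M.w_nonneg a) fun η => bump_nonneg c (c + 3 * u) (M.Ψ a η)
    simp only [cost, Var, Ico_self, sum_empty, mul_zero, zero_add]
    positivity
  | succ k ihk =>
    intro a c hk hab hc hJ h0
    have hc1 : p ≤ c := by rcases hc with h | h <;> linarith
    have hc2 : c ≤ p + 2 * u := by rcases hc with h | h <;> linarith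
    have e2 : c + u + u = c + 2 * u := by ring
    have hβ := ex_nonneg (M.w_nonneg a) fun η => bump_nonneg c (c + 3 * u) (M.Ψ a η)
    by_cases hall : ∀ i, a ≤ i → i ≤ b → M.cnt i (c + u) (c + 2 * u) ≤ m
    · obtain ⟨θ, h1, h2⟩ := ih (c + u) u a b hu hab hb (by simpa only [e2] using hall)
      refine ⟨θ, fun i => ⟨by linarith [(h1 i).1], by linarith [(h1 i).2]⟩, ?_⟩
      rw [e2] at h2
      have := M.Var_nonneg a b
      linarith
    have hex : ∃ i, a ≤ i ∧ i ≤ b ∧ ¬ M.cnt i (c + u) (c + 2 * u) ≤ m := by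
      by_contra h
      exact hall fun i h1 h2 => by
        by_contra h3
        exact h ⟨i, h1, h2, h3⟩
    classical
    obtain ⟨h1, h2, h3⟩ := Nat.find_spec hex
    have hmin := fun i => @Nat.find_min _ _ hex i
    obtain ⟨j, hj⟩ : ∃ j, Nat.find hex = j + 1 := by
      refine ⟨Nat.find hex - 1, ?_⟩
      have : Nat.find hex ≠ a := fun h => h3 (by rw [h]; exact h0)
      omega
    rw [hj] at h1 h2 h3 hmin
    have haj : a ≤ j := by
      have : j + 1 ≠ a := fun h => h3 (h ▸ h0)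
      omega
    obtain ⟨θ₁, hθ₁, c₁⟩ := ih (c + u) u a j hu haj (by omega) (fun i hi hi' => by
      rw [e2]
      by_contra h
      exact hmin i (by omega) ⟨hi, by omega, h⟩)
    have hfull := M.full (by linarith : p ≤ c + u) (by linarith : c + 2 * u ≤ p + 5 * u)
      (hJ (j + 1) h1 h2) h3
    set c' := 2 * p + 2 * u - c with hc'
    have hc'' : c' = p ∨ c' = p + 2 * u := by
      rcases hc with h | h
      · right; rw [hc', h]; ring
      · left; rw [hc', h]; ring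
    have hno : ∀ y ∈ M.S (j + 1), ¬ (c' + u ≤ y ∧ y ≤ c' + 2 * u) := fun y hy h => by
      have := hfull y hy ⟨by linarith [h.1], by linarith [h.2]⟩
      rcases hc with h' | h' <;> linarith [h.1, h.2, this.1, this.2]
    obtain ⟨θ₂, hθ₂, c₂⟩ := ihk (j + 1) c' (by omega) h2 hc'' (fun i hi => hJ i (by omega))
      (by
        have : M.cnt (j + 1) (c' + u) (c' + 2 * u) = 0 :=
          card_eq_zero.2 (filter_eq_empty_iff.2 hno)
        omega)
    have z1 : M.mass (j + 1) (c' + u) (c' + 2 * u) = 0 := by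
      rw [← ex_zero (M.w (j + 1))]
      exact ex_congr _ fun η => if_neg (hno _ (M.mem _ η))
    have z2 : ex (M.w (j + 1)) (fun η => bump c' (c' + 3 * u) (M.Ψ (j + 1) η)) = 0 := by
      rw [← ex_zero (M.w (j + 1))]
      refine ex_congr _ fun η => bump_zero ?_
      by_contra h
      push Not at h
      have := hfull _ (M.mem _ η) ⟨by linarith [h.1], by linarith [h.2]⟩
      rcases hc with h' | h' <;> linarith [h.1, h.2, this.1, this.2]
    rw [z1, z2] at c₂
    let θ : ℕ → ℝ := fun i => if i ≤ j then θ₁ i else θ₂ i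
    have hθ : ∀ i, p + u ≤ θ i ∧ θ i ≤ p + 4 * u := fun i => by
      simp only [θ]
      split_ifs
      · exact ⟨by linarith [(hθ₁ i).1], by linarith [(hθ₁ i).2]⟩
      · exact hθ₂ i
    refine ⟨θ, hθ, ?_⟩
    have s1 : M.cost θ a b = M.cost θ₁ a j + M.cst θ j + M.cost θ₂ (j + 1) b := by
      rw [← M.cost_congr (θ := θ) (θ' := θ₁) fun i _ hi => if_pos hi,
        ← M.cost_congr (θ := θ) (θ' := θ₂) fun i hi _ => if_neg (by omega)]
      unfold cost
      rw [← sum_Ico_succ_top haj, sum_Ico_consecutive _ h1 h2]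
    have s2 : M.Var a b = M.Var a j + M.var j + M.Var (j + 1) b := by
      unfold Var
      rw [← sum_Ico_succ_top haj, sum_Ico_consecutive _ h1 h2]
    have s3 : M.Var a (j + 1) = M.Var a j + M.var j := sum_Ico_succ_top haj _
    have t1 : u ^ 2 * M.cst θ j ≤ u ^ 2 * M.mass (j + 1) (c + u) (c + 2 * u) + M.var j := by
      unfold cst mass var
      rw [← ex_cmul, ← ex_cmul, ← ex_add]
      refine ex_mono (M.w_nonneg _) fun η => ?_
      exact trans_pt hu (hθ j) (hθ (j + 1)) (hfull _ (M.mem _ η))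
    have t2 : u ^ 2 * M.mass (j + 1) (c + u) (c + 2 * u)
        ≤ ex (M.w (j + 1)) fun η => bump c (c + 3 * u) (M.Ψ (j + 1) η) := by
      unfold mass
      rw [← ex_cmul]
      exact ex_mono (M.w_nonneg _) fun η => bump_ge hu
    obtain ⟨s, hs⟩ := bump_semi c (c + 3 * u)
    have t3 := M.semi hs h1 (h2.trans hb)
    rw [e2] at c₁
    rw [s1, s2]
    rw [s3] at t3
    have n1 := M.Var_nonneg a j
    have n2 := M.var_nonneg j
    have n3 : (0 : ℝ) ≤ 75 ^ m * M.var j := by positivity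
    linarith

theorem good_all (m : ℕ) : M.Good m := by
  induction m with
  | zero => exact M.good_zero
  | succ m ih =>
    intro p l a b hl hab hb hc
    obtain ⟨u, rfl⟩ : ∃ u, l = 5 * u := ⟨l / 5, by ring⟩
    have hu : 0 < u := by linarith
    obtain ⟨c, hc1, hc2⟩ : ∃ c, (c = p ∨ c = p + 2 * u) ∧ M.cnt a (c + u) (c + 2 * u) ≤ m := by
      by_cases h : M.cnt a (p + u) (p + 2 * u) ≤ m
      · exact ⟨p, Or.inl rfl, h⟩
      · refine ⟨p + 2 * u, Or.inr rfl, ?_⟩
        have hfull := M.full (by linarith : p ≤ p + u) (by linarith : p + 2 * u ≤ p + 5 * u)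
          (hc a le_rfl hab) h
        have : M.cnt a (p + 2 * u + u) (p + 2 * u + 2 * u) = 0 :=
          card_eq_zero.2 (filter_eq_empty_iff.2 fun y hy h' => by
            have := hfull y hy ⟨by linarith [h'.1], by linarith [h'.2]⟩
            linarith [h'.1, this.2])
        omega
    obtain ⟨θ, h1, h2⟩ := M.phase ih hu hb (b - a) a c le_rfl hab hc1 hc hc2
    refine ⟨θ, fun i => ⟨by linarith [(h1 i).1], by linarith [(h1 i).2]⟩, ?_⟩
    have hp : p ≤ c := by rcases hc1 with h | h <;> linarith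
    have hq : c ≤ p + 2 * u := by rcases hc1 with h | h <;> linarith
    have m1 : M.mass a (c + u) (c + 2 * u) ≤ M.mass a p (p + 5 * u) :=
      ex_mono (M.w_nonneg _) fun η => by
        unfold inI
        split_ifs with h3 h4
        · rfl
        · exact absurd ⟨by linarith [h3.1], by linarith [h3.2]⟩ h4
        · norm_num
        · rfl
    have m2 : ex (M.w a) (fun η => bump c (c + 3 * u) (M.Ψ a η))
        ≤ 3 * u ^ 2 * M.mass a p (p + 5 * u) := by
      unfold mass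
      rw [← ex_cmul]
      exact ex_mono (M.w_nonneg _) fun η => bump_le hu hp (by linarith)
    have m3 : 3 * (m : ℝ) * u ^ 2 * M.mass a (c + u) (c + 2 * u)
        ≤ 3 * m * u ^ 2 * M.mass a p (p + 5 * u) :=
      mul_le_mul_of_nonneg_left m1 (by positivity)
    have n1 := M.Var_nonneg a b
    have n2 : (1 : ℝ) ≤ 75 ^ m := one_le_pow₀ (by norm_num)
    have n3 : 1 * M.Var a b ≤ 75 ^ m * M.Var a b := mul_le_mul_of_nonneg_right n2 n1
    push_cast
    rw [pow_succ (75 : ℝ)]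
    nlinarith

theorem thresholds {N a : ℕ} (ha : a ≤ n) (hN : ∀ i, (M.S i).card ≤ N)
    (h01 : ∀ i η, 0 ≤ M.Ψ i η ∧ M.Ψ i η ≤ 1) :
    ∃ θ : ℕ → ℝ, (∀ i, 1 / 4 ≤ θ i ∧ θ i ≤ 3 / 4) ∧
      M.cost θ a n ≤ (4 * 75 ^ N + 18 * N) * ex (M.w a) fun η => M.Ψ a η * (1 - M.Ψ a η) := by
  obtain ⟨θ, h1, h2⟩ := M.good_all N (1 / 4) (1 / 2) a n (by norm_num) ha le_rfl
    fun i _ _ => (card_filter_le _ _).trans (hN i)
  refine ⟨θ, fun i => ⟨(h1 i).1, by linarith [(h1 i).2]⟩, ?_⟩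
  have s := M.semi (β := fun y => y * (1 - y)) (s := fun y => 1 - 2 * y) (κ := -1)
    (fun a b => le_of_eq (by ring)) ha le_rfl
  have s0 : 0 ≤ ex (M.w n) fun η => M.Ψ n η * (1 - M.Ψ n η) :=
    ex_nonneg (M.w_nonneg _) fun η => mul_nonneg (h01 n η).1 (by linarith [(h01 n η).2])
  have s1 : M.mass a (1 / 4) (1 / 4 + 1 / 2)
      ≤ 6 * ex (M.w a) fun η => M.Ψ a η * (1 - M.Ψ a η) := by
    unfold mass
    rw [← ex_cmul]
    refine ex_mono (M.w_nonneg _) fun η => ?_
    have := h01 a η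
    unfold inI
    split_ifs with h
    · nlinarith [h.1, h.2]
    · nlinarith [this.1, this.2]
  set V := ex (M.w a) fun η => M.Ψ a η * (1 - M.Ψ a η)
  have s2 : M.Var a n ≤ V := by linarith
  have s3 : (75 : ℝ) ^ N * M.Var a n ≤ 75 ^ N * V := mul_le_mul_of_nonneg_left s2 (by positivity)
  have s4 : (N : ℝ) * M.mass a (1 / 4) (1 / 4 + 1 / 2) ≤ N * (6 * V) :=
    mul_le_mul_of_nonneg_left s1 (by positivity)
  nlinarith

end Mart

end Vale.Agent.P235
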