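import Vale.Agent.P235.Defs
import Vale.Agent.P235.Assemble

/-! From tree decompositions of graphs to rooted decompositions of metrics. -/

namespace Vale.Agent.P235

open Finset SimpleGraph

section Metric
variable {V : Type} {G : SimpleGraph V} {ℓ : Sym2 V → ℝ}

theorem len_nonneg (hℓ : ∀ e ∈ G.edgeSet, 0 < ℓ e) {x y : V} (p : G.Walk x y) :
    0 ≤ (p.edges.map ℓ).sum :=
  List.sum_nonneg fun a ha => by
    obtain ⟨e, he, rfl⟩ := List.mem_map.1 ha
    exact (hℓ e (p.edges_subset_edgeSet he)).le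

theorem spDist_le (hℓ : ∀ e ∈ G.edgeSet, 0 < ℓ e) {x y : V} (p : G.Walk x y) :
    spDist G ℓ x y ≤ (p.edges.map ℓ).sum :=
  csInf_le ⟨0, by rintro _ ⟨q, rfl⟩; exact len_nonneg hℓ q⟩ ⟨p, rfl⟩

theorem le_spDist (hG : G.Connected) {x y : V} {c : ℝ}
    (h : ∀ p : G.Walk x y, c ≤ (p.edges.map ℓ).sum) : c ≤ spDist G ℓ x y :=
  le_csInf (by obtain ⟨p⟩ := hG x y; exact ⟨_, p, rfl⟩) (by rintro _ ⟨q, rfl⟩; exact h q)

/-- The shortest-path pseudometric. -/
@[reducible] noncomputable def spMetric (hG : G.Connected) (hℓ : ∀ e ∈ G.edgeSet, 0 < ℓ e) :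
    PseudoMetricSpace V where
  dist := spDist G ℓ
  dist_self x := le_antisymm (by simpa using spDist_le hℓ (Walk.nil : G.Walk x x))
    (le_spDist hG fun p => len_nonneg hℓ p)
  dist_comm x y := by
    have : ∀ x y, spDist G ℓ x y ≤ spDist G ℓ y x := fun x y => le_spDist hG fun p => by
      simpa [List.sum_reverse] using spDist_le hℓ p.reverse
    exact le_antisymm (this x y) (this y x)
  dist_triangle x y z := by
    have : spDist G ℓ x z - spDist G ℓ y z ≤ spDist G ℓ x y := le_spDist hG fun p => by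
      have : spDist G ℓ x z - (p.edges.map ℓ).sum ≤ spDist G ℓ y z := le_spDist hG fun q => by
        have := spDist_le hℓ (p.append q)
        simp only [Walk.edges_append, List.map_append, List.sum_append] at this
        linarith
      linarith
    linarith

end Metric

theorem exists_rooting {ι : Type*} {T : SimpleGraph ι} (hT : T.IsTree) (ρ : ι) :
    ∃ (par : ι → ι) (dep : ι → ℕ), par ρ = ρ ∧ dep ρ = 0 ∧ (∀ τ ≠ ρ, dep τ = dep (par τ) + 1) ∧
      ∀ a b, T.Adj a b → par a = b ∨ par b = a := by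
  choose P hP hU using fun σ => hT.existsUnique_path σ ρ
  have h0 : P ρ = Walk.nil := (hU ρ _ Walk.IsPath.nil).symm
  refine ⟨fun σ => (P σ).snd, fun σ => (P σ).length, by simp [h0], by simp [h0], fun τ hτ => ?_,
    fun a b h => ?_⟩
  · have h1 := hP τ
    beta_reduce at h1 ⊢
    generalize P τ = p at h1 ⊢
    cases p with
    | nil => exact absurd rfl hτ
    | cons h q =>
      rw [Walk.snd_cons, Walk.length_cons, ← hU _ q (Walk.IsPath.of_cons h1)]
  · by_cases ha : a ∈ (P b).support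
    · exact Or.inr (hT.isAcyclic.eq_snd_of_adj_start (hP b) h.symm ha).symm
    · left
      have := hU a (Walk.cons h (P b)) ((hP b).cons ha)
      simp only [← this, Walk.snd_cons]

theorem exists_enum {V : Type*} {s : Finset V} (hs : s.Nonempty) {n : ℕ} (h : s.card ≤ n) :
    ∃ e : Fin n → V, Set.range e = s := by
  obtain ⟨f⟩ : Nonempty (s ↪ Fin n) := Function.Embedding.nonempty_of_card_le (by simpa using h)
  have : Nonempty s := hs.to_subtype
  refine ⟨fun i => (Function.invFun f i).1, ?_⟩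
  ext x
  constructor
  · rintro ⟨i, rfl⟩; exact (Function.invFun f i).2
  · intro hx
    exact ⟨f ⟨x, hx⟩, by simp only [Function.leftInverse_invFun f.injective ⟨x, hx⟩]⟩

theorem cross_walk {α : Type*} {H : SimpleGraph α} (D : α → Prop) {a b : α} (p : H.Walk a b)
    (ha : D a) (hb : ¬ D b) : ∃ x y, H.Adj x y ∧ D x ∧ ¬ D y := by
  induction p with
  | nil => exact absurd ha hb
  | @cons u v w h q ih =>
    by_cases hv : D v
    · exact ih hv hb
    · exact ⟨u, v, h, ha, hv⟩

theorem exists_RTD {V : Type} [Fintype V] {G : SimpleGraph V} (hG : G.Connected) {ℓ : Sym2 V → ℝ}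
    (hℓ : ∀ e ∈ G.edgeSet, 0 < ℓ e) {k : ℕ} {ι : Type} {T : SimpleGraph ι} {B : ι → Finset V}
    (hT : T.IsTree) (hE : ∀ x y, G.Adj x y → ∃ t, x ∈ B t ∧ y ∈ B t)
    (hC : ∀ v, (T.induce {t | v ∈ B t}).Connected) (hB : ∀ t, (B t).card ≤ k + 1) :
    Nonempty (@RTD V (Option ι) (Fin (k + 2)) (spMetric hG hℓ)) := by
  classical
  let _ := spMetric hG hℓ
  obtain ⟨r⟩ := hG.nonempty
  obtain ⟨ρ⟩ := hT.connected.nonempty
  obtain ⟨par, dep, h1, h2, h3, h4⟩ := exists_rooting hT ρ
  let par' : Option ι → Option ι := fun o => o.bind fun σ => if σ = ρ then none else some (par σ)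
  let B' : Option ι → Finset V := fun o => insert r (o.elim ∅ B)
  have hr : ∀ o, r ∈ B' o := fun o => mem_insert_self _ _
  choose e he using fun o => exists_enum (s := B' o) (n := k + 2) ⟨r, hr o⟩ (by
    refine (card_insert_le _ _).trans (Nat.succ_le_succ ?_)
    cases o with
    | none => simp
    | some σ => exact hB σ)
  have me : ∀ o x, x ∈ Set.range (e o) ↔ x ∈ B' o := fun o x => by rw [he]; rfl
  have adj : ∀ a b, T.Adj a b → par a = b → par' (some a) = some b := fun a b h h' => by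
    have : a ≠ ρ := fun h5 => h.ne (by rw [← h', h5, h1])
    simp [par', this, h']
  have ri : ∀ τ σ σ', (∃ k, par'^[k] σ = τ) → (¬ ∃ k, par'^[k] σ' = τ) →
      ∀ x ∈ B' σ, x ∈ B' σ' → x ∈ B' τ ∧ x ∈ B' (par' τ) := by
    intro τ σ σ' d1 d2 x x1 x2
    by_cases hx : x = r
    · rw [hx]; exact ⟨hr _, hr _⟩
    have mem : ∀ o, x ∈ B' o → ∃ a, o = some a ∧ x ∈ B a := fun o h => by
      cases o with
      | none => simp [B', hx] at h
      | some a => exact ⟨a, rfl, by simpa [B', hx] using h⟩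
    obtain ⟨a, rfl, ha⟩ := mem σ x1
    obtain ⟨b, rfl, hb⟩ := mem σ' x2
    obtain ⟨p⟩ := hC x ⟨a, ha⟩ ⟨b, hb⟩
    obtain ⟨α, β, k1, k2, k3⟩ := cross_walk (fun z : {t | x ∈ B t} =>
      ∃ k, par'^[k] (some z.1) = τ) p d1 d2
    have k4 : T.Adj α.1 β.1 := k1
    rcases h4 _ _ k4 with h | h
    · obtain ⟨n, hn⟩ := k2
      cases n with
      | zero =>
        have hn : some α.1 = τ := hn
        rw [← hn, adj _ _ k4 h]
        exact ⟨mem_insert_of_mem α.2, mem_insert_of_mem β.2⟩
      | succ n => exact absurd ⟨n, by rwa [Function.iterate_succ_apply, adj _ _ k4 h] at hn⟩ k3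
    · obtain ⟨n, hn⟩ := k2
      exact absurd ⟨n + 1, by rwa [Function.iterate_succ_apply, adj _ _ k4.symm h]⟩ k3
  have edge : ∀ {x y : V}, G.Adj x y → dist x y ≤ ℓ s(x, y) := fun h =>
    (spDist_le hℓ (Walk.cons h Walk.nil)).trans_eq (by simp)
  refine ⟨{
    par := par'
    dep := fun o => o.elim 0 fun σ => dep σ + 1
    root := none
    dep_root := rfl
    par_root := rfl
    dep_par := ?_
    e := e
    r := r
    e_root := fun i => by simpa [B'] using (me none _).1 ⟨i, rfl⟩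
    r_mem := fun τ => (me _ _).2 (hr _)
    cover := fun v => ?_
    ri := fun τ _ σ σ' d1 d2 x => by simpa only [me] using ri τ σ σ' d1 d2 x
    sep := fun τ _ σ σ' d1 d2 x hx y hy => ?_
    lip := fun F C C0 F0 Ft Fb x y => ?_ }⟩
  · rintro (_ | σ) h
    · exact absurd rfl h
    · by_cases hσ : σ = ρ
      · simp [par', hσ, h2]
      · simp [par', hσ, h3 σ hσ]
  · obtain ⟨t⟩ := (hC v).nonempty
    exact ⟨some t.1, (me _ _).2 (mem_insert_of_mem t.2)⟩
  · simp only [me] at hx hy ⊢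
    have key : ∀ {x y : V} (p : G.Walk x y), (∃ σ, (∃ k, par'^[k] σ = τ) ∧ x ∈ B' σ) → y ∈ B' σ' →
        ∃ q ∈ B' τ ∩ B' (par' τ), dist x q + dist q y ≤ (p.edges.map ℓ).sum := by
      intro x y p
      induction p with
      | nil =>
        rintro ⟨σ, d1, hx⟩ hy
        exact ⟨_, mem_inter.2 (ri τ σ σ' d1 d2 _ hx hy), by simp⟩
      | @cons u v w h p ih =>
        rintro ⟨σ, d1, hx⟩ hy
        obtain ⟨t, t1, t2⟩ := hE u v h
        by_cases ht : ∃ k, par'^[k] (some t) = τ
        · obtain ⟨q, q1, q2⟩ := ih ⟨some t, ht, mem_insert_of_mem t2⟩ hy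
          refine ⟨q, q1, ?_⟩
          simp only [Walk.edges_cons, List.map_cons, List.sum_cons]
          linarith [dist_triangle u v q, edge h]
        · refine ⟨u, mem_inter.2 (ri τ σ _ d1 ht u hx (mem_insert_of_mem t1)), ?_⟩
          rw [_root_.dist_self, zero_add]
          exact spDist_le hℓ _
    obtain ⟨q, q1, q2⟩ := exists_min_image (B' τ ∩ B' (par' τ)) (fun q => dist x q + dist q y)
      ⟨r, mem_inter.2 ⟨hr _, hr _⟩⟩
    refine ⟨q, (mem_inter.1 q1).1, (mem_inter.1 q1).2, le_spDist hG fun p => ?_⟩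
    obtain ⟨q', a, b⟩ := key p ⟨σ, d1, hx⟩ hy
    exact (q2 q' a).trans b
  · have key : ∀ {x y : V} (p : G.Walk x y), F x y ≤ C * (p.edges.map ℓ).sum := by
      intro x y p
      induction p with
      | nil => simpa using F0 _
      | @cons u v w h p ih =>
        obtain ⟨t, t1, t2⟩ := hE u v h
        have a := Fb (some t) u ((me _ _).2 (mem_insert_of_mem t1)) v
          ((me _ _).2 (mem_insert_of_mem t2))
        have b := mul_le_mul_of_nonneg_left (edge h) C0
        simp only [Walk.edges_cons, List.map_cons, List.sum_cons]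
        linarith [Ft u v w]
    rcases C0.eq_or_lt with h0 | h0
    · obtain ⟨p⟩ := hG x y
      have := key p
      rw [← h0, zero_mul] at this ⊢
      exact this
    · rw [← div_le_iff₀' h0]
      exact le_spDist hG fun p => (div_le_iff₀' h0).2 (key p)

theorem treewidth_embed (k : ℕ) : ∃ C : ℝ, ∀ (V : Type) [Fintype V] (G : SimpleGraph V),
    G.Connected → TreewidthLE G k → ∀ ℓ : Sym2 V → ℝ, (∀ e ∈ G.edgeSet, 0 < ℓ e) →
      EmbedsL1 (spDist G ℓ) C := by
  obtain ⟨C, hC⟩ := cut_measure (Fin (k + 2))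
  refine ⟨C, fun V _ G hG ⟨ι, _, T, B, hT, h1, h2, h3⟩ ℓ hℓ => ?_⟩
  classical
  let _ := spMetric hG hℓ
  obtain ⟨D⟩ := exists_RTD hG hℓ hT h1 h2 h3
  obtain ⟨w, hw, h⟩ := hC V (Option ι) D
  obtain ⟨f, hf⟩ := cut_embed hw
  exact ⟨_, _, _, f, fun x y => by rw [hf]; exact h x y⟩

end Vale.Agent.P235
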