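import Mathlib

/-! Definitions used in the statements for P235. -/

namespace Vale.Agent.P235

open MeasureTheory

/-- The shortest-path distance for edge lengths `ℓ`: the infimum, over all walks from `x` to `y`,
of the sum of the lengths of the edges of the walk. -/
noncomputable def spDist {V : Type} (G : SimpleGraph V) (ℓ : Sym2 V → ℝ) (x y : V) : ℝ :=
  sInf (Set.range fun p : G.Walk x y => (p.edges.map ℓ).sum)

/-- `G` has a tree decomposition of width at most `k`. -/
def TreewidthLE {V : Type} (G : SimpleGraph V) (k : ℕ) : Prop :=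
  ∃ (ι : Type) (_ : Finite ι) (T : SimpleGraph ι) (B : ι → Finset V), T.IsTree ∧
    (∀ x y, G.Adj x y → ∃ t, x ∈ B t ∧ y ∈ B t) ∧
    (∀ v, (T.induce {t | v ∈ B t}).Connected) ∧ ∀ t, (B t).card ≤ k + 1

/-- `(V, d)` embeds into `L₁` with distortion at most `C`. -/
def EmbedsL1 {V : Type} (d : V → V → ℝ) (C : ℝ) : Prop :=
  ∃ (Ω : Type) (_ : MeasurableSpace Ω) (μ : Measure Ω) (f : V → Lp ℝ 1 μ),
    ∀ x y, d x y ≤ ‖f x - f y‖ ∧ ‖f x - f y‖ ≤ C * d x y

end Vale.Agent.P235
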