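import Vale.Agent.P235.Gini

/-! The finite state engine producing consistent random functions on the bags. -/

namespace Vale.Agent.P235

open Finset

set_option linter.unusedSectionVars false

/-- Classes: an order pattern for every value of the labels. -/
abbrev Key (S U I : Type*) := (S → U) → I → I → Bool

/-- A state of the engine. -/
structure St (V S U I : Type*) where
  P : Key S U I → ℝ
  B : Key S U I → V → ℝ
  a : Key S U I → S → ℝ
  g : S → V → ℝ

namespace St

variable {V S U I : Type*} [Fintype S] [DecidableEq S] [Fintype U] [DecidableEq U] [Fintype I]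
  [DecidableEq I] (val : U → ℝ) (st : St V S U I)

noncomputable def G (σ : Key S U I × (S → U)) (v : V) : ℝ :=
  st.B σ.1 v + ∑ j, st.a σ.1 j * val (σ.2 j) * st.g j v

noncomputable def pw (σ : Key S U I × (S → U)) : ℝ := st.P σ.1 / Fintype.card (S → U)

noncomputable def key (D : Finset S) (q : I → V) (σ : Key S U I × (S → U)) : Key S U I :=
  fun u i i' => decide (st.G val (σ.1, mix D u σ.2) (q i) ≤ st.G val (σ.1, mix D u σ.2) (q i'))

noncomputable def fib (D : Finset S) (q : I → V) (y : Key S U I) :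
    Finset (Key S U I × (S → U)) := univ.filter fun σ => st.key val D q σ = y

noncomputable def step (p₀ : ℝ) (D : Finset S) (q : I → V) (gn : S → V → ℝ) : St V S U I where
  P y := ∑ σ ∈ st.fib val D q y, st.pw σ
  B y v := (∑ σ ∈ st.fib val D q y,
      st.pw σ * (st.B σ.1 v + ∑ j ∈ D, st.a σ.1 j * val (σ.2 j) * st.g j v))
    / ∑ σ ∈ st.fib val D q y, st.pw σ
  a y j := if j ∈ D then (if p₀ ≤ ∑ σ ∈ st.fib val D q y, st.pw σ then 1 else 0)
    else (∑ σ ∈ st.fib val D q y, st.pw σ * st.a σ.1 j) / ∑ σ ∈ st.fib val D q y, st.pw σ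
  g j := if j ∈ D then gn j else st.g j

noncomputable def mid (p₀ : ℝ) (D : Finset S) (q : I → V) (gn : S → V → ℝ) (y : Key S U I)
    (u : S → U) (v : V) : ℝ :=
  (st.step val p₀ D q gn).B y v + ∑ j ∈ Dᶜ, (st.step val p₀ D q gn).a y j * val (u j) * st.g j v

/-- The cut measure of a state. -/
noncomputable def mu (W : ℝ) (F : (V → Bool) → ℝ) : ℝ :=
  ∑ σ, st.pw σ * lev (st.G val σ) (-W) W F

/-- Invariants of the engine. -/
structure Inv [PseudoMetricSpace V] (p₀ c : ℝ) : Prop where
  P_nonneg : ∀ x, 0 ≤ st.P x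
  P_sum : ∑ x, st.P x = 1
  a_mem : ∀ x j, 0 ≤ st.a x j ∧ st.a x j ≤ 1
  a_sum : ∀ j, 1 - Fintype.card (Key S U I) * p₀ ≤ ∑ x, st.P x * st.a x j
  g_lip : ∀ j y z, |st.g j y - st.g j z| ≤ dist y z
  gini : ∀ (y z : V) (N : Key S U I × (S → U) → ℝ),
    ∑ σ, st.pw σ * (N σ * (st.G val σ y - st.G val σ z)) ≤ c * dist y z * gin st.pw N

variable {val st}

theorem pw_nonneg (h : ∀ x, 0 ≤ st.P x) (σ : Key S U I × (S → U)) : 0 ≤ st.pw σ :=
  div_nonneg (h _) (Nat.cast_nonneg _)

theorem card_pos' [Nonempty U] : (0 : ℝ) < Fintype.card (S → U) :=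
  Nat.cast_pos.2 Fintype.card_pos

theorem sum_pw [Nonempty U] (φ : Key S U I → ℝ) :
    ∑ σ : Key S U I × (S → U), st.pw σ * φ σ.1 = ∑ x, st.P x * φ x := by
  rw [Fintype.sum_prod_type]
  refine sum_congr rfl fun x _ => ?_
  have := card_pos' (S := S) (U := U)
  simp only [pw, sum_const, card_univ, nsmul_eq_mul]
  field_simp

theorem mul_cavg {ι : Type*} {s : Finset ι} {p : ι → ℝ} (hp : ∀ i, 0 ≤ p i) (φ : ι → ℝ) :
    (∑ i ∈ s, p i) * ((∑ i ∈ s, p i * φ i) / ∑ i ∈ s, p i) = ∑ i ∈ s, p i * φ i := by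
  rcases eq_or_ne (∑ i ∈ s, p i) 0 with h | h
  · have := (sum_eq_zero_iff_of_nonneg fun i _ => hp i).1 h
    rw [h, zero_mul]
    exact (sum_eq_zero fun i hi => by rw [this i hi, zero_mul]).symm
  · field_simp

theorem sum_fib (D : Finset S) (q : I → V) (f : Key S U I → Key S U I × (S → U) → ℝ) :
    ∑ y, ∑ σ ∈ st.fib val D q y, f y σ = ∑ σ, f (st.key val D q σ) σ := by
  rw [← sum_fiberwise univ (st.key val D q) fun σ => f (st.key val D q σ) σ]
  exact sum_congr rfl fun y _ => sum_congr rfl fun σ hσ => by rw [(mem_filter.1 hσ).2]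

theorem key_mix (D : Finset S) (q : I → V) (x : Key S U I) (u w : S → U) :
    st.key val D q (x, mix D u w) = st.key val D q (x, w) := by
  funext u' i i'; simp only [key, mix_mix_right]

theorem transfer (D : Finset S) (q : I → V) (φ : Key S U I → (S → U) → ℝ)
    (hφ : ∀ y u w, φ y (mix D u w) = φ y u) (ψ : Key S U I × (S → U) → ℝ) :
    ∑ y, ∑ u, φ y u * ∑ σ ∈ st.fib val D q y, st.pw σ * ψ (σ.1, mix D u σ.2)
      = Fintype.card (S → U) * ∑ σ, st.pw σ * (φ (st.key val D q σ) σ.2 * ψ σ) := by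
  rw [sum_comm]
  simp only [mul_sum, sum_fib]
  simp only [Fintype.sum_prod_type]
  rw [sum_comm]
  refine sum_congr rfl fun x _ => ?_
  rw [← mul_sum, ← sum_mix D fun u => st.pw (x, u) * (φ (st.key val D q (x, u)) u * ψ (x, u))]
  refine sum_congr rfl fun u _ => sum_congr rfl fun w _ => ?_
  rw [key_mix, hφ]
  simp only [pw]; ring

variable {p₀ : ℝ} {D : Finset S} {q : I → V} {gn : S → V → ℝ}

theorem step_G (σ : Key S U I × (S → U)) (v : V) :
    (st.step val p₀ D q gn).G val σ v = st.mid val p₀ D q gn σ.1 σ.2 v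
      + ∑ j ∈ D, (st.step val p₀ D q gn).a σ.1 j * val (σ.2 j) * gn j v := by
  unfold G mid
  rw [← sum_add_sum_compl D]
  have e1 : ∑ j ∈ D, (st.step val p₀ D q gn).a σ.1 j * val (σ.2 j) * (st.step val p₀ D q gn).g j v
      = ∑ j ∈ D, (st.step val p₀ D q gn).a σ.1 j * val (σ.2 j) * gn j v :=
    sum_congr rfl fun j hj => by simp only [step, if_pos hj]
  have e2 : ∑ j ∈ Dᶜ, (st.step val p₀ D q gn).a σ.1 j * val (σ.2 j) * (st.step val p₀ D q gn).g j v
      = ∑ j ∈ Dᶜ, (st.step val p₀ D q gn).a σ.1 j * val (σ.2 j) * st.g j v :=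
    sum_congr rfl fun j hj => by simp only [step, if_neg (mem_compl.1 hj)]
  rw [e1, e2]; ring

theorem mid_mix (y : Key S U I) (u w : S → U) (v : V) :
    st.mid val p₀ D q gn y (mix D u w) v = st.mid val p₀ D q gn y u v := by
  unfold mid
  congr 1
  exact sum_congr rfl fun j hj => by simp only [mix, if_neg (mem_compl.1 hj)]

theorem P_mid (h : ∀ x, 0 ≤ st.P x) (y : Key S U I) (u : S → U) (v : V) :
    (st.step val p₀ D q gn).P y * st.mid val p₀ D q gn y u v
      = ∑ σ ∈ st.fib val D q y, st.pw σ * st.G val (σ.1, mix D u σ.2) v := by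
  unfold mid
  have e1 : ∀ j ∈ Dᶜ, (st.step val p₀ D q gn).P y
      * ((st.step val p₀ D q gn).a y j * val (u j) * st.g j v)
      = ∑ σ ∈ st.fib val D q y, st.pw σ * (st.a σ.1 j * val (u j) * st.g j v) := fun j hj => by
    simp only [step, if_neg (mem_compl.1 hj)]
    rw [← mul_assoc, ← mul_assoc, mul_cavg (pw_nonneg h), sum_mul, sum_mul]
    exact sum_congr rfl fun σ _ => by ring
  rw [mul_add, mul_sum, sum_congr rfl e1, sum_comm]
  simp only [step]
  rw [mul_cavg (pw_nonneg h), ← sum_add_distrib]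
  refine sum_congr rfl fun σ _ => ?_
  rw [← mul_sum, ← mul_add]
  unfold G
  rw [← sum_add_sum_compl D, add_assoc]
  congr 3
  · exact sum_congr rfl fun j hj => by simp only [mix, if_pos hj]
  · exact sum_congr rfl fun j hj => by simp only [mix, if_neg (mem_compl.1 hj)]

theorem step_P_nonneg (h : ∀ x, 0 ≤ st.P x) (y : Key S U I) : 0 ≤ (st.step val p₀ D q gn).P y :=
  sum_nonneg fun σ _ => pw_nonneg h σ

/-- Pushing a function that ignores the dropped labels. -/
theorem push [Nonempty U] (φ : Key S U I → (S → U) → ℝ) (hφ : ∀ y u w, φ y (mix D u w) = φ y u) :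
    ∑ σ : Key S U I × (S → U), (st.step val p₀ D q gn).pw σ * φ σ.1 σ.2
      = ∑ σ, st.pw σ * φ (st.key val D q σ) σ.2 := by
  have h := transfer (val := val) (st := st) D q φ hφ fun _ => 1
  have hc := card_pos' (S := S) (U := U)
  simp only [mul_one] at h
  refine mul_left_cancel₀ hc.ne' ?_
  rw [← h, Fintype.sum_prod_type, mul_sum]
  refine sum_congr rfl fun y _ => ?_
  rw [mul_sum]
  refine sum_congr rfl fun u _ => ?_
  have : (st.step val p₀ D q gn).pw (y, u)
    = (∑ σ ∈ st.fib val D q y, st.pw σ) / Fintype.card (S → U) := rfl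
  rw [this]; field_simp

theorem step_mu [Nonempty U] [Finite V] [DecidableEq V] (h : ∀ x, 0 ≤ st.P x) {W : ℝ} (hW : 0 ≤ W)
    (hb : ∀ σ v, |st.G val σ v| ≤ W) (hb' : ∀ σ v, |(st.step val p₀ D q gn).G val σ v| ≤ W)
    (hg : ∀ j ∈ D, ∀ i, gn j (q i) = 0) {F : (V → Bool) → ℝ} (hF : Dep F (Set.range q)) :
    (st.step val p₀ D q gn).mu val W F = st.mu val W F := by
  have hc := card_pos' (S := S) (U := U)
  have h1 := transfer (val := val) (st := st) D q (fun _ _ => 1) (fun _ _ _ => rfl)
    fun σ => lev (st.G val σ) (-W) W F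
  simp only [one_mul] at h1
  refine mul_left_cancel₀ hc.ne' ?_
  unfold mu
  rw [← h1, Fintype.sum_prod_type, mul_sum]
  refine sum_congr rfl fun y _ => ?_
  rw [mul_sum]
  refine sum_congr rfl fun u _ => ?_
  rw [← lev_avg (st.fib val D q y) st.pw (fun σ _ => pw_nonneg h σ)
    (fun σ => st.G val (σ.1, mix D u σ.2)) ((st.step val p₀ D q gn).G val (y, u))
    (univ.image q) hW (fun _ _ _ _ => hb _ _) (fun _ _ => hb' _ _) ?_ ?_ (by simpa using hF)]
  · have : (st.step val p₀ D q gn).pw (y, u)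
      = (∑ σ ∈ st.fib val D q y, st.pw σ) / Fintype.card (S → U) := rfl
    rw [this]; field_simp
  · intro σ hσ τ hτ a ha b hb h
    obtain ⟨i, _, rfl⟩ := mem_image.1 ha
    obtain ⟨i', _, rfl⟩ := mem_image.1 hb
    have e : st.key val D q σ u i i' = st.key val D q τ u i i' := by
      rw [(mem_filter.1 hσ).2, (mem_filter.1 hτ).2]
    simp only [key, decide_eq_decide] at e
    exact e.1 h
  · intro a ha
    obtain ⟨i, _, rfl⟩ := mem_image.1 ha
    have e : ∑ j ∈ D, (st.step val p₀ D q gn).a y j * val (u j) * gn j (q i) = 0 :=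
      sum_eq_zero fun j hj => by rw [hg j hj, mul_zero]
    rw [← P_mid (p₀ := p₀) (gn := gn) h, step_G, e, add_zero]
    rfl

theorem step_gini [Nonempty U] [PseudoMetricSpace V] {c Rv : ℝ} (h : st.Inv val p₀ c)
    (hp : 0 < p₀) (hv : ∑ y, val y = 0) (hR : ∀ y, |val y| ≤ Rv)
    (hc : Fintype.card S * Rv * Fintype.card (S → U) ≤ c * p₀)
    (hg : ∀ j y z, |gn j y - gn j z| ≤ dist y z) (y z : V) (N : Key S U I × (S → U) → ℝ) :
    ∑ σ, (st.step val p₀ D q gn).pw σ * (N σ * ((st.step val p₀ D q gn).G val σ y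
      - (st.step val p₀ D q gn).G val σ z)) ≤ c * dist y z * gin (st.step val p₀ D q gn).pw N := by
  have hn := card_pos' (S := S) (U := U)
  set st' := st.step val p₀ D q gn with hst'
  have hp' : ∀ σ, 0 ≤ st'.pw σ := pw_nonneg (step_P_nonneg h.P_nonneg)
  have hR0 : 0 ≤ Rv := (abs_nonneg _).trans (hR (Classical.arbitrary U))
  have hc0 : 0 ≤ c := by
    by_contra h0
    have : c * p₀ < 0 := mul_neg_of_neg_of_pos (not_le.1 h0) hp
    have : 0 ≤ Fintype.card S * Rv * Fintype.card (S → U) := by positivity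
    linarith
  let T : Key S U I × (S → U) → (S → U) → Key S U I × (S → U) := fun b w => (b.1, mix D b.2 w)
  have hT : ∀ φ : Key S U I × (S → U) → ℝ,
      ∑ b, st'.pw b * ((∑ w, φ (T b w)) / Fintype.card (S → U)) = ∑ b, st'.pw b * φ b := by
    intro φ
    simp only [Fintype.sum_prod_type]
    refine sum_congr rfl fun x _ => ?_
    simp only [pw, T, ← mul_sum, ← sum_div, sum_mix D fun u => φ (x, u)]
    field_simp
  let Nb : Key S U I × (S → U) → ℝ := fun b => (∑ w, N (T b w)) / Fintype.card (S → U)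
  have hNb : ∀ x u w, Nb (x, mix D u w) = Nb (x, u) := fun x u w => by
    simp only [Nb, T, mix_mix_left]
  let ξ : Key S U I → (S → U) → ℝ := fun x w =>
    ∑ j ∈ D, st'.a x j * val (w j) * (gn j y - gn j z)
  let m : Key S U I × (S → U) → ℝ := fun b =>
    st.mid val p₀ D q gn b.1 b.2 y - st.mid val p₀ D q gn b.1 b.2 z
  have hξ0 : ∀ x, ∑ w, ξ x w = 0 := fun x => by
    simp only [ξ]
    rw [sum_comm]
    exact sum_eq_zero fun j _ => by rw [← sum_mul, ← mul_sum, sum_coord j hv]; simp
  have hξ : ∀ b w, |ξ b.1 w| ≤ c * dist y z * st'.pw b := fun b w => by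
    by_cases h0 : p₀ ≤ st'.P b.1
    · have h1 : |ξ b.1 w| ≤ ∑ _j : S, Rv * dist y z := by
        refine (abs_sum_le_sum_abs _ _).trans ((sum_le_sum fun j hj => ?_).trans
          (sum_le_sum_of_subset_of_nonneg (subset_univ D) fun _ _ _ => by positivity))
        have : st'.a b.1 j = 1 := by
          simp only [hst', step, if_pos hj]; exact if_pos h0
        rw [this, one_mul, abs_mul]
        exact mul_le_mul (hR _) (hg _ _ _) (abs_nonneg _) hR0
      refine h1.trans ?_
      rw [sum_const, card_univ, nsmul_eq_mul, pw, ← mul_div_assoc, le_div_iff₀ hn]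
      have h2 := mul_le_mul_of_nonneg_right hc (dist_nonneg (x := y) (y := z))
      have h3 : c * dist y z * p₀ ≤ c * dist y z * st'.P b.1 :=
        mul_le_mul_of_nonneg_left h0 (by positivity)
      linarith
    · have : ξ b.1 w = 0 := sum_eq_zero fun j hj => by
        have : st'.a b.1 j = 0 := by
          simp only [hst', step, if_pos hj]; exact if_neg h0
        rw [this]; simp
      rw [this, abs_zero]
      exact mul_nonneg (by positivity) (hp' b)
  have hG : ∀ b w, st'.G val (T b w) y - st'.G val (T b w) z = m b + ξ b.1 w := fun b w => by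
    simp only [hst', step_G, T, mid_mix, m, ξ, mul_sub, sum_sub_distrib]
    have e : ∀ v, ∑ j ∈ D, (st.step val p₀ D q gn).a b.1 j * val (mix D b.2 w j) * gn j v
        = ∑ j ∈ D, (st.step val p₀ D q gn).a b.1 j * val (w j) * gn j v := fun v =>
      sum_congr rfl fun j hj => by simp only [mix, if_pos hj]
    rw [e, e]; ring
  have k1 : ∀ b, (∑ w, N (T b w) * (st'.G val (T b w) y - st'.G val (T b w) z))
      / Fintype.card (S → U) ≤ Nb b * m b + c * dist y z * st'.pw b *
        ((∑ w, |N (T b w) - Nb b|) / Fintype.card (S → U)) := fun b => by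
    have e : ∑ w, N (T b w) * (st'.G val (T b w) y - st'.G val (T b w) z)
        = (∑ w, N (T b w)) * m b + ∑ w, (N (T b w) - Nb b) * ξ b.1 w := by
      simp only [hG, mul_add, sub_mul, sum_add_distrib, sum_sub_distrib, ← mul_sum, hξ0, ← sum_mul]
      ring
    have e2 : ∑ w, (N (T b w) - Nb b) * ξ b.1 w
        ≤ c * dist y z * st'.pw b * ∑ w, |N (T b w) - Nb b| := by
      rw [mul_sum]
      refine sum_le_sum fun w _ => (le_abs_self _).trans ?_
      rw [abs_mul, mul_comm]
      exact mul_le_mul_of_nonneg_right (hξ b w) (abs_nonneg _)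
    rw [e, add_div, ← mul_div_assoc]
    have := div_le_div_of_nonneg_right e2 hn.le
    have e3 : (∑ w, N (T b w)) * m b / Fintype.card (S → U) = Nb b * m b := by
      simp only [Nb]; ring
    linarith
  have k2 : ∑ b, st'.pw b * (Nb b * m b) = ∑ σ, st.pw σ * (Nb (st.key val D q σ, σ.2)
      * (st.G val σ y - st.G val σ z)) := by
    have h1 := transfer (val := val) (st := st) D q (fun x u => Nb (x, u)) hNb
      fun σ => st.G val σ y - st.G val σ z
    refine mul_left_cancel₀ hn.ne' ?_
    rw [← h1, Fintype.sum_prod_type, mul_sum]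
    refine sum_congr rfl fun x _ => ?_
    rw [mul_sum]
    refine sum_congr rfl fun u _ => ?_
    simp only [mul_sub, sum_sub_distrib]
    rw [← P_mid (p₀ := p₀) (gn := gn) h.P_nonneg, ← P_mid (p₀ := p₀) (gn := gn) h.P_nonneg]
    simp only [m, pw, hst']
    field_simp
  have k3 : gin st.pw (fun σ => Nb (st.key val D q σ, σ.2)) = gin st'.pw Nb := by
    have e : ∀ (p : Key S U I × (S → U) → ℝ) (M : Key S U I × (S → U) → ℝ),
        gin p M = ∑ a, p a * ∑ b, p b * |M a - M b| := fun p M => by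
      unfold gin; simp only [mul_sum, mul_assoc]
    rw [e, e]
    have e1 : ∀ t : ℝ, ∑ b, st'.pw b * |t - Nb b|
        = ∑ σ, st.pw σ * |t - Nb (st.key val D q σ, σ.2)| := fun t =>
      push (fun x u => |t - Nb (x, u)|) fun x u w => by rw [hNb]
    simp only [e1]
    exact (push (fun x u => ∑ σ, st.pw σ * |Nb (x, u) - Nb (st.key val D q σ, σ.2)|)
      fun x u w => by rw [hNb]).symm
  have k4 := gin_refine hp' T hT N
  have k5 := h.gini y z fun σ => Nb (st.key val D q σ, σ.2)
  rw [← hT]
  refine (sum_le_sum fun b _ => mul_le_mul_of_nonneg_left (k1 b) (hp' b)).trans ?_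
  have k6 := mul_le_mul_of_nonneg_left k4 (show 0 ≤ c * dist y z by positivity)
  simp only [mul_add, sum_add_distrib]
  rw [k2]
  rw [k3] at k5
  have k7 : ∑ b, st'.pw b * (c * dist y z * st'.pw b *
      ((∑ w, |N (T b w) - Nb b|) / Fintype.card (S → U))) = c * dist y z * ∑ b, st'.pw b * st'.pw b
        * ((∑ w, |N (T b w) - Nb b|) / Fintype.card (S → U)) := by
    rw [mul_sum]; exact sum_congr rfl fun b _ => by ring
  rw [k7]
  rw [mul_add] at k6
  exact (add_le_add_left k5 _).trans k6

theorem step_inv [Nonempty U] [PseudoMetricSpace V] {c Rv : ℝ} (h : st.Inv val p₀ c)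
    (hp : 0 < p₀) (hv : ∑ y, val y = 0) (hR : ∀ y, |val y| ≤ Rv)
    (hc : Fintype.card S * Rv * Fintype.card (S → U) ≤ c * p₀)
    (hg : ∀ j y z, |gn j y - gn j z| ≤ dist y z) : (st.step val p₀ D q gn).Inv val p₀ c where
  P_nonneg := step_P_nonneg h.P_nonneg
  P_sum := by
    have := sum_pw (st := st) fun _ => 1
    simp only [mul_one] at this
    simp only [step, sum_fib, this, h.P_sum]
  a_mem x j := by
    simp only [step]
    split_ifs
    · norm_num
    · norm_num
    · have h0 : ∀ σ, 0 ≤ st.pw σ := pw_nonneg h.P_nonneg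
      refine ⟨div_nonneg (sum_nonneg fun σ _ => mul_nonneg (h0 σ) (h.a_mem _ _).1)
        (sum_nonneg fun σ _ => h0 σ), div_le_one_of_le₀ (sum_le_sum fun σ _ =>
          mul_le_of_le_one_right (h0 σ) (h.a_mem _ _).2) (sum_nonneg fun σ _ => h0 σ)⟩
  a_sum j := by
    by_cases hj : j ∈ D
    · have h1 : ∑ x, (st.step val p₀ D q gn).P x = 1 := by
        have := sum_pw (st := st) fun _ => 1
        simp only [mul_one] at this
        simp only [step, sum_fib, this, h.P_sum]
      have : (Fintype.card (Key S U I) : ℝ) * p₀ = ∑ _x : Key S U I, p₀ := by simp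
      rw [← h1, this, ← sum_sub_distrib]
      refine sum_le_sum fun x _ => ?_
      have h2 := step_P_nonneg (val := val) (p₀ := p₀) (D := D) (q := q) (gn := gn) h.P_nonneg x
      simp only [step, if_pos hj] at h2 ⊢
      split_ifs with h3
      · linarith
      · linarith [not_le.1 h3]
    · simp only [step, if_neg hj, mul_cavg (pw_nonneg h.P_nonneg), sum_fib]
      rw [sum_pw fun x => st.a x j]
      exact h.a_sum j
  g_lip j y z := by
    simp only [step]
    split_ifs
    · exact hg j y z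
    · exact h.g_lip j y z
  gini := step_gini h hp hv hR hc hg

theorem Inv.sum_pw_one [Nonempty U] [PseudoMetricSpace V] {c : ℝ} (h : st.Inv val p₀ c) :
    ∑ σ, st.pw σ = 1 := by
  have := sum_pw (st := st) fun _ => 1
  simp only [mul_one] at this
  rw [this, h.P_sum]

theorem Inv.lip [Nonempty U] [PseudoMetricSpace V] {c : ℝ} (h : st.Inv val p₀ c) (hc : 0 ≤ c)
    (y z : V) : ∑ σ, st.pw σ * |st.G val σ y - st.G val σ z| ≤ 2 * c * dist y z := by
  have h1 := h.gini y z fun σ => if 0 ≤ st.G val σ y - st.G val σ z then 1 else -1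
  have h2 := gin_le_two (pw_nonneg h.P_nonneg) h.sum_pw_one
    (N := fun σ => if 0 ≤ st.G val σ y - st.G val σ z then 1 else -1) fun σ => by
      split_ifs <;> simp
  have h3 := mul_le_mul_of_nonneg_left h2 (show 0 ≤ c * dist y z by positivity)
  refine le_trans (le_of_eq (sum_congr rfl fun σ _ => ?_)) (h1.trans (h3.trans_eq (by ring)))
  split_ifs with h0
  · rw [abs_of_nonneg h0, one_mul]
  · rw [abs_of_neg (not_le.1 h0), neg_one_mul]

/-- The initial state. -/
noncomputable def init : St V S U I where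
  P _ := 1 / Fintype.card (Key S U I)
  B _ _ := 0
  a _ _ := 1
  g _ _ := 0

theorem init_inv [PseudoMetricSpace V] {c : ℝ} (hp : 0 ≤ p₀) (hc : 0 ≤ c) :
    (init : St V S U I).Inv val p₀ c := by
  have hn : (0 : ℝ) < Fintype.card (Key S U I) := Nat.cast_pos.2 Fintype.card_pos
  have h1 : ∑ x, (init : St V S U I).P x = 1 := by
    simp only [init, sum_const, card_univ, nsmul_eq_mul]; field_simp
  have h0 : ∀ x, 0 ≤ (init : St V S U I).P x := fun x => by simp only [init]; positivity
  refine ⟨h0, h1, fun _ _ => by simp [init], fun j => ?_, fun _ _ _ => by simp [init],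
    fun y z N => ?_⟩
  · have : ∀ x, (init : St V S U I).a x j = 1 := fun _ => rfl
    simp only [this, mul_one, h1]
    have : 0 ≤ Fintype.card (Key S U I) * p₀ := by positivity
    linarith
  · have : ∀ σ v, (init : St V S U I).G val σ v = 0 := fun σ v => by simp [G, init]
    simp only [this, sub_self, mul_zero, sum_const_zero]
    exact mul_nonneg (by positivity) (gin_nonneg (pw_nonneg h0) _)

end St

end Vale.Agent.P235
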