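import Vale.Agent.P235.Main

/-! The glued measure sees the distance from a vertex to an ancestor bag. -/

namespace Vale.Agent.P235

open Finset

set_option linter.unusedSectionVars false

theorem abs_tele (f : ℕ → ℝ) {a b : ℕ} (h : a ≤ b) :
    |f b - f a| ≤ ∑ i ∈ Ico a b, |f (i + 1) - f i| := by
  rw [← sum_Ico_sub f h]
  exact abs_sum_le_sum_abs _ _

theorem gtI_le {θ y v : ℝ} (hθ : 1 / 4 ≤ θ ∧ θ ≤ 3 / 4) (hv : v = 0 ∨ v = 1) :
    |gtI θ y - v| ≤ 4 * |v - y| := by
  unfold gtI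
  rcases hv with rfl | rfl <;> split_ifs with h
  · have := le_abs_self y
    simp only [sub_zero, zero_sub, abs_neg, abs_one]; linarith [hθ.1]
  · simp
  · simp
  · have := le_abs_self (1 - y)
    simp only [zero_sub, abs_neg, abs_one]; linarith [hθ.2]

namespace RTD

variable {V ι I : Type*} [PseudoMetricSpace V] [Fintype I] [DecidableEq I] [Nonempty I]
  [Fintype V] [DecidableEq V] [Fintype ι] [DecidableEq ι] (T : RTD V ι I) {J R : ℕ} [NeZero R]
  {p₀ c : ℝ}

theorem escape (h : Par I J R p₀ c) {M : ℕ} (hM : M = 2 * Fintype.card (I → I → Fin (2 * J + 2)))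
    {σ : ι} {t : V} (ht : t ∈ Set.range (T.e σ)) {i₀ : ℕ} (hi : i₀ < T.dep σ) {δ : ℝ}
    (hδ : δ = dB (T.e (T.anc σ i₀)) t) (h0 : 0 < δ) {v : V} (hv : v ∉ T.Us (T.anc σ (i₀ + 1))) :
    ∃ (Tn : Finset ι) (ω₀ : ι → Req I), Tn.card ≤ M * M + M + 1 ∧
      ∀ ω W w, (∀ τ ∈ Tn, ω τ = ω₀ τ) → T.Glued J R p₀ c ω W w → δ / (128 * M)
        ≤ (4 * 75 ^ Fintype.card (I → Bool) + 18 * Fintype.card (I → Bool)) * sepw w v t := by
  have hc0 : 0 ≤ c := by linarith [h.hc1]
  have hM0 : 0 < M := by rw [hM]; exact Nat.mul_pos (by norm_num) Fintype.card_pos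
  have e : T.anc σ (T.dep σ) = σ := T.anc_ge le_rfl
  have hA : ∀ i ≤ T.dep σ, ((T.path J σ).A i).card ≤ M := fun i hi =>
    hM ▸ (T.path J σ).card_le hi
  have ht' : t ∈ Set.range ((T.path J σ).E (T.path J σ).L) := by simpa only [path, e] using ht
  obtain ⟨l, a, b, s, x, p1, p2, p3, p4, p5, p6, p7, p8, p9, p10, p11, p12⟩ :=
    PathD.window (p := T.path J σ) h.hJ ht' hδ h0 hi hM0 hA
  have p4' : b ≤ T.dep σ := p4
  obtain ⟨y, A, y1, y2⟩ := PathD.far_sep (p := T.path J σ) h.hJ (l := l) (by exact p2.trans (p3.trans p4)) s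
  have hlt : ∀ i ≤ T.dep σ, ∀ μ ∈ (T.path J σ).A i, μ < i := fun i hi μ hμ =>
    (T.path J σ).lt_of_mem hi hμ
  refine ⟨(insert l ((T.path J σ).A l ∪ ((T.path J σ).A l).biUnion (T.path J σ).A)).image
    fun μ => T.anc σ (μ + 1), fun τ j => j.elim (if τ = T.anc σ (l + 1) then some none else none)
      fun i => if τ = T.anc σ (y i + 1) then some (A i) else none, ?_, fun ω W w hω g => ?_⟩
  · refine card_image_le.trans ((card_insert_le _ _).trans (Nat.succ_le_succ
      ((card_union_le _ _).trans ?_)))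
    have h1 := hA l (by omega)
    have h2 := card_biUnion_le_card_mul ((T.path J σ).A l) (T.path J σ).A M fun μ hμ =>
      hA μ (by have := hlt l (by omega) μ hμ; omega)
    have h3 := Nat.mul_le_mul_right M h1
    omega
  have ne : ∀ {i j : ℕ}, i < j → j ≤ l → T.anc σ (i + 1) ≠ T.anc σ (j + 1) := fun h1 h2 h3 => by
    have := T.anc_inj (by omega) (by omega) h3; omega
  obtain ⟨k1, k2⟩ := T.hold J ω (R := R) (p₀ := p₀) (σ := σ) (l := l) none none
    (by rw [hω _ (mem_image_of_mem _ (mem_insert_self _ _))]; exact if_pos rfl)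
    (fun μ hμ => by
      have : ω (T.anc σ (μ + 1)) none = none := by
        rw [hω _ (mem_image_of_mem _ (mem_insert_of_mem (mem_union_left _ hμ)))]
        exact if_neg (ne (hlt l (by omega) μ hμ) le_rfl)
      exact ⟨this, this⟩) (Nat.lt_succ_self l) (by omega) fun _ _ _ => by omega
  have k3 : ∀ i, y i ∈ (T.path J σ).A l → (T.run J R p₀ ω (T.anc σ (l + 1))).1.g (some i)
      = lf (T.e (T.anc σ (y i))) (T.e (T.anc σ (y i + 1))) (A i) := fun i hy => by
    have hyl := hlt l (by omega) _ hy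
    refine (T.hold J ω (R := R) (p₀ := p₀) (σ := σ) (l := y i) (some i) (A i)
      (by rw [hω _ (mem_image_of_mem _ (mem_insert_of_mem (mem_union_left _ hy)))]
          exact if_pos rfl) (fun μ hμ => ?_) (by omega) (by omega) fun i' a b =>
        (T.path J σ).mem_of_le (i' := l) (by omega) (by show l ≤ T.dep σ; omega) hy a).2
    have h1 := hlt (y i) (by omega) μ hμ
    rw [hω _ (mem_image_of_mem _ (mem_insert_of_mem (mem_union_right _
      (mem_biUnion.2 ⟨_, hy, hμ⟩))))]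
    exact ⟨if_neg (ne h1 hyl.le), if_neg (ne (h1.trans hyl) le_rfl)⟩
  have fr : ∀ i, l < i → i ≤ b → T.run J R p₀ ω (T.anc σ i) = T.run J R p₀ ω (T.anc σ (l + 1)) :=
    fun i h1 h2 => T.freeze J ω k1 h1 (by omega) fun i' a b => p6 i' a (by omega)
  set st := (T.run J R p₀ ω (T.anc σ (l + 1))).1 with hst
  have inv : st.Inv (valR R) p₀ c := T.run_inv J ω h.hp hc0 h.hc _
  have exw : ∀ i, l < i → i ≤ b → ∀ F, ex (T.wt J R p₀ ω W (T.anc σ i)) F = st.mu (valR R) W F :=
    fun i h1 h2 F => by rw [hst, ← fr i h1 h2, St.mu_eq_ex]; rfl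
  obtain ⟨θ, hθ, hcost⟩ := (g.mart ht).thresholds (N := Fintype.card (I → Bool)) hi.le
    (fun i => card_image_le) fun i => g.psi_mem _ _ _
  let f : ℕ → (V → Bool) → ℝ := fun i η => gtI (θ i) (T.psi J R p₀ ω W σ t (T.dep σ - i) η)
  let q : ℕ → I → V := fun i => if i < T.dep σ then T.eQ (T.anc σ (i + 1)) else fun _ => t
  have fq : ∀ i ≤ T.dep σ, Dep (f i) (Set.range (q i)) := fun i hi => by
    simp only [q]
    split_ifs with h1
    · rw [range_eQ]; exact ((psi_dep ht i).2 h1).comp (gtI (θ i))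
    · have : T.dep σ - i = 0 := by omega
      simp only [f, this, psi]
      exact (dep_xv (Set.mem_range_self (f := fun _ : I => t) (Classical.arbitrary I))).comp
        (gtI (θ i))
  have qS : ∀ i ≤ T.dep σ, ∀ z, (T.path J σ).InS t i (q i z) := fun i hi z => by
    simp only [q]
    split_ifs with h1
    · have : T.eQ (T.anc σ (i + 1)) z ∈ T.Qs (T.anc σ (i + 1)) := by rw [← range_eQ]; exact ⟨z, rfl⟩
      have h2 := this.2
      rw [T.par_anc h1] at h2
      exact Or.inl ⟨h1, h2, this.1⟩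
    · exact Or.inr ⟨by show i = T.dep σ; omega, rfl⟩
  have hM1 : (1 : ℝ) ≤ M := by exact_mod_cast hM0
  have hn1 : (1 : ℝ) ≤ Fintype.card I := by exact_mod_cast Fintype.card_pos
  have hZ := h.hZ
  rw [← hM] at hZ
  have hC := h.hc1
  have hZ0 : (0 : ℝ) < 2 ^ J := by positivity
  have hw : δ / 2 ^ J * (1024 * M * Fintype.card I * (2 * c)) ≤ δ := by
    rw [div_mul_eq_mul_div, div_le_iff₀ hZ0]; exact mul_le_mul_of_nonneg_left hZ h0.le
  have hε : δ / (4 * M) * (4 * M) = δ := by field_simp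
  set u := δ / 2 ^ J with hu
  set ε := δ / (4 * M) with hε'
  have u0 : 0 < u := by positivity
  have hu1 : 256 * (Fintype.card I * (2 * c) * u) ≤ ε := by
    refine le_of_mul_le_mul_right ?_ (show (0 : ℝ) < 4 * M by positivity)
    linarith
  have hu2 : u ≤ Fintype.card I * (2 * c) * u :=
    le_mul_of_one_le_left u0.le (one_le_mul_of_one_le_of_one_le hn1 hC)
  have gl : st.g none = dB ((T.path J σ).E l) := k2
  have far : ∀ z, (T.path J σ).FarP δ l s z → st.Far (256 * (2 * c) * δ) s z := fun z hz => by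
    have h1 : 1024 * (2 * c) ≤ (2 : ℝ) ^ J := by
      have := one_le_mul_of_one_le_of_one_le hM1 hn1
      nlinarith
    have h2 : 256 * (2 * c) * δ ≤ dist z s := by nlinarith [hz.1]
    refine ⟨h2, ?_⟩
    rcases y2 z (lt_of_lt_of_le (by positivity) h2) hz.2 with h3 | ⟨i, h3, h4⟩
    · exact ⟨none, by rwa [gl]⟩
    · exact ⟨some i, by rw [k3 i h3]; exact h4⟩
  have he : st.mu (valR R) W (fun η => |f b η - xv x η|) ≤ 4 * (2 * c) * δ := by
    have h1 := g.sep_psi ht p4' (v := x) fun h1 => T.notU (T.anc_ne h1) (fun h2 => by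
      have := Desc.dep_le h2
      rw [T.dep_anc h1, T.dep_anc p4'] at this; omega) p7
    have h2 := g.sep_le h x t
    rw [dist_comm] at h2
    rw [← exw b p5 le_rfl, ← g.bag _ _ (((psi_dep ht b).1.comp (gtI (θ b))).comp₂ (dep_xv p7)
      fun a b => |a - b|)]
    refine (ex_mono g.nonneg fun η => gtI_le (hθ b) (xv_01 x η)).trans ?_
    rw [ex_cmul, ← h1]
    have : 2 * c * dist t x ≤ 2 * c * δ := by gcongr
    linarith
  have band := St.band inv none hC (inv.lip hc0) h.hp16 h.hR h0 u0.le (W := W)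
    (fun σ' v => by rw [hδ, ← (exists_dB _ t).choose_spec]; exact g.hW _ _ _ _ _) p9
    (by rw [gl]; linarith) (fq a (by omega)) (fq b p4') (fun η => gtI_01 _ _) (fun η => gtI_01 _ _)
    (fun i => by rw [gl]; exact (p11 _ (qS a (by omega) i)).imp_right (far _))
    (fun i => (p12 _ (qS b p4' i)).imp_right (far _)) he
  have tele : st.mu (valR R) W (fun η => |f b η - f a η|) ≤ (g.mart ht).cost θ i₀ (T.dep σ) := by
    rw [← exw b p5 le_rfl]
    refine (ex_mono (g.wt0 _) fun η => abs_tele (fun i => f i η) p3).trans ?_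
    rw [ex_sum]
    refine le_trans (le_of_eq (sum_congr rfl fun i hi => ?_)) (sum_le_sum_of_subset_of_nonneg
      (Ico_subset_Ico p1 p4') fun i _ _ => ex_nonneg (g.wt0 _) fun _ => abs_nonneg _)
    rw [mem_Ico] at hi
    rw [exw b p5 le_rfl]
    exact (exw (i + 1) (by omega) hi.2 _).symm
  have fin : ex ((g.mart ht).w i₀) (fun η => (g.mart ht).Ψ i₀ η * (1 - (g.mart ht).Ψ i₀ η))
      ≤ sepw w v t := by
    rw [g.sep_psi ht hi.le fun _ => hv]
    refine le_trans (le_of_eq (g.bag _ _ ((psi_dep ht i₀).1.comp fun a => a * (1 - a))).symm)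
      (ex_mono g.nonneg fun η => ?_)
    have h1 := g.psi_mem σ t (T.dep σ - i₀) η
    rw [abs_xv_sub _ (xv_01 _ _) h1.1 h1.2]
    rcases xv_01 v η with h2 | h2 <;> rw [h2] <;> nlinarith [h1.1, h1.2]
  have h1 : δ / (128 * M) = ε / 32 := by rw [hε']; field_simp; norm_num
  rw [gl] at band
  refine le_trans ?_ (hcost.trans (mul_le_mul_of_nonneg_left fin (by positivity)))
  linarith

end RTD

end Vale.Agent.P235
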