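import Vale.Agent.P235.Level

/-! Mixing of coordinates and the Gini functional. -/

namespace Vale.Agent.P235

open Finset

section Mix
variable {S U : Type*} [DecidableEq S]

/-- Coordinates in `D` from `w`, the others from `u`. -/
def mix (D : Finset S) (u w : S → U) : S → U := fun j => if j ∈ D then w j else u j

theorem mix_mix (D : Finset S) (u w : S → U) : mix D (mix D u w) (mix D w u) = u := by
  funext j; unfold mix; split_ifs <;> rfl

theorem mix_mix_left (D : Finset S) (u w w' : S → U) : mix D (mix D u w) w' = mix D u w' := by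
  funext j; unfold mix; split_ifs <;> rfl

theorem mix_mix_right (D : Finset S) (u u' w : S → U) : mix D u (mix D u' w) = mix D u w := by
  funext j; unfold mix; split_ifs <;> rfl

variable [Fintype S] [Fintype U]

theorem sum_mix (D : Finset S) (f : (S → U) → ℝ) :
    ∑ u, ∑ w, f (mix D u w) = Fintype.card (S → U) * ∑ u, f u := by
  have h : Function.Involutive fun p : (S → U) × (S → U) => (mix D p.1 p.2, mix D p.2 p.1) :=
    fun p => Prod.ext (mix_mix D p.1 p.2) (mix_mix D p.2 p.1)
  have := h.bijective.sum_comp fun p : (S → U) × (S → U) => f p.1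
  rw [Fintype.sum_prod_type, Fintype.sum_prod_type] at this
  rw [this, mul_sum]
  simp

theorem sum_update (j : S) (f : (S → U) → ℝ) :
    ∑ u, ∑ y, f (Function.update u j y) = Fintype.card U * ∑ u, f u := by
  have h : Function.Involutive fun p : (S → U) × U => (Function.update p.1 j p.2, p.1 j) :=
    fun p => Prod.ext (by simp) (by simp)
  have := h.bijective.sum_comp fun p : (S → U) × U => f p.1
  rw [Fintype.sum_prod_type, Fintype.sum_prod_type] at this
  rw [this, mul_sum]
  simp

theorem sum_coord [Nonempty U] (j : S) {val : U → ℝ} (h : ∑ y, val y = 0) :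
    ∑ w : S → U, val (w j) = 0 := by
  have := sum_update j fun w : S → U => val (w j)
  simp only [Function.update_self, h, sum_const_zero] at this
  have hc : (Fintype.card U : ℝ) ≠ 0 := Nat.cast_ne_zero.2 Fintype.card_ne_zero
  exact (mul_eq_zero.1 this.symm).resolve_left hc

end Mix

/-- The Gini functional. -/
noncomputable def gin {B : Type*} [Fintype B] (p N : B → ℝ) : ℝ :=
  ∑ a, ∑ b, p a * p b * |N a - N b|

theorem gin_nonneg {B : Type*} [Fintype B] {p : B → ℝ} (hp : ∀ b, 0 ≤ p b) (N : B → ℝ) :
    0 ≤ gin p N :=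
  sum_nonneg fun a _ => sum_nonneg fun b _ => mul_nonneg (mul_nonneg (hp a) (hp b)) (abs_nonneg _)

theorem gin_le_two {B : Type*} [Fintype B] {p : B → ℝ} (hp : ∀ b, 0 ≤ p b) (h1 : ∑ b, p b = 1)
    {N : B → ℝ} (hN : ∀ b, |N b| ≤ 1) : gin p N ≤ 2 := by
  have : gin p N ≤ ∑ a, ∑ b, p a * p b * 2 :=
    sum_le_sum fun a _ => sum_le_sum fun b _ =>
      mul_le_mul_of_nonneg_left ((abs_sub _ _).trans (by linarith [hN a, hN b]))
        (mul_nonneg (hp a) (hp b))
  refine this.trans_eq ?_
  simp only [← sum_mul, ← mul_sum, h1]; norm_num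

theorem abs_avg_sub {W : Type*} [Fintype W] [Nonempty W] (f g : W → ℝ) :
    |(∑ w, f w) / Fintype.card W - (∑ w, g w) / Fintype.card W|
      ≤ (∑ w, ∑ w', |f w - g w'|) / Fintype.card W / Fintype.card W := by
  have hc : (0 : ℝ) < Fintype.card W := Nat.cast_pos.2 Fintype.card_pos
  have : (∑ w, f w) / Fintype.card W - (∑ w, g w) / Fintype.card W
      = (∑ w, ∑ w', (f w - g w')) / Fintype.card W / Fintype.card W := by
    simp only [sum_sub_distrib, sum_const, card_univ, nsmul_eq_mul, ← mul_sum]
    field_simp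
  rw [this, abs_div, abs_div, abs_of_pos hc]
  gcongr
  exact (abs_sum_le_sum_abs _ _).trans (sum_le_sum fun w _ => abs_sum_le_sum_abs _ _)

theorem avg_abs_sub {W : Type*} [Fintype W] [Nonempty W] (f : W → ℝ) :
    (∑ w, |f w - (∑ w, f w) / Fintype.card W|) / Fintype.card W
      ≤ (∑ w, ∑ w', |f w - f w'|) / Fintype.card W / Fintype.card W := by
  have hc : (0 : ℝ) < Fintype.card W := Nat.cast_pos.2 Fintype.card_pos
  refine div_le_div_of_nonneg_right ?_ hc.le
  rw [sum_div _ (fun w => ∑ w', |f w - f w'|)]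
  refine sum_le_sum fun w _ => ?_
  have : f w - (∑ w, f w) / Fintype.card W = (∑ w', (f w - f w')) / Fintype.card W := by
    simp only [sum_sub_distrib, sum_const, card_univ, nsmul_eq_mul]
    field_simp
  rw [this, abs_div, abs_of_pos hc]
  exact div_le_div_of_nonneg_right (abs_sum_le_sum_abs _ _) hc.le

/-- Averaging along a measure preserving kernel lowers the Gini functional. -/
theorem gin_refine {B W : Type*} [Fintype B] [Fintype W] [Nonempty W] {p : B → ℝ}
    (hp : ∀ b, 0 ≤ p b) (T : B → W → B)
    (hT : ∀ φ : B → ℝ, ∑ b, p b * ((∑ w, φ (T b w)) / Fintype.card W) = ∑ b, p b * φ b)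
    (N : B → ℝ) :
    gin p (fun b => (∑ w, N (T b w)) / Fintype.card W) + ∑ b, p b * p b *
      ((∑ w, |N (T b w) - (∑ w, N (T b w)) / Fintype.card W|) / Fintype.card W) ≤ gin p N := by
  classical
  have e : gin p N = ∑ a, ∑ b, p a * p b *
      ((∑ w, ∑ w', |N (T a w) - N (T b w')|) / Fintype.card W / Fintype.card W) := by
    have e1 : gin p N = ∑ a, p a * ∑ b, p b * |N a - N b| := by
      unfold gin; simp only [mul_sum, mul_assoc]
    rw [e1, ← hT]
    refine sum_congr rfl fun a _ => ?_
    have e2 : ∀ w, ∑ b, p b * |N (T a w) - N b|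
        = ∑ b, p b * ((∑ w', |N (T a w) - N (T b w')|) / Fintype.card W) := fun w =>
      (hT fun b => |N (T a w) - N b|).symm
    simp only [e2]
    rw [sum_comm, sum_div, mul_sum]
    refine sum_congr rfl fun b _ => ?_
    rw [← mul_sum, ← sum_div]; ring
  rw [e]
  unfold gin
  rw [← sum_add_distrib]
  refine sum_le_sum fun a _ => ?_
  rw [← add_sum_erase _ _ (mem_univ a), ← add_sum_erase _ _ (mem_univ a)]
  have h1 := mul_le_mul_of_nonneg_left (avg_abs_sub fun w => N (T a w)) (mul_nonneg (hp a) (hp a))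
  have h2 := sum_le_sum (s := univ.erase a) fun b _ => mul_le_mul_of_nonneg_left
    (abs_avg_sub (fun w => N (T a w)) fun w => N (T b w)) (mul_nonneg (hp a) (hp b))
  simp only [sub_self, abs_zero, mul_zero, zero_add]
  linarith

end Vale.Agent.P235
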