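import Vale.Agent.P235.Level

/-! Markov gluing of consistent cut measures along a rooted tree. -/

namespace Vale.Agent.P235

open Finset Classical

set_option linter.unusedSectionVars false

section Kernel
variable {V : Type*} [Fintype V] [DecidableEq V]

def Agree (S : Set V) (η ζ : V → Bool) : Prop := ∀ v ∈ S, η v = ζ v

noncomputable def zm (m : (V → Bool) → ℝ) (S : Set V) (η : V → Bool) : ℝ :=
  ∑ ζ, if Agree S η ζ then m ζ else 0

noncomputable def ker (m : (V → Bool) → ℝ) (S : Set V) (η ζ : V → Bool) : ℝ :=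
  if zm m S η = 0 then (if ζ = fun v => if v ∈ S then η v else false then 1 else 0)
  else (if Agree S η ζ then m ζ else 0) / zm m S η

noncomputable def mixS (U : Set V) (η ζ : V → Bool) : V → Bool :=
  fun v => if v ∈ U then ζ v else η v

noncomputable def kop (m : (V → Bool) → ℝ) (Q U : Set V) (F : (V → Bool) → ℝ) (η : V → Bool) : ℝ :=
  ∑ ζ, ker m Q η ζ * F (mixS U η ζ)

variable {m : (V → Bool) → ℝ} {Q U B T : Set V}

theorem zm_nonneg (hm : ∀ η, 0 ≤ m η) (η : V → Bool) : 0 ≤ zm m Q η :=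
  sum_nonneg fun ζ _ => by split_ifs; exacts [hm ζ, le_rfl]

theorem ker_nonneg (hm : ∀ η, 0 ≤ m η) (η ζ : V → Bool) : 0 ≤ ker m Q η ζ := by
  unfold ker
  split_ifs
  · norm_num
  · rfl
  · exact div_nonneg (hm _) (zm_nonneg hm _)
  · simp

theorem ker_sum (η : V → Bool) : ∑ ζ, ker m Q η ζ = 1 := by
  unfold ker
  split_ifs with h
  · simp
  · rw [← sum_div]; exact div_self h

theorem ker_agree {η ζ : V → Bool} (h : ker m Q η ζ ≠ 0) : Agree Q η ζ := by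
  by_contra h1
  apply h
  unfold ker
  rw [if_neg h1, zero_div]
  split_ifs with h2 h3
  · exact absurd (fun v hv => by rw [h3]; simp [hv]) h1
  · rfl
  · rfl

theorem agree_iff {η η' : V → Bool} (h : Agree Q η η') (ζ : V → Bool) :
    Agree Q η ζ ↔ Agree Q η' ζ :=
  ⟨fun h1 v hv => (h v hv).symm.trans (h1 v hv), fun h1 v hv => (h v hv).trans (h1 v hv)⟩

theorem zm_congr {η η' : V → Bool} (h : Agree Q η η') : zm m Q η = zm m Q η' := by
  unfold zm; simp only [agree_iff h]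

theorem ker_congr {η η' : V → Bool} (h : Agree Q η η') (ζ : V → Bool) :
    ker m Q η ζ = ker m Q η' ζ := by
  have : (fun v => if v ∈ Q then η v else false) = fun v => if v ∈ Q then η' v else false := by
    funext v; split_ifs with hv; exacts [h v hv, rfl]
  unfold ker
  rw [zm_congr h, this, agree_iff h]

theorem kop_pull {ψ : (V → Bool) → ℝ} (hψ : Dep ψ Uᶜ) (φ : (V → Bool) → ℝ) :
    kop m Q U (fun η => φ η * ψ η) = fun η => kop m Q U φ η * ψ η := by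
  funext η
  unfold kop
  rw [sum_mul]
  refine sum_congr rfl fun ζ _ => ?_
  beta_reduce
  rw [hψ (mixS U η ζ) η fun v hv => if_neg hv, mul_assoc]

theorem kop_id {ψ : (V → Bool) → ℝ} (hψ : Dep ψ Uᶜ) : kop m Q U ψ = ψ := by
  have := kop_pull (m := m) (Q := Q) hψ fun _ => 1
  simp only [one_mul] at this
  rw [this]
  funext η
  simp [kop, ker_sum]

theorem kop_dep {φ : (V → Bool) → ℝ} (hφ : Dep φ Tᶜ) (hQ : Q ⊆ Tᶜ) : Dep (kop m Q U φ) Tᶜ := by
  intro η η' h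
  refine sum_congr rfl fun ζ _ => ?_
  rw [ker_congr fun v hv => h v (hQ hv), hφ (mixS U η ζ) (mixS U η' ζ)]
  intro v hv
  unfold mixS
  split_ifs; exacts [rfl, h v hv]

theorem kop_bag {ψ : (V → Bool) → ℝ} (hψ : Dep ψ B) (hB : B ⊆ U ∪ Q) (η : V → Bool) :
    kop m Q U ψ η = ∑ ζ, ker m Q η ζ * ψ ζ := by
  refine sum_congr rfl fun ζ _ => ?_
  by_cases h : ker m Q η ζ = 0
  · simp [h]
  · rw [hψ (mixS U η ζ) ζ]
    intro v hv
    unfold mixS
    split_ifs with h1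
    · rfl
    · exact ker_agree h v ((hB hv).resolve_left h1)

theorem kop_dep_bag {ψ : (V → Bool) → ℝ} (hψ : Dep ψ B) (hB : B ⊆ U ∪ Q) :
    Dep (kop m Q U ψ) Q := fun η η' h => by
  rw [kop_bag hψ hB, kop_bag hψ hB]
  exact sum_congr rfl fun ζ _ => by rw [ker_congr h]

theorem kop_mem (hm : ∀ η, 0 ≤ m η) {ψ : (V → Bool) → ℝ} (h : ∀ η, 0 ≤ ψ η ∧ ψ η ≤ 1)
    (η : V → Bool) : 0 ≤ kop m Q U ψ η ∧ kop m Q U ψ η ≤ 1 :=
  ⟨sum_nonneg fun _ _ => mul_nonneg (ker_nonneg hm _ _) (h _).1,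
    (sum_le_sum fun _ _ => mul_le_of_le_one_right (ker_nonneg hm _ _) (h _).2).trans_eq
      (ker_sum η)⟩

theorem ex_kop (hm : ∀ η, 0 ≤ m η) {ψ : (V → Bool) → ℝ} (hψ : Dep ψ B) (hB : B ⊆ U ∪ Q) :
    ex m (kop m Q U ψ) = ex m ψ := by
  have z0 : ∀ η, zm m Q η = 0 → m η = 0 := fun η h => by
    have := (sum_eq_zero_iff_of_nonneg fun ζ _ => by split_ifs; exacts [hm ζ, le_rfl]).1 h η
      (mem_univ _)
    rwa [if_pos (show Agree Q η η from fun _ _ => rfl)] at this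
  unfold ex
  simp only [kop_bag hψ hB, mul_sum]
  rw [sum_comm]
  refine sum_congr rfl fun ζ _ => ?_
  have e : ∀ η, m η * (ker m Q η ζ * ψ ζ)
      = (if Agree Q ζ η then m η else 0) / zm m Q ζ * (m ζ * ψ ζ) := fun η => by
    by_cases h : Agree Q η ζ
    · have h' : Agree Q ζ η := fun v hv => (h v hv).symm
      rw [if_pos h']
      by_cases h0 : zm m Q η = 0
      · simp [z0 η h0]
      · simp only [ker, if_neg h0, if_pos h, zm_congr h']; ring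
    · have h' : ¬ Agree Q ζ η := fun h1 => h fun v hv => (h1 v hv).symm
      have : ker m Q η ζ = 0 := by by_contra h1; exact h (ker_agree h1)
      simp [if_neg h', this]
  simp only [e]
  rw [← sum_mul, ← sum_div]
  by_cases h0 : zm m Q ζ = 0
  · simp [z0 ζ h0]
  · have : (∑ η, if Agree Q ζ η then m η else 0) = zm m Q ζ := rfl
    rw [this, div_self h0, one_mul]

theorem exists_push (hm : ∀ η, 0 ≤ m η) {w : (V → Bool) → ℝ} (hw : ∀ η, 0 ≤ w η) :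
    ∃ w' : (V → Bool) → ℝ, (∀ η, 0 ≤ w' η) ∧ ∀ F, ex w (kop m Q U F) = ex w' F := by
  refine ⟨fun ξ => ∑ η, ∑ ζ, if mixS U η ζ = ξ then w η * ker m Q η ζ else 0, fun ξ =>
    sum_nonneg fun η _ => sum_nonneg fun ζ _ => ?_, fun F => ?_⟩
  · split_ifs; exacts [mul_nonneg (hw _) (ker_nonneg hm _ _), le_rfl]
  · unfold ex kop
    simp only [mul_sum, sum_mul]
    rw [sum_comm (s := univ) (t := univ) (f := fun ξ η => ∑ ζ,
      (if mixS U η ζ = ξ then w η * ker m Q η ζ else 0) * F ξ)]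
    refine sum_congr rfl fun η _ => ?_
    rw [sum_comm]
    refine sum_congr rfl fun ζ _ => ?_
    simp [mul_assoc]

end Kernel

/-- The combinatorial data needed for gluing. -/
structure GlueD (V ι : Type*) where
  B : ι → Set V
  Q : ι → Set V
  U : ι → Set V
  par : ι → ι
  dep : ι → ℕ
  root : ι
  dep_par : ∀ τ ≠ root, dep τ = dep (par τ) + 1
  QB : ∀ τ, Q τ ⊆ B τ
  QP : ∀ τ ≠ root, Q τ ⊆ B (par τ)
  BU : ∀ τ, B τ ⊆ U τ ∪ Q τ
  QU : ∀ τ, Q τ ⊆ (U τ)ᶜ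
  UB : ∀ σ ≠ root, ∀ τ, σ ≠ τ → dep τ ≤ dep σ → B τ ⊆ (U σ)ᶜ
  rootB : ∀ σ ≠ root, B root ⊆ (U σ)ᶜ
  UU : ∀ σ ≠ root, ∀ τ ≠ root, σ ≠ τ → dep τ ≤ dep σ → U σ ⊆ U τ ∨ Q σ ⊆ (U τ)ᶜ

namespace GlueD

variable {V ι : Type*} [Fintype V] [DecidableEq V] (g : GlueD V ι) (m : ι → (V → Bool) → ℝ)

noncomputable def K (τ : ι) : ((V → Bool) → ℝ) → (V → Bool) → ℝ := kop (m τ) (g.Q τ) (g.U τ)

noncomputable def KL (L : List ι) (F : (V → Bool) → ℝ) : (V → Bool) → ℝ := L.foldr (g.K m) F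

theorem KL_push (hm : ∀ τ η, 0 ≤ m τ η) (L : List ι) : ∀ w : (V → Bool) → ℝ, (∀ η, 0 ≤ w η) →
    ∃ w' : (V → Bool) → ℝ, (∀ η, 0 ≤ w' η) ∧ ∀ F, ex w (g.KL m L F) = ex w' F := by
  induction L with
  | nil => exact fun w hw => ⟨w, hw, fun _ => rfl⟩
  | cons τ L ih =>
    intro w hw
    obtain ⟨w₁, h1, h2⟩ := exists_push (Q := g.Q τ) (U := g.U τ) (hm τ) hw
    obtain ⟨w₂, h3, h4⟩ := ih w₁ h1
    exact ⟨w₂, h3, fun F => (h2 _).trans (h4 F)⟩

theorem KL_pull (L : List ι) {ψ : (V → Bool) → ℝ} (h : ∀ σ ∈ L, Dep ψ (g.U σ)ᶜ)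
    (φ : (V → Bool) → ℝ) : g.KL m L (fun η => φ η * ψ η) = fun η => g.KL m L φ η * ψ η := by
  induction L with
  | nil => rfl
  | cons τ L ih =>
    have := ih fun σ hσ => h σ (List.mem_cons_of_mem _ hσ)
    simp only [KL, List.foldr_cons] at this ⊢
    rw [this]
    exact kop_pull (h τ List.mem_cons_self) _

theorem KL_id (L : List ι) {ψ : (V → Bool) → ℝ} (h : ∀ σ ∈ L, Dep ψ (g.U σ)ᶜ) :
    g.KL m L ψ = ψ := by
  induction L with
  | nil => rfl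
  | cons τ L ih =>
    have := ih fun σ hσ => h σ (List.mem_cons_of_mem _ hσ)
    simp only [KL, List.foldr_cons] at this ⊢
    rw [this]
    exact kop_id (h τ List.mem_cons_self)

theorem KL_dep (L : List ι) {T : Set V} (h : ∀ σ ∈ L, g.U σ ⊆ T ∨ g.Q σ ⊆ Tᶜ)
    {φ : (V → Bool) → ℝ} (hφ : Dep φ Tᶜ) : Dep (g.KL m L φ) Tᶜ := by
  induction L with
  | nil => exact hφ
  | cons τ L ih =>
    have := ih fun σ hσ => h σ (List.mem_cons_of_mem _ hσ)
    simp only [KL, List.foldr_cons] at this ⊢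
    rcases h τ List.mem_cons_self with h1 | h1
    · rw [K, kop_id (this.mono (Set.compl_subset_compl.2 h1))]
      exact this
    · exact kop_dep this h1

theorem glue [Fintype ι] (hm : ∀ τ η, 0 ≤ m τ η)
    (hc : ∀ τ ≠ g.root, ∀ F, Dep F (g.Q τ) → ex (m τ) F = ex (m (g.par τ)) F) :
    ∃ w : (V → Bool) → ℝ, (∀ η, 0 ≤ w η) ∧ (∀ τ F, Dep F (g.B τ) → ex w F = ex (m τ) F) ∧
      ∀ τ ≠ g.root, ∀ φ ψ, Dep φ (g.U τ)ᶜ → Dep ψ (g.B τ) →
        ex w (fun η => φ η * ψ η) = ex w fun η => φ η * g.K m τ ψ η := by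
  obtain ⟨L, hL, hN, hP⟩ : ∃ L : List ι, (∀ τ, τ ∈ L ↔ τ ≠ g.root) ∧ L.Nodup ∧
      L.Pairwise fun a b => g.dep a ≤ g.dep b := by
    let L₀ := (univ.filter fun τ => τ ≠ g.root).toList
    have hp := List.perm_insertionSort (fun a b => g.dep a ≤ g.dep b) L₀
    have : Std.Total fun a b => g.dep a ≤ g.dep b := ⟨fun a b => le_total _ _⟩
    have : IsTrans ι fun a b => g.dep a ≤ g.dep b := ⟨fun a b c => le_trans⟩
    exact ⟨_, fun τ => by rw [hp.mem_iff]; simp [L₀], hp.nodup_iff.2 (nodup_toList _),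
      List.pairwise_insertionSort _ _⟩
  obtain ⟨w, hw, hw'⟩ := g.KL_push m hm L (m g.root) (hm _)
  have G1 : ∀ τ ≠ g.root, ∀ φ ψ, Dep φ (g.U τ)ᶜ → Dep ψ (g.B τ) →
      ex w (fun η => φ η * ψ η) = ex w fun η => φ η * g.K m τ ψ η := by
    intro τ hτ φ ψ hφ hψ
    obtain ⟨L₁, L₂, rfl⟩ := List.append_of_mem ((hL τ).2 hτ)
    have h1 : ∀ σ ∈ L₂, σ ≠ g.root ∧ σ ≠ τ ∧ g.dep τ ≤ g.dep σ := fun σ hσ =>
      ⟨(hL σ).1 (by simp [hσ]), fun h => (List.nodup_cons.1 hN.of_append_right).1 (h ▸ hσ),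
        List.rel_of_pairwise_cons (List.pairwise_append.1 hP).2.1 hσ⟩
    have hK : Dep (g.K m τ ψ) (g.Q τ) := kop_dep_bag hψ (g.BU τ)
    have h2 : ∀ σ ∈ L₂, g.B τ ⊆ (g.U σ)ᶜ := fun σ hσ =>
      g.UB σ (h1 σ hσ).1 τ (h1 σ hσ).2.1 (h1 σ hσ).2.2
    have h3 := g.KL_dep m L₂ (fun σ hσ => g.UU σ (h1 σ hσ).1 τ hτ (h1 σ hσ).2.1 (h1 σ hσ).2.2) hφ
    have e : ∀ F, g.KL m (L₁ ++ τ :: L₂) F = g.KL m L₁ (g.K m τ (g.KL m L₂ F)) := fun F => by
      simp only [KL, List.foldr_append, List.foldr_cons]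
    rw [← hw', ← hw', e, e, g.KL_pull m L₂ fun σ hσ => hψ.mono (h2 σ hσ),
      g.KL_pull m L₂ fun σ hσ => (hK.mono (g.QB τ)).mono (h2 σ hσ)]
    congr 2
    simp only [mul_comm (g.KL m L₂ φ _)]
    unfold K at hK ⊢
    rw [kop_pull h3, kop_pull h3, kop_id (hK.mono (g.QU τ))]
  refine ⟨w, hw, fun τ => ?_, G1⟩
  induction h : g.dep τ using Nat.strong_induction_on generalizing τ with
  | _ n ih =>
  intro F hF
  by_cases hτ : τ = g.root
  · subst hτ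
    rw [← hw', g.KL_id m L fun σ hσ => hF.mono (g.rootB σ ((hL σ).1 hσ))]
  · have h1 := G1 τ hτ (fun _ => 1) F (fun _ _ _ => rfl) hF
    simp only [one_mul] at h1
    have hK : Dep (g.K m τ F) (g.Q τ) := kop_dep_bag hF (g.BU τ)
    have h2 := ih (g.dep (g.par τ)) (by rw [← h, g.dep_par τ hτ]; omega) _ rfl _
      (hK.mono (g.QP τ hτ))
    exact h1.trans (h2.trans ((hc τ hτ _ hK).symm.trans (ex_kop (hm τ) hF (g.BU τ))))

end GlueD

end Vale.Agent.P235
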