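import Mathlib

/-! Level sets of real functions on a finite set and the integral of a cut functional. -/

namespace Vale.Agent.P235

open MeasureTheory Finset

variable {V : Type*}

/-- The level set of `G` at height `t`. -/
noncomputable def cut (G : V → ℝ) (t : ℝ) : V → Bool := fun v => decide (t ≤ G v)

/-- Integral of `F` over the level sets of `G` with heights in `(lo, hi]`. -/
noncomputable def lev (G : V → ℝ) (lo hi : ℝ) (F : (V → Bool) → ℝ) : ℝ :=
  ∫ t in lo..hi, F (cut G t)

/-- `F` depends only on the coordinates in `S`. -/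
def Dep (F : (V → Bool) → ℝ) (S : Set V) : Prop :=
  ∀ η η', (∀ v ∈ S, η v = η' v) → F η = F η'

/-- Indicator of a vertex. -/
noncomputable def xv (v : V) (η : V → Bool) : ℝ := if η v = true then 1 else 0

/-- Step function. -/
noncomputable def stp (α t : ℝ) : ℝ := if t ≤ α then 1 else 0

/-- Weighted sum. -/
noncomputable def ex {X : Type*} [Fintype X] (w F : X → ℝ) : ℝ := ∑ η, w η * F η

section Ex
variable {X : Type*} [Fintype X] {w : X → ℝ}

theorem ex_add (w F G : X → ℝ) : ex w (fun η => F η + G η) = ex w F + ex w G := by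
  simp [ex, mul_add, sum_add_distrib]

theorem ex_sub (w F G : X → ℝ) : ex w (fun η => F η - G η) = ex w F - ex w G := by
  simp [ex, mul_sub, sum_sub_distrib]

theorem ex_cmul (w F : X → ℝ) (c : ℝ) : ex w (fun η => c * F η) = c * ex w F := by
  simp only [ex, mul_sum]; exact sum_congr rfl fun η _ => by ring

theorem ex_mono (hw : ∀ η, 0 ≤ w η) {F G : X → ℝ} (h : ∀ η, F η ≤ G η) : ex w F ≤ ex w G :=
  sum_le_sum fun η _ => mul_le_mul_of_nonneg_left (h η) (hw η)

theorem ex_nonneg (hw : ∀ η, 0 ≤ w η) {F : X → ℝ} (h : ∀ η, 0 ≤ F η) : 0 ≤ ex w F :=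
  sum_nonneg fun η _ => mul_nonneg (hw η) (h η)

theorem ex_zero (w : X → ℝ) : ex w (fun _ => 0) = 0 := by simp [ex]

theorem ex_sum {ι : Type*} (s : Finset ι) (w : X → ℝ) (F : ι → X → ℝ) :
    ex w (fun η => ∑ i ∈ s, F i η) = ∑ i ∈ s, ex w (F i) := by
  simp only [ex, mul_sum]; exact sum_comm

theorem ex_congr (w : X → ℝ) {F G : X → ℝ} (h : ∀ η, F η = G η) : ex w F = ex w G := by
  have : F = G := funext h
  rw [this]

end Ex

theorem Dep.mono {F : (V → Bool) → ℝ} {S T : Set V} (h : Dep F S) (hST : S ⊆ T) : Dep F T :=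
  fun η η' e => h η η' fun v hv => e v (hST hv)

theorem Dep.comp {F : (V → Bool) → ℝ} {S : Set V} (h : Dep F S) (φ : ℝ → ℝ) :
    Dep (fun η => φ (F η)) S := fun η η' e => by simp only [h η η' e]

theorem Dep.comp₂ {F G : (V → Bool) → ℝ} {S : Set V} (h : Dep F S) (h' : Dep G S)
    (φ : ℝ → ℝ → ℝ) : Dep (fun η => φ (F η) (G η)) S :=
  fun η η' e => by simp only [h η η' e, h' η η' e]

theorem dep_xv {v : V} {S : Set V} (hv : v ∈ S) : Dep (xv v) S :=
  fun η η' e => by simp only [xv, e v hv]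

theorem xv_cut (G : V → ℝ) (t : ℝ) (v : V) : xv v (cut G t) = stp (G v) t := by
  simp [xv, cut, stp]

theorem xv_01 (v : V) (η : V → Bool) : xv v η = 0 ∨ xv v η = 1 := by
  unfold xv; split_ifs <;> simp

theorem stp_01 (α t : ℝ) : stp α t = 0 ∨ stp α t = 1 := by
  unfold stp; split_ifs <;> simp

theorem measurable_cut [Finite V] (G : V → ℝ) : Measurable (cut G) := by
  refine measurable_pi_lambda _ fun v => ?_
  refine measurable_to_bool ?_
  have : (fun t : ℝ => cut G t v) ⁻¹' {true} = Set.Iic (G v) := by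
    ext t; simp [cut]
  rw [this]; exact measurableSet_Iic

theorem lev_int [Finite V] (G : V → ℝ) (F : (V → Bool) → ℝ) (lo hi : ℝ) :
    IntervalIntegrable (fun t => F (cut G t)) volume lo hi := by
  obtain ⟨M, hM⟩ := (Set.finite_range fun η => ‖F η‖).bddAbove
  have hm : Measurable fun t => F (cut G t) :=
    (Measurable.of_discrete (f := F)).comp (measurable_cut G)
  refine (intervalIntegrable_const (c := M)).mono_fun' hm.aestronglyMeasurable ?_
  exact Filter.Eventually.of_forall fun t => hM ⟨_, rfl⟩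

theorem stp_int (α lo hi : ℝ) : IntervalIntegrable (stp α) volume lo hi := by
  have := lev_int (fun _ : Unit => α) (xv ()) lo hi
  simpa only [xv_cut] using this

theorem stp_integral {y lo hi : ℝ} (h1 : lo ≤ y) (h2 : y ≤ hi) :
    ∫ t in lo..hi, stp y t = y - lo := by
  rw [← intervalIntegral.integral_add_adjacent_intervals (stp_int y lo y) (stp_int y y hi)]
  have e1 : ∫ t in lo..y, stp y t = ∫ _ in lo..y, (1 : ℝ) := by
    rw [intervalIntegral.integral_of_le h1, intervalIntegral.integral_of_le h1]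
    exact setIntegral_congr_fun measurableSet_Ioc fun t ht => by simp [stp, ht.2]
  have e2 : ∫ t in y..hi, stp y t = ∫ _ in y..hi, (0 : ℝ) := by
    rw [intervalIntegral.integral_of_le h2, intervalIntegral.integral_of_le h2]
    exact setIntegral_congr_fun measurableSet_Ioc fun t ht => by simp [stp, not_le.2 ht.1]
  rw [e1, e2]; simp

theorem stp_integral_clamp {lo hi : ℝ} (h : lo ≤ hi) (y : ℝ) :
    ∫ t in lo..hi, stp y t = max lo (min y hi) - lo := by
  rw [← stp_integral (y := max lo (min y hi)) (le_max_left _ _)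
    (max_le h (min_le_right _ _)), intervalIntegral.integral_of_le h,
    intervalIntegral.integral_of_le h]
  refine setIntegral_congr_fun measurableSet_Ioc fun t ht => ?_
  have h1 := ht.1
  have h2 := ht.2
  unfold stp
  by_cases hy : t ≤ y
  · have : t ≤ max lo (min y hi) := le_max_of_le_right (le_min hy h2)
    simp only [hy, this]
  · have : ¬ t ≤ max lo (min y hi) := by
      rw [not_le] at hy ⊢
      exact max_lt h1 (lt_of_le_of_lt (min_le_left _ _) hy)
    simp only [hy, this]

theorem abs_stp_aux {α β : ℝ} (h : β ≤ α) (t : ℝ) :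
    |stp α t - stp β t| = stp α t - stp β t := by
  apply abs_of_nonneg
  unfold stp
  split_ifs with h1 h2 h2
  · simp
  · simp
  · exact absurd (h2.trans h) h1
  · simp

theorem stp_abs_int (α β lo hi : ℝ) :
    IntervalIntegrable (fun t => |stp α t - stp β t|) volume lo hi :=
  ((stp_int α lo hi).sub (stp_int β lo hi)).abs

theorem stp_abs_le {lo hi : ℝ} (h : lo ≤ hi) (α β : ℝ) :
    ∫ t in lo..hi, |stp α t - stp β t| ≤ |α - β| := by
  wlog hab : β ≤ α generalizing α β
  · have := this β α (le_of_not_ge hab)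
    simpa only [abs_sub_comm] using this
  simp only [abs_stp_aux hab]
  rw [intervalIntegral.integral_sub (stp_int _ _ _) (stp_int _ _ _), stp_integral_clamp h,
    stp_integral_clamp h, abs_of_nonneg (sub_nonneg.2 hab)]
  simp only [max_def, min_def]
  split_ifs <;> linarith

theorem stp_abs_eq {lo hi α β : ℝ} (h1 : lo ≤ α) (h2 : α ≤ hi) (h3 : lo ≤ β) (h4 : β ≤ hi) :
    ∫ t in lo..hi, |stp α t - stp β t| = |α - β| := by
  wlog hab : β ≤ α generalizing α β
  · have := this h3 h4 h1 h2 (le_of_not_ge hab)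
    simpa only [abs_sub_comm] using this
  simp only [abs_stp_aux hab]
  rw [intervalIntegral.integral_sub (stp_int _ _ _) (stp_int _ _ _), stp_integral h1 h2,
    stp_integral h3 h4, abs_of_nonneg (sub_nonneg.2 hab)]
  ring

theorem lev_sep_le (G : V → ℝ) {lo hi : ℝ} (h : lo ≤ hi) (y z : V) :
    lev G lo hi (fun η => |xv y η - xv z η|) ≤ |G y - G z| := by
  simp only [lev, xv_cut]; exact stp_abs_le h _ _

theorem lev_sep_eq (G : V → ℝ) {W : ℝ} {y z : V} (hy : |G y| ≤ W) (hz : |G z| ≤ W) :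
    lev G (-W) W (fun η => |xv y η - xv z η|) = |G y - G z| := by
  simp only [lev, xv_cut]
  exact stp_abs_eq (abs_le.1 hy).1 (abs_le.1 hy).2 (abs_le.1 hz).1 (abs_le.1 hz).2

theorem lev_nonneg (G : V → ℝ) {lo hi : ℝ} (h : lo ≤ hi) {F : (V → Bool) → ℝ}
    (hF : ∀ η, 0 ≤ F η) : 0 ≤ lev G lo hi F :=
  intervalIntegral.integral_nonneg h fun _ _ => hF _

theorem lev_eq_ex [Fintype V] [DecidableEq V] (G : V → ℝ) (lo hi : ℝ) (F : (V → Bool) → ℝ) :
    lev G lo hi F = ex (fun η => lev G lo hi fun ζ => if ζ = η then 1 else 0) F := by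
  unfold ex lev
  have : ∀ η : V → Bool, (∫ t in lo..hi, if cut G t = η then (1 : ℝ) else 0) * F η
      = ∫ t in lo..hi, (if cut G t = η then (1 : ℝ) else 0) * F η := fun η =>
    (intervalIntegral.integral_mul_const _ _).symm
  simp only [this]
  rw [← intervalIntegral.integral_finsetSum]
  · congr 1; funext t; simp
  · intro η _
    exact lev_int G (fun ζ => (if ζ = η then (1 : ℝ) else 0) * F η) lo hi

/-- A window of a shifted function is a part of the full integral. -/
theorem lev_window [Finite V] (G : V → ℝ) {W H c : ℝ} (hH : 0 ≤ H) (hc : |c| + H ≤ W)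
    {F : (V → Bool) → ℝ} (hF : ∀ η, 0 ≤ F η) :
    lev (fun v => G v - c) (-H) H F ≤ lev G (-W) W F := by
  have e : lev (fun v => G v - c) (-H) H F = lev G (-H + c) (H + c) F := by
    unfold lev
    rw [← intervalIntegral.integral_comp_add_right (fun t => F (cut G t)) c]
    congr 1; funext t; congr 1; funext v
    simp only [cut]; congr 1; exact propext le_sub_iff_add_le
  rw [e]
  have := abs_le.1 (le_refl |c|)
  refine intervalIntegral.integral_mono_interval (by linarith [this.1]) (by linarith)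
    (by linarith [this.2]) (Filter.Eventually.of_forall fun t => hF _) (lev_int _ _ _ _)

/-- On functions inducing a fixed order, the level integral is affine. -/
theorem lev_affine [Finite V] [DecidableEq V] (G₀ : V → ℝ) (Q : Finset V) :
    ∀ F : (V → Bool) → ℝ, Dep F Q → ∃ (c : V → ℝ) (cl ch : ℝ), ∀ (G : V → ℝ) (lo hi : ℝ),
      lo ≤ hi → (∀ q ∈ Q, lo ≤ G q ∧ G q ≤ hi) →
      (∀ q ∈ Q, ∀ q' ∈ Q, G₀ q ≤ G₀ q' → G q ≤ G q') →
      lev G lo hi F = ∑ q ∈ Q, c q * G q + cl * lo + ch * hi := by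
  induction Q using Finset.strongInduction with
  | H Q ih =>
  intro F hF
  rcases Q.eq_empty_or_nonempty with rfl | hne
  · refine ⟨fun _ => 0, -F (fun _ => true), F (fun _ => true), fun G lo hi _ _ _ => ?_⟩
    have : ∀ t, F (cut G t) = F fun _ => true := fun t => hF _ _ (by simp)
    simp only [lev, this]; simp; ring
  obtain ⟨q₀, hq₀, hmin⟩ := Q.exists_min_image G₀ hne
  obtain ⟨c, cl, ch, hc⟩ := ih (Q.erase q₀) (erase_ssubset hq₀)
    (fun η => F (Function.update η q₀ false)) (fun η η' e => hF _ _ fun v hv => by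
      by_cases h : v = q₀
      · subst h; simp
      · simp only [Function.update_of_ne h]
        exact e v (mem_coe.2 (mem_erase.2 ⟨h, hv⟩)))
  refine ⟨Function.update c q₀ (cl + F fun _ => true), -F (fun _ => true), ch,
    fun G lo hi hlh hb ho => ?_⟩
  have h0 := hb q₀ hq₀
  have hge : ∀ q ∈ Q, G q₀ ≤ G q := fun q hq => ho _ hq₀ _ hq (hmin q hq)
  have e := hc G (G q₀) hi h0.2
    (fun q hq => ⟨hge q (mem_of_mem_erase hq), (hb q (mem_of_mem_erase hq)).2⟩)
    (fun q hq q' hq' => ho q (mem_of_mem_erase hq) q' (mem_of_mem_erase hq'))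
  have e1 : lev G lo (G q₀) F = ∫ _ in lo..G q₀, F fun _ => true := by
    unfold lev
    rw [intervalIntegral.integral_of_le h0.1, intervalIntegral.integral_of_le h0.1]
    refine setIntegral_congr_fun measurableSet_Ioc fun t ht => hF _ _ fun v hv => ?_
    simpa [cut] using ht.2.trans (hge v hv)
  have e2 : lev G (G q₀) hi F = lev G (G q₀) hi fun η => F (Function.update η q₀ false) := by
    unfold lev
    rw [intervalIntegral.integral_of_le h0.2, intervalIntegral.integral_of_le h0.2]
    refine setIntegral_congr_fun measurableSet_Ioc fun t ht => hF _ _ fun v _ => ?_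
    by_cases h : v = q₀
    · subst h; simpa [cut] using ht.1
    · simp only [Function.update_of_ne h]
  have e3 : lev G lo hi F = lev G lo (G q₀) F + lev G (G q₀) hi F :=
    (intervalIntegral.integral_add_adjacent_intervals (lev_int _ _ _ _) (lev_int _ _ _ _)).symm
  have e4 : ∑ q ∈ Q.erase q₀, Function.update c q₀ (cl + F fun _ => true) q * G q
      = ∑ q ∈ Q.erase q₀, c q * G q :=
    sum_congr rfl fun q hq => by rw [Function.update_of_ne (ne_of_mem_erase hq)]
  rw [e3, e1, e2, e, ← add_sum_erase Q _ hq₀, e4]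
  simp; ring

/-- Averaging functions that induce the same order on `Q`. -/
theorem lev_avg [Finite V] [DecidableEq V] {ι : Type*} (s : Finset ι) (p : ι → ℝ)
    (hp : ∀ i ∈ s, 0 ≤ p i) (G : ι → V → ℝ) (Gb : V → ℝ) (Q : Finset V) {W : ℝ} (hW : 0 ≤ W)
    (hb : ∀ i ∈ s, ∀ q ∈ Q, |G i q| ≤ W) (hbb : ∀ q ∈ Q, |Gb q| ≤ W)
    (ho : ∀ i ∈ s, ∀ j ∈ s, ∀ q ∈ Q, ∀ q' ∈ Q, G i q ≤ G i q' → G j q ≤ G j q')
    (hG : ∀ q ∈ Q, (∑ i ∈ s, p i) * Gb q = ∑ i ∈ s, p i * G i q)
    {F : (V → Bool) → ℝ} (hF : Dep F Q) :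
    (∑ i ∈ s, p i) * lev Gb (-W) W F = ∑ i ∈ s, p i * lev (G i) (-W) W F := by
  rcases (sum_nonneg hp).eq_or_lt with h0 | hpos
  · have : ∀ i ∈ s, p i = 0 := (sum_eq_zero_iff_of_nonneg hp).1 h0.symm
    rw [← h0, zero_mul]
    exact (sum_eq_zero fun i hi => by rw [this i hi, zero_mul]).symm
  obtain ⟨i₀, hi₀⟩ : s.Nonempty := by
    rcases s.eq_empty_or_nonempty with rfl | h
    · simp at hpos
    · exact h
  obtain ⟨c, cl, ch, hc⟩ := lev_affine (G i₀) Q F hF
  have hWW : -W ≤ W := by linarith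
  have e1 := hc Gb (-W) W hWW (fun q hq => abs_le.1 (hbb q hq)) (fun q hq q' hq' h => by
    refine le_of_mul_le_mul_left ?_ hpos
    rw [hG q hq, hG q' hq']
    exact sum_le_sum fun i hi => mul_le_mul_of_nonneg_left (ho _ hi₀ _ hi _ hq _ hq' h) (hp i hi))
  have e2 : ∀ i ∈ s, p i * lev (G i) (-W) W F
      = ∑ q ∈ Q, c q * (p i * G i q) + p i * (cl * -W + ch * W) := fun i hi => by
    rw [hc (G i) (-W) W hWW (fun q hq => abs_le.1 (hb i hi q hq)) (ho _ hi₀ _ hi), add_assoc,
      mul_add, mul_sum]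
    congr 1; exact sum_congr rfl fun q _ => by ring
  rw [sum_congr rfl e2, sum_add_distrib, sum_comm, ← sum_mul, e1, add_assoc, mul_add, mul_sum]
  congr 1
  refine sum_congr rfl fun q hq => ?_
  rw [← mul_sum, ← hG q hq]; ring

end Vale.Agent.P235
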