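import Vale.Agent.P235.Sched
import Vale.Agent.P235.Ckr

/-! The glued cut measure of a schedule and its separation properties. -/

namespace Vale.Agent.P235

open Finset

set_option linter.unusedSectionVars false

/-- Separation of two points by a weighted family of cuts. -/
noncomputable def sepw {V : Type*} [Fintype V] [DecidableEq V] (w : (V → Bool) → ℝ) (x y : V) : ℝ :=
  ex w fun η => |xv x η - xv y η|

/-- Admissible parameters. -/
structure Par (I : Type*) [Fintype I] [DecidableEq I] (J R : ℕ) (p₀ c : ℝ) : Prop where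
  hJ : 8 ≤ J
  hp : 0 < p₀
  hc1 : 1 ≤ 2 * c
  hc : Fintype.card (Option I) * (R : ℝ) * Fintype.card (Option I → Fin R × Bool) ≤ c * p₀
  hp16 : 16 * Fintype.card (Option I)
    * (Fintype.card (Key (Option I) (Fin R × Bool) I) * p₀) ≤ 1
  hR : 2000 * Fintype.card I ≤ R
  hZ : 1024 * ((2 * Fintype.card (I → I → Fin (2 * J + 2)) : ℕ) : ℝ) * Fintype.card I * (2 * c)
    ≤ 2 ^ J

theorem St.mu_eq_ex {V S U I : Type*} [Fintype S] [DecidableEq S] [Fintype U] [DecidableEq U]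
    [Fintype I] [DecidableEq I] [Fintype V] [DecidableEq V] (val : U → ℝ) (st : St V S U I) (W : ℝ)
    (F : (V → Bool) → ℝ) :
    st.mu val W F = ex (fun η => st.mu val W fun ζ => if ζ = η then 1 else 0) F := by
  unfold St.mu
  simp only [lev_eq_ex _ _ _ F]
  unfold ex
  simp only [mul_sum, sum_mul]
  rw [sum_comm]
  exact sum_congr rfl fun _ _ => sum_congr rfl fun _ _ => by ring

theorem abs_xv_sub (v : ℝ) (hv : v = 0 ∨ v = 1) {y : ℝ} (h0 : 0 ≤ y) (h1 : y ≤ 1) :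
    |v - y| = v + (1 - 2 * v) * y := by
  rcases hv with rfl | rfl
  · rw [zero_sub, abs_neg, abs_of_nonneg h0]; ring
  · rw [abs_of_nonneg (by linarith)]; ring

namespace RTD

variable {V ι I : Type*} [PseudoMetricSpace V] [Fintype I] [DecidableEq I] [Nonempty I]
  [Fintype V] [DecidableEq V] [Fintype ι] (T : RTD V ι I) (J R : ℕ) [NeZero R] (p₀ c : ℝ)
  (ω : ι → Req I)

/-- The weights of the cut measure at a node. -/
noncomputable def wt (W : ℝ) (τ : ι) (η : V → Bool) : ℝ :=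
  (T.run J R p₀ ω τ).1.mu (valR R) W fun ζ => if ζ = η then 1 else 0

/-- A glued measure. -/
structure Glued (W : ℝ) (w : (V → Bool) → ℝ) : Prop where
  nonneg : ∀ η, 0 ≤ w η
  W0 : 0 ≤ W
  hW : ∀ τ σ v (x y : V), |(T.run J R p₀ ω τ).1.G (valR R) σ v| + 256 * (2 * c) * dist x y ≤ W
  wt0 : ∀ τ η, 0 ≤ T.wt J R p₀ ω W τ η
  cons : ∀ τ ≠ T.root, ∀ F, Dep F (T.Qs τ) →
    ex (T.wt J R p₀ ω W τ) F = ex (T.wt J R p₀ ω W (T.par τ)) F
  bag : ∀ τ F, Dep F (Set.range (T.e τ)) → ex w F = ex (T.wt J R p₀ ω W τ) F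
  markov : ∀ τ ≠ T.root, ∀ φ ψ, Dep φ (T.Us τ)ᶜ → Dep ψ (Set.range (T.e τ)) →
    ex w (fun η => φ η * ψ η) = ex w fun η => φ η * T.glueD.K (T.wt J R p₀ ω W) τ ψ η

variable {J R p₀ c}

theorem exists_glued (h : Par I J R p₀ c) : ∃ W w, T.Glued J R p₀ c ω W w := by
  have hc0 : 0 ≤ c := by linarith [h.hc1]
  have inv := T.run_inv J ω h.hp hc0 h.hc
  obtain ⟨W₀, hW₀⟩ := (Set.finite_range fun z : ι × (Key (Option I) (Fin R × Bool) I
    × (Option I → Fin R × Bool)) × V × V × V => |(T.run J R p₀ ω z.1).1.G (valR R) z.2.1 z.2.2.1|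
      + 256 * (2 * c) * dist z.2.2.2.1 z.2.2.2.2).bddAbove
  have hW : ∀ τ σ v (x y : V), |(T.run J R p₀ ω τ).1.G (valR R) σ v| + 256 * (2 * c) * dist x y
      ≤ max W₀ 0 := fun τ σ v x y => le_max_of_le_left (hW₀ ⟨(τ, σ, v, x, y), rfl⟩)
  have W0 : 0 ≤ max W₀ 0 := le_max_right _ _
  have wt0 : ∀ τ η, 0 ≤ T.wt J R p₀ ω (max W₀ 0) τ η := fun τ η =>
    sum_nonneg fun σ _ => mul_nonneg (St.pw_nonneg (inv τ).P_nonneg σ)
      (lev_nonneg _ (by linarith) fun ζ => by split_ifs <;> norm_num)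
  have cons : ∀ τ ≠ T.root, ∀ F, Dep F (T.Qs τ) → ex (T.wt J R p₀ ω (max W₀ 0) τ) F
      = ex (T.wt J R p₀ ω (max W₀ 0) (T.par τ)) F := fun τ hτ F hF => by
    unfold wt
    rw [← St.mu_eq_ex, ← St.mu_eq_ex]
    exact T.run_mu J ω hτ (inv _).P_nonneg W0
      (fun τ σ v => by simpa using hW τ σ v v v) hF
  obtain ⟨w, h1, h2, h3⟩ := T.glueD.glue _ wt0 cons
  exact ⟨_, w, h1, W0, hW, wt0, cons, h2, h3⟩

variable {T ω} {W : ℝ} {w : (V → Bool) → ℝ}

theorem Glued.bag_mu (g : T.Glued J R p₀ c ω W w) (τ : ι) {F : (V → Bool) → ℝ}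
    (hF : Dep F (Set.range (T.e τ))) : ex w F = (T.run J R p₀ ω τ).1.mu (valR R) W F := by
  rw [g.bag τ F hF, St.mu_eq_ex]; rfl

theorem Glued.sep_eq (g : T.Glued J R p₀ c ω W w) (τ : ι) {x y : V} (hx : x ∈ Set.range (T.e τ))
    (hy : y ∈ Set.range (T.e τ)) : sepw w x y = ∑ σ, (T.run J R p₀ ω τ).1.pw σ *
      |(T.run J R p₀ ω τ).1.G (valR R) σ x - (T.run J R p₀ ω τ).1.G (valR R) σ y| := by
  rw [sepw, g.bag_mu τ ((dep_xv hx).comp₂ (dep_xv hy) fun a b => |a - b|)]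
  exact sum_congr rfl fun σ _ => by
    rw [lev_sep_eq _ (by simpa using g.hW τ σ x x x) (by simpa using g.hW τ σ y x x)]

theorem sepw_tri (hw : ∀ η, 0 ≤ w η) (x y z : V) : sepw w x z ≤ sepw w x y + sepw w y z := by
  unfold sepw
  rw [← ex_add]
  exact ex_mono hw fun η => abs_sub_le _ _ _

theorem sepw_comm (w : (V → Bool) → ℝ) (x y : V) : sepw w x y = sepw w y x :=
  ex_congr _ fun _ => abs_sub_comm _ _

theorem Glued.sep_le (g : T.Glued J R p₀ c ω W w) (h : Par I J R p₀ c) (x y : V) :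
    sepw w x y ≤ 2 * c * dist x y := by
  have hc0 : 0 ≤ c := by linarith [h.hc1]
  refine T.lip (sepw w) (2 * c) (by linarith) (fun x => by simp [sepw, ex]) (sepw_tri g.nonneg)
    (fun τ x hx y hy => ?_) x y
  rw [g.sep_eq τ hx hy]
  exact (T.run_inv J ω h.hp hc0 h.hc τ).lip hc0 x y

variable (T) in
theorem inbag [DecidableEq ι] (h : Par I J R p₀ c) (γ : ι) {a z : V} (ha : a ∈ Set.range (T.e γ))
    (hz : z ∈ Set.range (T.e γ)) (hd : 0 < dist a z) : ∃ (Tn : Finset ι) (ω₀ : ι → Req I),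
      Tn.card ≤ 2 * Fintype.card (I → I → Fin (2 * J + 2)) + 1 ∧ ∀ ω W w, (∀ τ ∈ Tn, ω τ = ω₀ τ) →
        T.Glued J R p₀ c ω W w → dist a z / 40 ≤ sepw w a z := by
  have hc0 : 0 ≤ c := by linarith [h.hc1]
  have e : T.anc γ (T.dep γ) = γ := T.anc_ge le_rfl
  obtain ⟨Y, hY, A, hA⟩ := (T.path J γ).inbag h.hJ (i := T.dep γ) le_rfl
    (by simpa only [path, e] using ha) (by simpa only [path, e] using hz) hd
  have hYL : Y < T.dep γ := (T.path J γ).lt_of_mem le_rfl hY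
  refine ⟨(insert Y ((T.path J γ).A Y)).image fun μ => T.anc γ (μ + 1),
    fun τ _ => if τ = T.anc γ (Y + 1) then some A else none, card_image_le.trans
      ((card_insert_le _ _).trans (Nat.succ_le_succ ((T.path J γ).card_le hYL.le))),
    fun ω W w hω g => ?_⟩
  have k : ∀ μ ∈ T.alive J (T.anc γ Y), ω (T.anc γ (μ + 1)) none = none := fun μ hμ => by
    have := (T.path J γ).lt_of_mem hYL.le hμ
    rw [hω _ (mem_image_of_mem _ (mem_insert_of_mem hμ))]
    exact if_neg fun h => by have := T.anc_inj (by omega) (by omega) h; omega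
  obtain ⟨_, k2⟩ := T.hold J ω (R := R) (p₀ := p₀) none A
    (by rw [hω _ (mem_image_of_mem _ (mem_insert_self _ _))]; exact if_pos rfl)
    (fun μ hμ => ⟨k μ hμ, k μ hμ⟩) hYL le_rfl fun i' a b => (T.path J γ).mem_of_le b.le le_rfl hY a
  rw [e] at k2
  have inv := T.run_inv J ω h.hp hc0 h.hc γ
  have k3 := inv.sep_ge none a z
  rw [← g.sep_eq γ ha hz, k2] at k3
  have k4 := inv.a_sum none
  have k5 := h.hp16
  have k6 : (1 : ℝ) ≤ Fintype.card (Option I) := by exact_mod_cast Fintype.card_pos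
  have k7 : 0 ≤ Fintype.card (Key (Option I) (Fin R × Bool) I) * p₀ := by
    have := h.hp; positivity
  have k8 : 1 / 2 ≤ ∑ x, (T.run J R p₀ ω γ).1.P x * (T.run J R p₀ ω γ).1.a x none := by nlinarith
  have k9 := mul_le_mul k8 hA (by positivity) (by linarith)
  simp only [path] at k9
  linarith

variable (T ω J R p₀) in
/-- Conditional probability that `t` lies in the cut, `k` steps above the node `σ`. -/
noncomputable def psi (W : ℝ) (σ : ι) (t : V) : ℕ → (V → Bool) → ℝ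
  | 0 => xv t
  | k + 1 => T.glueD.K (T.wt J R p₀ ω W) (T.anc σ (T.dep σ - k)) (psi W σ t k)

theorem psi_succ {σ : ι} (t : V) {i : ℕ} (hi : i < T.dep σ) :
    T.psi J R p₀ ω W σ t (T.dep σ - i) = T.glueD.K (T.wt J R p₀ ω W) (T.anc σ (i + 1))
      (T.psi J R p₀ ω W σ t (T.dep σ - (i + 1))) := by
  rw [show T.dep σ - i = T.dep σ - (i + 1) + 1 by omega, psi]
  congr 2; omega

theorem psi_dep {σ : ι} {t : V} (ht : t ∈ Set.range (T.e σ)) (i : ℕ) :
    Dep (T.psi J R p₀ ω W σ t (T.dep σ - i)) (Set.range (T.e (T.anc σ i))) ∧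
      (i < T.dep σ → Dep (T.psi J R p₀ ω W σ t (T.dep σ - i)) (T.Qs (T.anc σ (i + 1)))) := by
  induction h : T.dep σ - i generalizing i with
  | zero => exact ⟨by rw [T.anc_ge (by omega)]; exact dep_xv ht, fun h => by omega⟩
  | succ k ih =>
    have hi : i < T.dep σ := by omega
    have h1 := (ih (i + 1) (by omega)).1
    have h2 : Dep (T.psi J R p₀ ω W σ t (k + 1)) (T.Qs (T.anc σ (i + 1))) := by
      rw [← h, psi_succ t hi, show T.dep σ - (i + 1) = k by omega]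
      exact kop_dep_bag h1 (T.glueD.BU _)
    exact ⟨h2.mono (by rw [← T.par_anc hi]; exact Set.inter_subset_right), fun _ => h2⟩

theorem Glued.psi_mem (g : T.Glued J R p₀ c ω W w) (σ : ι) (t : V) (k : ℕ) (η : V → Bool) :
    0 ≤ T.psi J R p₀ ω W σ t k η ∧ T.psi J R p₀ ω W σ t k η ≤ 1 := by
  induction k generalizing η with
  | zero => rcases xv_01 t η with h | h <;> simp [psi, h]
  | succ k ih => exact kop_mem (g.wt0 _) ih η

theorem Glued.sep_psi (g : T.Glued J R p₀ c ω W w) {σ : ι} {t : V} (ht : t ∈ Set.range (T.e σ))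
    {i : ℕ} (hi : i ≤ T.dep σ) {v : V} (hv : i < T.dep σ → v ∉ T.Us (T.anc σ (i + 1))) :
    sepw w v t = ex w fun η => |xv v η - T.psi J R p₀ ω W σ t (T.dep σ - i) η| := by
  induction h : T.dep σ - i generalizing i with
  | zero => rfl
  | succ k ih =>
    have hi' : i < T.dep σ := by omega
    rw [ih (i := i + 1) hi' (fun h1 h2 => hv hi' (T.U_sub (T.anc_ne h1)
      (desc_anc_anc (by omega) h1) h2)) (by omega)]
    have e : ∀ k η, |xv v η - T.psi J R p₀ ω W σ t k η|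
        = xv v η + (1 - 2 * xv v η) * T.psi J R p₀ ω W σ t k η := fun k η =>
      abs_xv_sub _ (xv_01 _ _) (g.psi_mem _ _ _ _).1 (g.psi_mem _ _ _ _).2
    simp only [e, ex_add]
    have h1 := (psi_dep (J := J) (R := R) (p₀ := p₀) (ω := ω) (W := W) ht (i + 1)).1
    rw [show T.dep σ - (i + 1) = k by omega] at h1
    rw [g.markov _ (T.anc_ne hi') _ _ ((dep_xv (hv hi')).comp fun a => 1 - 2 * a) h1, ← h,
      psi_succ t hi', show T.dep σ - (i + 1) = k by omega]

open Classical in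
/-- The martingale along the path to `σ`. -/
noncomputable def Glued.mart (g : T.Glued J R p₀ c ω W w) {σ : ι} {t : V}
    (ht : t ∈ Set.range (T.e σ)) : Mart (V → Bool) (T.dep σ) where
  w i := T.wt J R p₀ ω W (T.anc σ i)
  Ψ i := T.psi J R p₀ ω W σ t (T.dep σ - i)
  S i := univ.image fun β : I → Bool => T.psi J R p₀ ω W σ t (T.dep σ - i)
    fun v => if h : v ∈ Set.range (T.e (T.anc σ i)) then β h.choose else false
  w_nonneg _ := g.wt0 _
  mem i η := mem_image.2 ⟨fun x => η (T.e (T.anc σ i) x), mem_univ _,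
    (psi_dep ht i).1 _ _ fun v hv => by rw [dif_pos hv]; exact congrArg η hv.choose_spec⟩
  cons i hi φ := by
    rw [g.cons _ (T.anc_ne hi) _ (((psi_dep ht i).2 hi).comp φ), T.par_anc hi]
  mart i hi φ := by
    have h1 := ((psi_dep (J := J) (R := R) (p₀ := p₀) (ω := ω) (W := W) ht i).2 hi)
    have h2 := (psi_dep (J := J) (R := R) (p₀ := p₀) (ω := ω) (W := W) ht (i + 1)).1
    have h3 := g.markov _ (T.anc_ne hi) _ _ ((h1.comp φ).mono (T.glueD.QU _)) h2
    rw [← psi_succ t hi] at h3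
    rw [← g.bag _ _ ((h1.mono Set.inter_subset_left).comp₂ h2 fun a b => φ a * (b - a))]
    simp only [mul_sub, ex_sub, h3, sub_self]

end RTD

end Vale.Agent.P235
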