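import Vale.Agent.P235.Tree
import Vale.Agent.P235.Band

/-! Running the engine along the tree according to a schedule. -/

namespace Vale.Agent.P235

open Finset

set_option linter.unusedSectionVars false

/-- The requests of a node: for every slot, possibly a function to install. -/
abbrev Req (I : Type*) := Option I → Option (Option (I × I))

/-- The label is alive. -/
def Al (A : Finset ℕ) (o : Option ℕ) : Prop := ∃ l ∈ A, o = some l

namespace RTD

variable {V ι I : Type*} [PseudoMetricSpace V] [Fintype I] [DecidableEq I] [Nonempty I]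
  (T : RTD V ι I) (J R : ℕ) (p₀ : ℝ) (ω : ι → Req I)

open Classical in
noncomputable def dropS (τ : ι) (lab : Option I → Option ℕ) : Finset (Option I) :=
  univ.filter fun j => ω τ j ≠ none ∧ ¬ Al (T.alive J (T.par τ)) (lab j)

theorem mem_dropS {τ : ι} {lab : Option I → Option ℕ} {j : Option I} : j ∈ T.dropS J ω τ lab ↔
    ω τ j ≠ none ∧ ¬ Al (T.alive J (T.par τ)) (lab j) := by simp [dropS]

open Classical in
noncomputable def next (τ : ι) (X : St V (Option I) (Fin R × Bool) I × (Option I → Option ℕ)) :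
    St V (Option I) (Fin R × Bool) I × (Option I → Option ℕ) :=
  if Al (T.alive J (T.par τ)) (X.2 none) then X else
    (X.1.step (valR R) p₀ (T.dropS J ω τ X.2) (T.eQ τ)
      fun j => lf (T.e (T.par τ)) (T.e τ) ((ω τ j).getD none),
     fun j => if j ∈ T.dropS J ω τ X.2 then some (T.dep (T.par τ)) else X.2 j)

noncomputable def run : ι → St V (Option I) (Fin R × Bool) I × (Option I → Option ℕ) :=
  T.rc (St.init, fun _ => none) (T.next J R p₀ ω)

theorem run_step {τ : ι} (h : τ ≠ T.root) :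
    T.run J R p₀ ω τ = T.next J R p₀ ω τ (T.run J R p₀ ω (T.par τ)) := T.rc_step _ _ h

variable {R p₀}

theorem run_inv [NeZero R] {c : ℝ} (hp : 0 < p₀) (hc0 : 0 ≤ c)
    (hc : Fintype.card (Option I) * (R : ℝ) * Fintype.card (Option I → Fin R × Bool) ≤ c * p₀)
    (τ : ι) : (T.run J R p₀ ω τ).1.Inv (valR R) p₀ c := by
  refine T.induct (P := fun τ => (T.run J R p₀ ω τ).1.Inv (valR R) p₀ c) ?_ ?_ τ
  · rw [run, rc_root]; exact St.init_inv hp.le hc0
  · intro τ hτ ih
    rw [run_step _ _ _ _ _ hτ, next]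
    split_ifs
    · exact ih
    · exact St.step_inv ih hp (valR_sum R) (valR_abs R) hc fun j => lf_lip _ _ _

theorem run_mu [NeZero R] [Finite V] [DecidableEq V] {τ : ι} (hτ : τ ≠ T.root)
    (hP : ∀ x, 0 ≤ (T.run J R p₀ ω (T.par τ)).1.P x) {W : ℝ} (hW : 0 ≤ W)
    (hb : ∀ τ σ v, |(T.run J R p₀ ω τ).1.G (valR R) σ v| ≤ W) {F : (V → Bool) → ℝ}
    (hF : Dep F (T.Qs τ)) :
    (T.run J R p₀ ω τ).1.mu (valR R) W F = (T.run J R p₀ ω (T.par τ)).1.mu (valR R) W F := by
  have h1 := hb τ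
  rw [run_step _ _ _ _ _ hτ, next] at h1 ⊢
  split_ifs at h1 ⊢
  · rfl
  · refine St.step_mu hP hW (hb _) h1 (fun j _ i => lf_zero _ _ ?_) (by rwa [range_eQ])
    have : T.eQ τ i ∈ T.Qs τ := by rw [← range_eQ]; exact ⟨i, rfl⟩
    exact this.2

theorem run_succ {σ : ι} {i : ℕ} (hi : i < T.dep σ) : T.run J R p₀ ω (T.anc σ (i + 1))
    = T.next J R p₀ ω (T.anc σ (i + 1)) (T.run J R p₀ ω (T.anc σ i)) := by
  rw [run_step _ _ _ _ _ (T.anc_ne hi), T.par_anc hi]

theorem run_lab {σ : ι} {i : ℕ} (hi : i ≤ T.dep σ) (j : Option I) (l : ℕ)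
    (h : (T.run J R p₀ ω (T.anc σ i)).2 j = some l) : ω (T.anc σ (l + 1)) j ≠ none := by
  induction i with
  | zero => rw [anc_zero, run, rc_root] at h; simp at h
  | succ i ih =>
    rw [T.run_succ J ω hi, next] at h
    split_ifs at h
    · exact ih (by omega) h
    · dsimp only at h
      split_ifs at h with h1
      · rw [T.par_anc hi, T.dep_anc (by omega), Option.some.injEq] at h
        subst h
        exact ((T.mem_dropS J ω).1 h1).1
      · exact ih (by omega) h

theorem hold {σ : ι} {l : ℕ} (j : Option I) (A : Option (I × I))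
    (h1 : ω (T.anc σ (l + 1)) j = some A)
    (h2 : ∀ μ ∈ T.alive J (T.anc σ l),
      ω (T.anc σ (μ + 1)) j = none ∧ ω (T.anc σ (μ + 1)) none = none)
    {i : ℕ} (hl : l < i) (hi : i ≤ T.dep σ) (ha : ∀ i', l < i' → i' < i → l ∈ T.alive J (T.anc σ i')) :
    (T.run J R p₀ ω (T.anc σ i)).2 j = some l ∧ (T.run J R p₀ ω (T.anc σ i)).1.g j
      = lf (T.e (T.anc σ l)) (T.e (T.anc σ (l + 1))) A := by
  induction i, hl using Nat.le_induction with
  | base =>
    have hl : l < T.dep σ := hi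
    have n0 : ∀ j', (∀ μ ∈ T.alive J (T.anc σ l), ω (T.anc σ (μ + 1)) j' = none) →
        ¬ Al (T.alive J (T.par (T.anc σ (l + 1)))) ((T.run J R p₀ ω (T.anc σ l)).2 j') := by
      rintro j' h ⟨μ, m1, m2⟩
      rw [T.par_anc hl] at m1
      exact T.run_lab J ω hl.le j' μ m2 (h μ m1)
    have hj : j ∈ T.dropS J ω (T.anc σ (l + 1)) (T.run J R p₀ ω (T.anc σ l)).2 :=
      (T.mem_dropS J ω).2 ⟨by rw [h1]; simp, n0 j fun μ hμ => (h2 μ hμ).1⟩
    rw [T.run_succ J ω hl, next, if_neg (n0 none fun μ hμ => (h2 μ hμ).2)]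
    simp only [St.step, if_pos hj, T.par_anc hl, T.dep_anc hl.le, h1, Option.getD_some, and_self]
  | succ i hl ih =>
    obtain ⟨k1, k2⟩ := ih (by omega) fun i' a b => ha i' a (by omega)
    have hj : j ∉ T.dropS J ω (T.anc σ (i + 1)) (T.run J R p₀ ω (T.anc σ i)).2 := fun h =>
      ((T.mem_dropS J ω).1 h).2 ⟨l, by rw [T.par_anc hi]; exact ha i hl (by omega), k1⟩
    rw [T.run_succ J ω hi, next]
    split_ifs
    · exact ⟨k1, k2⟩
    · simp only [St.step, if_neg hj, k1, k2, and_self]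

theorem freeze {σ : ι} {l : ℕ} (h : (T.run J R p₀ ω (T.anc σ (l + 1))).2 none = some l)
    {i : ℕ} (hl : l < i) (hi : i ≤ T.dep σ) (ha : ∀ i', l < i' → i' < i → l ∈ T.alive J (T.anc σ i')) :
    T.run J R p₀ ω (T.anc σ i) = T.run J R p₀ ω (T.anc σ (l + 1)) := by
  induction i, hl using Nat.le_induction with
  | base => rfl
  | succ i hl ih =>
    have k := ih (by omega) fun i' a b => ha i' a (by omega)
    rw [T.run_succ J ω hi, next, if_pos, k]
    exact ⟨l, by rw [T.par_anc hi]; exact ha i hl (by omega), by rw [k, h]⟩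

end RTD

theorem card_agree {ι R : Type*} [Fintype ι] [DecidableEq ι] [Fintype R] [DecidableEq R]
    [Nonempty R] (Tn : Finset ι) (ω₀ : ι → R) {N : ℕ} (hN : Tn.card ≤ N) :
    Fintype.card (ι → R)
      ≤ Fintype.card R ^ N * (univ.filter fun ω : ι → R => ∀ τ ∈ Tn, ω τ = ω₀ τ).card := by
  have h1 : (univ : Finset (ι → R)).card ≤ ((univ : Finset (Tn → R)) ×ˢ
      (univ.filter fun ω : ι → R => ∀ τ ∈ Tn, ω τ = ω₀ τ)).card := by
    refine card_le_card_of_injOn
      (fun ω => (fun τ => ω τ.1, fun τ => if τ ∈ Tn then ω₀ τ else ω τ)) (fun ω _ => ?_)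
      fun a _ b _ h => ?_
    · simp only [coe_product, Set.mem_prod, coe_univ, Set.mem_univ, true_and, coe_filter,
        mem_univ, Set.mem_ofPred_eq]
      exact fun τ hτ => if_pos hτ
    · funext τ
      by_cases hτ : τ ∈ Tn
      · exact congrFun (congrArg Prod.fst h) ⟨τ, hτ⟩
      · simpa [hτ] using congrFun (congrArg Prod.snd h) τ
  rw [card_product, card_univ, card_univ, Fintype.card_fun, Fintype.card_fun,
    Fintype.card_coe] at h1
  rw [Fintype.card_fun]
  exact h1.trans (Nat.mul_le_mul_right _ (Nat.pow_le_pow_right Fintype.card_pos hN))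

end Vale.Agent.P235
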