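import Vale.Agent.P235.Window
import Vale.Agent.P235.Glue

/-! Rooted decompositions of a finite metric space. -/

namespace Vale.Agent.P235

open Finset

set_option linter.unusedSectionVars false

/-- A rooted tree of bags with the separation properties of a tree decomposition. -/
structure RTD (V ι I : Type*) [PseudoMetricSpace V] where
  par : ι → ι
  dep : ι → ℕ
  root : ι
  dep_root : dep root = 0
  par_root : par root = root
  dep_par : ∀ τ ≠ root, dep τ = dep (par τ) + 1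
  e : ι → I → V
  r : V
  e_root : ∀ i, e root i = r
  r_mem : ∀ τ, r ∈ Set.range (e τ)
  cover : ∀ v, ∃ τ, v ∈ Set.range (e τ)
  ri : ∀ τ ≠ root, ∀ σ σ', (∃ k, par^[k] σ = τ) → (¬ ∃ k, par^[k] σ' = τ) →
    ∀ x ∈ Set.range (e σ), x ∈ Set.range (e σ') → x ∈ Set.range (e τ) ∧ x ∈ Set.range (e (par τ))
  sep : ∀ τ ≠ root, ∀ σ σ', (∃ k, par^[k] σ = τ) → (¬ ∃ k, par^[k] σ' = τ) →
    ∀ x ∈ Set.range (e σ), ∀ y ∈ Set.range (e σ'),
      ∃ q ∈ Set.range (e τ), q ∈ Set.range (e (par τ)) ∧ dist x q + dist q y ≤ dist x y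
  lip : ∀ (F : V → V → ℝ) (C : ℝ), 0 ≤ C → (∀ x, F x x ≤ 0) → (∀ x y z, F x z ≤ F x y + F y z) →
    (∀ τ, ∀ x ∈ Set.range (e τ), ∀ y ∈ Set.range (e τ), F x y ≤ C * dist x y) →
    ∀ x y, F x y ≤ C * dist x y

theorem prune_congr {C : Type*} {c c' : ℕ → C} {A : Finset ℕ} (h : ∀ l ∈ A, c l = c' l) :
    prune c A = prune c' A := by
  ext l
  simp only [mem_prune]
  refine and_congr_right fun hl => not_congr (and_congr ?_ ?_)
  · exact exists_congr fun a => and_congr_right fun ha => by rw [h a ha, h l hl]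
  · exact exists_congr fun a => and_congr_right fun ha => by rw [h a ha, h l hl]

namespace RTD

variable {V ι I : Type*} [PseudoMetricSpace V] (T : RTD V ι I)

def Desc (τ σ : ι) : Prop := ∃ k, T.par^[k] σ = τ

def anc (σ : ι) (j : ℕ) : ι := T.par^[T.dep σ - j] σ

theorem dep_parent (τ : ι) : T.dep (T.par τ) = T.dep τ - 1 := by
  by_cases h : τ = T.root
  · subst h; rw [T.par_root, T.dep_root]
  · rw [T.dep_par τ h]; rfl

theorem dep_iter (σ : ι) (k : ℕ) : T.dep (T.par^[k] σ) = T.dep σ - k := by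
  induction k with
  | zero => rfl
  | succ k ih => rw [Function.iterate_succ_apply', dep_parent, ih]; omega

theorem eq_root {τ : ι} (h : T.dep τ = 0) : τ = T.root := by
  by_contra h1; have := T.dep_par τ h1; omega

theorem dep_anc {σ : ι} {j : ℕ} (h : j ≤ T.dep σ) : T.dep (T.anc σ j) = j := by
  rw [anc, dep_iter]; omega

theorem anc_ge {σ : ι} {j : ℕ} (h : T.dep σ ≤ j) : T.anc σ j = σ := by
  rw [anc, Nat.sub_eq_zero_of_le h]; rfl

theorem anc_zero (σ : ι) : T.anc σ 0 = T.root := T.eq_root (T.dep_anc (Nat.zero_le _))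

theorem par_anc {σ : ι} {j : ℕ} (h : j < T.dep σ) : T.par (T.anc σ (j + 1)) = T.anc σ j := by
  rw [anc, anc, ← Function.iterate_succ_apply' T.par]
  congr 1; omega

theorem anc_ne {σ : ι} {j : ℕ} (h : j < T.dep σ) : T.anc σ (j + 1) ≠ T.root := fun h1 => by
  have := T.dep_anc (show j + 1 ≤ T.dep σ from h)
  rw [h1, T.dep_root] at this; omega

theorem anc_anc {σ : ι} {i j : ℕ} (h : j ≤ i) (hi : i ≤ T.dep σ) :
    T.anc (T.anc σ i) j = T.anc σ j := by
  rw [anc, T.dep_anc hi, anc, anc, ← Function.iterate_add_apply]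
  congr 1; omega

theorem anc_inj {σ : ι} {i j : ℕ} (hi : i ≤ T.dep σ) (hj : j ≤ T.dep σ)
    (h : T.anc σ i = T.anc σ j) : i = j := by
  rw [← T.dep_anc hi, h, T.dep_anc hj]

variable {T}

theorem Desc.dep_le {τ σ : ι} (h : T.Desc τ σ) : T.dep τ ≤ T.dep σ := by
  obtain ⟨k, rfl⟩ := h; rw [dep_iter]; omega

theorem Desc.anc_eq {τ σ : ι} (h : T.Desc τ σ) : T.anc σ (T.dep τ) = τ := by
  obtain ⟨k, rfl⟩ := h
  by_cases hk : k ≤ T.dep σ
  · rw [anc, dep_iter]; congr 1; omega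
  · have : T.dep (T.par^[k] σ) = 0 := by rw [dep_iter]; omega
    rw [this, anc_zero, T.eq_root this]

theorem Desc.trans {a b c : ι} (h : T.Desc a b) (h' : T.Desc b c) : T.Desc a c := by
  obtain ⟨k, rfl⟩ := h
  obtain ⟨l, rfl⟩ := h'
  exact ⟨k + l, Function.iterate_add_apply _ _ _ _⟩

theorem desc_anc (σ : ι) (j : ℕ) : T.Desc (T.anc σ j) σ := ⟨_, rfl⟩

theorem desc_anc_anc {σ : ι} {i j : ℕ} (h : j ≤ i) (hi : i ≤ T.dep σ) :
    T.Desc (T.anc σ j) (T.anc σ i) := by
  rw [← T.anc_anc h hi]; exact desc_anc _ _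

theorem not_desc {σ τ : ι} (h : σ ≠ τ) (hd : T.dep τ ≤ T.dep σ) : ¬ T.Desc σ τ := fun h1 => by
  have := h1.anc_eq
  rw [T.anc_ge hd] at this
  exact h this.symm

variable (T)

def Qs (τ : ι) : Set V := Set.range (T.e τ) ∩ Set.range (T.e (T.par τ))

def Us (τ : ι) : Set V := {x | ∃ σ, T.Desc τ σ ∧ x ∈ Set.range (T.e σ)} \ T.Qs τ

theorem notU {σ τ : ι} (hσ : σ ≠ T.root) (h : ¬ T.Desc σ τ) : Set.range (T.e τ) ⊆ (T.Us σ)ᶜ := by
  rintro x hx ⟨⟨ρ, h1, h2⟩, h3⟩
  exact h3 (T.ri σ hσ ρ τ h1 h x h2 hx)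

theorem U_sub {σ τ : ι} (hσ : σ ≠ T.root) (h : T.Desc τ σ) : T.Us σ ⊆ T.Us τ := by
  by_cases he : σ = τ
  · rw [he]
  intro x hx
  obtain ⟨⟨ρ, h1, h2⟩, _⟩ := id hx
  exact ⟨⟨ρ, h.trans h1, h2⟩, fun h4 => T.notU hσ (not_desc he h.dep_le) h4.1 hx⟩

/-- The gluing data of a rooted decomposition. -/
def glueD : GlueD V ι where
  B τ := Set.range (T.e τ)
  Q := T.Qs
  U := T.Us
  par := T.par
  dep := T.dep
  root := T.root
  dep_par := T.dep_par
  QB _ := Set.inter_subset_left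
  QP _ _ := Set.inter_subset_right
  BU τ x hx := by
    by_cases h : x ∈ T.Qs τ
    · exact Or.inr h
    · exact Or.inl ⟨⟨τ, ⟨0, rfl⟩, hx⟩, h⟩
  QU _ _ hx h := h.2 hx
  UB _ hσ _ h1 h2 := T.notU hσ (not_desc h1 h2)
  rootB _ hσ := T.notU hσ (not_desc hσ (by rw [T.dep_root]; exact Nat.zero_le _))
  UU σ hσ τ hτ _ _ := by
    by_cases h : T.Desc τ σ
    · exact Or.inl (T.U_sub hσ h)
    · exact Or.inr (Set.inter_subset_left.trans (T.notU hτ h))

open Classical in
/-- An enumeration of the adhesion. -/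
noncomputable def eQ (τ : ι) (i : I) : V :=
  if T.e τ i ∈ Set.range (T.e (T.par τ)) then T.e τ i else T.r

theorem range_eQ [Nonempty I] (τ : ι) : Set.range (T.eQ τ) = T.Qs τ := by
  ext x
  constructor
  · rintro ⟨i, rfl⟩
    unfold eQ
    split_ifs with h
    · exact ⟨⟨i, rfl⟩, h⟩
    · exact ⟨T.r_mem _, T.r_mem _⟩
  · rintro ⟨⟨i, rfl⟩, h⟩
    exact ⟨i, if_pos h⟩

def go {α : Type*} (a : α) (f : ι → α → α) : ℕ → ι → α
  | 0, _ => a
  | n + 1, τ => f τ (go a f n (T.par τ))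

/-- Recursion from the root. -/
def rc {α : Type*} (a : α) (f : ι → α → α) (τ : ι) : α := T.go a f (T.dep τ) τ

theorem rc_root {α : Type*} (a : α) (f : ι → α → α) : T.rc a f T.root = a := by
  rw [rc, T.dep_root]; rfl

theorem rc_step {α : Type*} (a : α) (f : ι → α → α) {τ : ι} (h : τ ≠ T.root) :
    T.rc a f τ = f τ (T.rc a f (T.par τ)) := by
  rw [rc, T.dep_par τ h]; rfl

theorem induct {P : ι → Prop} (h0 : P T.root) (h1 : ∀ τ ≠ T.root, P (T.par τ) → P τ) (τ : ι) :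
    P τ := by
  induction h : T.dep τ generalizing τ with
  | zero => rw [T.eq_root h]; exact h0
  | succ n ih =>
    have hτ : τ ≠ T.root := fun h2 => by rw [h2, T.dep_root] at h; omega
    exact h1 τ hτ (ih _ (by have := T.dep_par τ hτ; omega))

variable [Fintype I] [Nonempty I] (J : ℕ)

/-- The alive labels at a node, named by the depth of the parent of their birth node. -/
noncomputable def alive : ι → Finset ℕ :=
  T.rc ∅ fun τ A => prune (fun l => cellv J (T.e τ) (T.e (T.anc τ l))) (insert (T.dep (T.par τ)) A)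

theorem alive_lt (τ : ι) : ∀ l ∈ T.alive J τ, l < T.dep τ := by
  refine T.induct (P := fun τ => ∀ l ∈ T.alive J τ, l < T.dep τ) ?_ ?_ τ
  · simp [alive, rc_root]
  · intro τ hτ ih l hl
    rw [alive, T.rc_step _ _ hτ] at hl
    have := T.dep_par τ hτ
    rcases mem_insert.1 (prune_subset _ _ hl) with rfl | h
    · omega
    · have := ih l h; omega

/-- The path from the root to a node. -/
noncomputable def path (σ : ι) : PathD V I J where
  E j := T.e (T.anc σ j)
  L := T.dep σ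
  A j := T.alive J (T.anc σ j)
  A_zero := by rw [anc_zero, alive, rc_root]
  A_succ i hi := by
    rw [alive, T.rc_step _ _ (T.anc_ne hi), T.par_anc hi, T.dep_anc hi.le]
    refine prune_congr fun l hl => ?_
    rw [T.anc_anc _ hi]
    rcases mem_insert.1 hl with rfl | h
    · omega
    · have := T.alive_lt J _ l h
      rw [T.dep_anc hi.le] at this; omega
  const i i' := by rw [anc_zero, T.e_root, T.e_root]
  sep j i i' h1 h2 h3 x hx y hy := by
    have := T.sep _ (T.anc_ne (h2.trans_le h3)) _ _ (desc_anc_anc h2 h3) (fun h => by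
      have := Desc.dep_le h
      rw [T.dep_anc (show i + 1 ≤ T.dep σ by omega), T.dep_anc (show j ≤ T.dep σ by omega)] at this
      omega) x hx y hy
    rwa [T.par_anc (h2.trans_le h3)] at this

theorem exists_lca (σ σ' : ι) : ∃ j, j ≤ T.dep σ ∧ j ≤ T.dep σ' ∧ T.anc σ j = T.anc σ' j ∧
    (j < T.dep σ → ¬ T.Desc (T.anc σ (j + 1)) σ') ∧
    (j < T.dep σ' → ¬ T.Desc (T.anc σ' (j + 1)) σ) := by
  classical
  obtain ⟨j, hj, hmax⟩ := exists_max_image ((range (T.dep σ + 1)).filter fun j =>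
    j ≤ T.dep σ' ∧ T.anc σ j = T.anc σ' j) id ⟨0, by simp [anc_zero]⟩
  rw [mem_filter, mem_range] at hj
  refine ⟨j, by omega, hj.2.1, hj.2.2, fun h1 h2 => ?_, fun h1 h2 => ?_⟩
  · have h3 := h2.dep_le
    have h4 := h2.anc_eq
    rw [T.dep_anc h1] at h3 h4
    have := hmax (j + 1) (mem_filter.2 ⟨mem_range.2 (by omega), h3, h4.symm⟩)
    simp at this
  · have h3 := h2.dep_le
    have h4 := h2.anc_eq
    rw [T.dep_anc h1] at h3 h4
    have := hmax (j + 1) (mem_filter.2 ⟨mem_range.2 (by omega), h1, h4⟩)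
    simp at this

end RTD

end Vale.Agent.P235
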