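import Vale.Agent.P235.Alive

/-! The window lemma: one label carries a fixed share of the escape distance. -/

namespace Vale.Agent.P235

open Finset

namespace PathD

variable {V I : Type*} [PseudoMetricSpace V] [Fintype I] [Nonempty I] {J : ℕ} (p : PathD V I J)

/-- The set seen by the rounded function at time `i`. -/
def InS (t : V) (i : ℕ) (q : V) : Prop :=
  (i < p.L ∧ q ∈ Set.range (p.E i) ∧ q ∈ Set.range (p.E (i + 1))) ∨ (i = p.L ∧ q = t)

/-- A far vertex. -/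
def FarP (δ : ℝ) (l : ℕ) (s q : V) : Prop :=
  2 ^ J * δ / 4 ≤ dist q s ∧ 50 * dB (p.E l) s ≤ dist q s

/-- A piece of the path on which one label gains `ε`. -/
def Piece (i₀ : ℕ) (t : V) (δ ε : ℝ) : Prop :=
  ∃ (l a b : ℕ) (s e : V), i₀ ≤ a ∧ l ≤ a ∧ a ≤ b ∧ b ≤ p.L ∧ l < b ∧
    (∀ i, l < i → i < b → l ∈ p.A i) ∧ e ∈ Set.range (p.E b) ∧ dist t e ≤ δ ∧ dist e s ≤ 2 * δ ∧
    ε - 2 * (δ / 2 ^ J) ≤ dB (p.E l) e - dB (p.E l) s ∧
    (∀ q, p.InS t a q → |dB (p.E l) q - dB (p.E l) s| ≤ δ / 2 ^ J ∨ p.FarP δ l s q) ∧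
    ∀ q, p.InS t b q → dist q e ≤ δ / 2 ^ J ∨ p.FarP δ l s q

/-- A time at which the bag splits into points near `q` and far points. -/
def Valid (i₀ : ℕ) (t : V) (δ : ℝ) (j O : ℕ) (q : V) : Prop :=
  p.IsO i₀ j O ∧ q ∈ Set.range (p.E j) ∧ dist t q < δ / 2 ∧ δ / 2 < dB (p.E O) q ∧
    ∀ q' ∈ Set.range (p.E j), dist q q' ≤ δ / 2 ^ J ∨ 2 ^ J * dB (p.E O) q ≤ dist q q'

variable {p} {i₀ : ℕ} {t : V} {δ : ℝ}

theorem InS.mem (ht : t ∈ Set.range (p.E p.L)) {i : ℕ} {q : V} (h : p.InS t i q) :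
    q ∈ Set.range (p.E i) := by
  rcases h with h | ⟨rfl, rfl⟩
  · exact h.2.1
  · exact ht

theorem two_pow_ge (hJ : 8 ≤ J) : (256 : ℝ) ≤ 2 ^ J := by
  have := pow_le_pow_right₀ (by norm_num : (1 : ℝ) ≤ 2) hJ
  norm_num at this ⊢; exact this

theorem valid_of_gap (ht : t ∈ Set.range (p.E p.L)) (hδ : δ = dB (p.E i₀) t) {j O Y : ℕ}
    (h1 : i₀ < j) (hj : j ≤ p.L) (hO : p.IsO i₀ j O) (hY : p.IsY i₀ j Y) (hg : p.Gap j O Y)
    (hv : dB (p.E Y) t < δ / 2) : ∃ q, p.Valid i₀ t δ j O q := by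
  obtain ⟨q, q1, q2⟩ := p.through (p.lt_of_mem hj hY.1) hj le_rfl ht
  have q3 := dB_tri (p.E O) t q
  have q4 := p.mono hO.2.1 (by omega) le_rfl ht
  have q5 := dB_nonneg (p.E Y) q
  have q6 := dist_nonneg (x := t) (y := q)
  refine ⟨q, hO, q1, by linarith, by linarith, fun q' hq' => ?_⟩
  rcases hg q q1 with h | h
  · linarith
  rcases h q' hq' with h | h
  · exact Or.inl (h.trans (div_le_div_of_nonneg_right (by linarith) (by positivity)))
  · exact Or.inr h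

theorem Valid.end_cond (hJ : 8 ≤ J) (ht : t ∈ Set.range (p.E p.L)) {j O l : ℕ} {s e : V}
    (h : p.Valid i₀ t δ j O e) (hj : j ≤ p.L) (h1 : O ≤ l) (h2 : l ≤ j) (hs : dist t s ≤ δ)
    (q : V) (hq : p.InS t j q) : dist q e ≤ δ / 2 ^ J ∨ p.FarP δ l s q := by
  obtain ⟨_, v1, v2, v3, v4⟩ := h
  have hZ := two_pow_ge hJ
  rcases v4 q (hq.mem ht) with h | h
  · exact Or.inl (by rwa [dist_comm])
  right
  have k1 := dist_triangle_left s e t
  have k2 := dist_triangle_left e q s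
  have k3 := dB_tri (p.E l) s e
  have k4 := p.mono h1 h2 hj v1
  have k5 := dist_nonneg (x := t) (y := e)
  rw [dist_comm s q] at k2
  constructor <;> nlinarith

theorem Valid.start_cond (hJ : 8 ≤ J) (ht : t ∈ Set.range (p.E p.L)) {j O : ℕ} {s : V}
    (h : p.Valid i₀ t δ j O s) (q : V) (hq : p.InS t j q) :
    |dB (p.E O) q - dB (p.E O) s| ≤ δ / 2 ^ J ∨ p.FarP δ O s q := by
  obtain ⟨_, v1, v2, v3, v4⟩ := h
  have hZ := two_pow_ge hJ
  have k5 := dist_nonneg (x := t) (y := s)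
  rcases v4 q (hq.mem ht) with h | h
  · exact Or.inl ((dB_lip _ _ _).trans (by rwa [dist_comm]))
  · right
    rw [dist_comm] at h
    constructor <;> nlinarith

theorem Valid.gain (hJ : 8 ≤ J) (ht : t ∈ Set.range (p.E p.L)) {j O : ℕ} {s : V}
    (h : p.Valid i₀ t δ j O s) (hj : j ≤ p.L) :
    dist t s + dB (p.E O) s - 2 * (δ / 2 ^ J) ≤ dB (p.E O) t := by
  obtain ⟨v0, v1, v2, v3, v4⟩ := h
  have hZ := two_pow_ge hJ
  obtain ⟨q, q1, q2⟩ := p.through (p.lt_of_mem hj v0.1) hj le_rfl ht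
  have k5 := dist_nonneg (x := t) (y := s)
  have k6 : 0 ≤ δ / 2 ^ J := div_nonneg (by linarith) (by positivity)
  rcases v4 q q1 with h | h
  · have k1 := dist_triangle_right t s q
    have k2 := dB_tri (p.E O) s q
    linarith
  · have k1 := dist_triangle_left s q t
    have k2 := dB_nonneg (p.E O) q
    nlinarith

theorem orun (hJ : 8 ≤ J) (ht : t ∈ Set.range (p.E p.L)) (hδ : δ = dB (p.E i₀) t) {ε : ℝ}
    (hε : 0 ≤ ε) (c : ℕ) : ∀ (j O : ℕ) (s : V), i₀ < j → j ≤ p.L → p.Valid i₀ t δ j O s →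
      ((p.A j).filter (· ≤ i₀)).card ≤ c → c * ε < dist t s →
      (∀ j', j < j' → j' ≤ p.L → ∀ Y, p.IsY i₀ j' Y → dB (p.E Y) t < δ / 2) →
      p.Piece i₀ t δ ε := by
  induction c with
  | zero =>
    intro j O s _ _ hv hc _ _
    have : 0 < ((p.A j).filter (· ≤ i₀)).card := card_pos.2 ⟨O, mem_filter.2 ⟨hv.1.1, hv.1.2.1⟩⟩
    omega
  | succ c ih =>
    intro j O s h1 hj hv hc hd hlate
    have hOj := p.lt_of_mem hj hv.1.1
    have hg := hv.gain hJ ht hj
    have hs : dist t s < δ / 2 := hv.2.2.1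
    have hs0 := dist_nonneg (x := t) (y := s)
    have hw : 0 ≤ δ / 2 ^ J := div_nonneg (by linarith) (by positivity)
    have hcε : 0 ≤ c * ε := by positivity
    push_cast at hd
    by_cases hall : ∀ j', j < j' → j' ≤ p.L → O ∈ p.A j'
    · refine ⟨O, j, p.L, s, t, h1.le, hOj.le, hj, le_rfl, by omega, fun i i1 i2 => ?_, ht,
        by rw [dist_self]; linarith, by linarith, by linarith, hv.start_cond hJ ht, ?_⟩
      · by_cases hi : i ≤ j
        · exact p.mem_of_le hi hj hv.1.1 i1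
        · exact hall i (by omega) i2.le
      · rintro q (hq | ⟨_, rfl⟩)
        · exact absurd hq.1 (lt_irrefl _)
        · left; rwa [dist_self]
    have hex : ∃ j', j < j' ∧ j' ≤ p.L ∧ O ∉ p.A j' := by
      by_contra h
      exact hall fun i h1 h2 => by
        by_contra h3
        exact h ⟨i, h1, h2, h3⟩
    classical
    obtain ⟨f1, f2, f3⟩ := Nat.find_spec hex
    have hmin := fun i => @Nat.find_min _ _ hex i
    obtain ⟨k, hk⟩ : ∃ k, Nat.find hex = k + 1 := ⟨Nat.find hex - 1, by omega⟩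
    rw [hk] at f1 f2 f3 hmin
    have alive : ∀ i, O < i → i < k + 1 → O ∈ p.A i := fun i i1 i2 => by
      by_cases hi : i ≤ j
      · exact p.mem_of_le hi hj hv.1.1 i1
      · by_contra h
        exact hmin i i2 ⟨by omega, by omega, h⟩
    have hO := hv.1.stay h1 (by omega : j ≤ k) (by omega) (alive k (by omega) (by omega))
    obtain ⟨Y, hY⟩ := p.exists_Y (by omega : i₀ < k) (by omega)
    obtain ⟨O', hO'⟩ := p.exists_O (by omega : i₀ < k + 1) f2
    obtain ⟨Y', hY'⟩ := p.exists_Y (by omega : i₀ < k + 1) f2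
    obtain ⟨e, he⟩ := valid_of_gap ht hδ (by omega) f2 hO' hY'
      (p.change (by omega) f2 hO hY hO' hY' (Or.inl f3)) (hlate _ f1 f2 _ hY')
    have hOO : O' ≤ O := hO.2.2 O' (p.mem_pred f2 hO'.1 (by have := hO'.2.1; omega)) hO'.2.1
    have he1 : dist t e < δ / 2 := he.2.2.1
    by_cases hge : ε ≤ dist t s - dist t e
    · have k1 := dB_tri (p.E O) t e
      have k2 := dist_triangle_left e s t
      exact ⟨O, j, k + 1, s, e, h1.le, hOj.le, by omega, f2, by omega, alive, he.2.1,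
        by linarith, by linarith, by linarith, hv.start_cond hJ ht,
        he.end_cond hJ ht f2 hOO (by omega) (by linarith)⟩
    · refine ih (k + 1) O' e (by omega) f2 he ?_ (by linarith)
        fun j' h2 => hlate j' (by omega)
      have : (p.A (k + 1)).filter (· ≤ i₀) ⊆ ((p.A j).filter (· ≤ i₀)).erase O := fun a ha => by
        rw [mem_filter] at ha
        refine mem_erase.2 ⟨fun h => f3 (h ▸ ha.1), mem_filter.2 ⟨?_, ha.2⟩⟩
        exact p.mem_of_le (by omega) f2 ha.1 (by omega)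
      have h2 := card_le_card this
      rw [card_erase_of_mem (mem_filter.2 ⟨hv.1.1, hv.1.2.1⟩)] at h2
      omega

theorem window (hJ : 8 ≤ J) (ht : t ∈ Set.range (p.E p.L)) (hδ : δ = dB (p.E i₀) t) (h0 : 0 < δ)
    (hi : i₀ < p.L) {M : ℕ} (hM : 0 < M) (hA : ∀ i ≤ p.L, (p.A i).card ≤ M) :
    p.Piece i₀ t δ (δ / (4 * M)) := by
  classical
  have hM' : (1 : ℝ) ≤ M := by exact_mod_cast hM
  have hε : δ / (4 * M) ≤ δ / 4 := div_le_div_of_nonneg_left h0.le (by norm_num) (by linarith)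
  have hw : 0 ≤ δ / 2 ^ J := by positivity
  obtain ⟨j, hj, hmax⟩ := exists_max_image ((range (p.L + 1)).filter fun j => i₀ < j ∧
      ∃ Y, p.IsY i₀ j Y ∧ δ / 2 ≤ dB (p.E Y) t) id ⟨i₀ + 1, mem_filter.2 ⟨mem_range.2 (by omega),
    by omega, i₀, ⟨p.self_mem hi, le_rfl, fun _ _ h => h⟩, by linarith⟩⟩
  rw [mem_filter, mem_range] at hj
  obtain ⟨j1, j2, Y, hY, hY'⟩ := hj
  have late : ∀ j', j < j' → j' ≤ p.L → ∀ Y, p.IsY i₀ j' Y → dB (p.E Y) t < δ / 2 :=
    fun j' h1 h2 Y' h3 => by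
      by_contra h4
      have := hmax j' (mem_filter.2 ⟨mem_range.2 (by omega), by omega, Y', h3, not_lt.1 h4⟩)
      simp only [id] at this; omega
  have hYj := p.lt_of_mem (by omega) hY.1
  obtain ⟨x, hx⟩ := exists_dB (p.E Y) t
  have s0 : dB (p.E Y) (p.E Y x) = 0 := dB_zero ⟨x, rfl⟩
  have s1 := p.mono hY.2.1 (by omega) le_rfl ht
  have start : ∀ q, p.InS t Y q →
      |dB (p.E Y) q - dB (p.E Y) (p.E Y x)| ≤ δ / 2 ^ J ∨ p.FarP δ Y (p.E Y x) q := fun q hq => by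
    left; rw [s0, dB_zero (hq.mem ht)]; simpa using hw
  have alive : ∀ i, Y < i → i ≤ j → Y ∈ p.A i := fun i i1 i2 =>
    p.mem_of_le i2 (by omega) hY.1 i1
  rcases (show j = p.L ∨ j < p.L by omega) with h | h
  · refine ⟨Y, Y, p.L, p.E Y x, t, hY.2.1, le_rfl, by omega, le_rfl, by omega,
      fun i i1 i2 => alive i i1 (by omega), ht, by rw [dist_self]; linarith, by linarith,
      by linarith, start, ?_⟩
    rintro q (hq | ⟨_, rfl⟩)
    · exact absurd hq.1 (lt_irrefl _)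
    · left; rwa [dist_self]
  have hdead : Y ∉ p.A (j + 1) := fun h1 => by
    have := late (j + 1) (by omega) h Y (hY.stay h h1); linarith
  obtain ⟨O, hO⟩ := p.exists_O j2 h.le
  obtain ⟨O', hO'⟩ := p.exists_O (by omega : i₀ < j + 1) h
  obtain ⟨Y', hY''⟩ := p.exists_Y (by omega : i₀ < j + 1) h
  obtain ⟨e, he⟩ := valid_of_gap ht hδ (by omega) h hO' hY''
    (p.change j2 h hO hY hO' hY'' (Or.inr hdead)) (late _ (by omega) h _ hY'')
  by_cases hd : dist t e ≤ δ / 4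
  · have k1 := dB_tri (p.E Y) t e
    have k2 := dist_triangle_left e (p.E Y x) t
    exact ⟨Y, Y, j + 1, p.E Y x, e, hY.2.1, le_rfl, by omega, h, by omega,
      fun i i1 i2 => alive i i1 (by omega), he.2.1, by linarith, by linarith, by linarith, start,
      he.end_cond hJ ht h (hO'.2.1.trans hY.2.1) (by omega) (by linarith)⟩
  · refine orun hJ ht hδ (by positivity) M (j + 1) O' e (by omega) h he
      ((card_filter_le _ _).trans (hA _ h)) ?_ fun j' h1 => late j' (by omega)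
    have : (M : ℝ) * (δ / (4 * M)) = δ / 4 := by field_simp
    linarith

/-- Far vertices are separated by the label itself or by a separator born earlier. -/
theorem far_sep (hJ : 8 ≤ J) {l : ℕ} (hl : l ≤ p.L) (s : V) :
    ∃ (y : I → ℕ) (A : I → Option (I × I)), (∀ i, y i ∈ p.A l ∨ y i = l) ∧ ∀ q, 0 < dist q s →
      50 * dB (p.E l) s ≤ dist q s → dist q s / 50 ≤ |dB (p.E l) q - dB (p.E l) s| ∨
        ∃ i, y i ∈ p.A l ∧ dist q s / 50 ≤ |lf (p.E (y i)) (p.E (y i + 1)) (A i) q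
          - lf (p.E (y i)) (p.E (y i + 1)) (A i) s| := by
  obtain ⟨x, hx⟩ := exists_dB (p.E l) s
  have : ∀ i, ∃ (y : ℕ) (A : Option (I × I)), (y ∈ p.A l ∨ y = l) ∧
      (0 < dist (p.E l x) (p.E l i) → y ∈ p.A l ∧ dist (p.E l x) (p.E l i) / 10
        ≤ |lf (p.E y) (p.E (y + 1)) A (p.E l x) - lf (p.E y) (p.E (y + 1)) A (p.E l i)|) :=
    fun i => by
      by_cases h : 0 < dist (p.E l x) (p.E l i)
      · obtain ⟨y, hy, A, hA⟩ := p.inbag hJ hl ⟨x, rfl⟩ ⟨i, rfl⟩ h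
        exact ⟨y, A, Or.inl hy, fun _ => ⟨hy, hA⟩⟩
      · exact ⟨l, none, Or.inr rfl, fun h' => absurd h' h⟩
  choose y A h1 h2 using this
  refine ⟨y, A, h1, fun q q1 q2 => ?_⟩
  by_cases h : dist q s / 25 ≤ dB (p.E l) q
  · exact Or.inl (le_trans (by linarith) (le_abs_self _))
  right
  obtain ⟨i, hi⟩ := exists_dB (p.E l) q
  have k1 := dist_triangle4 q (p.E l i) (p.E l x) s
  rw [dist_comm (p.E l x) s, dist_comm (p.E l i)] at k1
  obtain ⟨k2, k3⟩ := h2 i (by linarith)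
  refine ⟨i, k2, ?_⟩
  have k4 := abs_le.1 (lf_lip (p.E (y i)) (p.E (y i + 1)) (A i) q (p.E l i))
  have k5 := abs_le.1 (lf_lip (p.E (y i)) (p.E (y i + 1)) (A i) s (p.E l x))
  rcases le_abs.1 k3 with k6 | k6
  · exact le_abs.2 (Or.inr (by linarith [k4.1, k4.2, k5.1, k5.2]))
  · exact le_abs.2 (Or.inl (by linarith [k4.1, k4.2, k5.1, k5.2]))

end PathD

end Vale.Agent.P235
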